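import Vale.Agent.P195.Window

/-!
The counterexample.
-/

namespace Vale.Agent.P195

open CategoryTheory Limits Abelian Function

universe v u v' u'

section General

variable {C : Type u} [Category.{v} C] {D : Type u'} [Category.{v'} D] (H : C ⥤ D)

lemma pre_bij_map {A B Y : C} (f : A ⟶ B) (hA : Bijective (fun φ : A ⟶ Y => H.map φ))
    (hB : Bijective (fun φ : B ⟶ Y => H.map φ)) (h : Bijective (fun φ : B ⟶ Y => f ≫ φ)) :
    Bijective (fun Φ : H.obj B ⟶ H.obj Y => H.map f ≫ Φ) := by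
  refine (Bijective.of_comp_iff _ hB).1 ?_
  have : (fun Φ : H.obj B ⟶ H.obj Y => H.map f ≫ Φ) ∘ (fun φ : B ⟶ Y => H.map φ) =
      (fun φ : A ⟶ Y => H.map φ) ∘ (fun φ : B ⟶ Y => f ≫ φ) := by
    funext φ
    exact (H.map_comp _ _).symm
  rw [this]
  exact hA.comp h

lemma post_bij_map {A B U : C} (f : A ⟶ B) (hA : Bijective (fun φ : U ⟶ A => H.map φ))
    (hB : Bijective (fun φ : U ⟶ B => H.map φ)) (h : Bijective (fun φ : U ⟶ A => φ ≫ f)) :
    Bijective (fun Φ : H.obj U ⟶ H.obj A => Φ ≫ H.map f) := by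
  refine (Bijective.of_comp_iff _ hA).1 ?_
  have : (fun Φ : H.obj U ⟶ H.obj A => Φ ≫ H.map f) ∘ (fun φ : U ⟶ A => H.map φ) =
      (fun φ : U ⟶ B => H.map φ) ∘ (fun φ : U ⟶ A => φ ≫ f) := by
    funext φ
    exact (H.map_comp _ _).symm
  rw [this]
  exact hB.comp h

end General

section General2

variable {C : Type u} [Category.{v} C] [Abelian C]

lemma bp_homExact {A B E : C} (f : A ⟶ B) (g : B ⟶ E) :
    BP (fun V : C => ∀ ψ : V ⟶ B, ψ ≫ g = 0 → ∃ φ : V ⟶ A, φ ≫ f = ψ) where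
  zero Z hZ ψ _ := ⟨0, hZ.eq_of_src _ _⟩
  add U V hU hV ψ hψ := by
    obtain ⟨a, ha⟩ := hU (biprod.inl ≫ ψ) (by rw [Category.assoc, hψ, comp_zero])
    obtain ⟨b, hb⟩ := hV (biprod.inr ≫ ψ) (by rw [Category.assoc, hψ, comp_zero])
    exact ⟨biprod.desc a b, by ext <;> simp [ha, hb]⟩

lemma coy2_exact {U V : C} (h : Retract U V) {A B E : C} (f : A ⟶ B) (g : B ⟶ E)
    (hex : ∀ ψ : U ⟶ B, ψ ≫ g = 0 → ∃ φ : U ⟶ A, φ ≫ f = ψ) (b : (coy2 V U).obj B)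
    (hb : ((coy2 V U).map g).hom b = 0) : ∃ a, ((coy2 V U).map f).hom a = b := by
  obtain ⟨ψ, rfl⟩ := (coy_bij h B).2 b
  have h1 : ψ ≫ g = 0 := (coy_bij h E).1 (by
    dsimp only
    rw [Functor.map_comp, Functor.map_zero]
    exact hb)
  obtain ⟨φ, rfl⟩ := hex ψ h1
  exact ⟨(coy V).map φ, ((coy V).map_comp φ f).symm⟩

end General2

lemma ses_cycles {R : Type} [Ring R] {A B E : ModuleCat.{0} R} {f : A ⟶ B} {g : B ⟶ E}
    (w : f ≫ g = 0) (hex : ∀ b, g.hom b = 0 → ∃ a, f.hom a = b) :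
    SES (kernel.ι f) (kernel.lift g f w) := by
  refine ses_of_fun (ker_inj f) (fun a => ker_inj _ _ ?_) (fun b hb => ker_ex f b ?_) fun c => ?_
  · rw [ker_lift_ap, ker_ap]
  · rw [← ker_lift_ap g f w, hb, map_zero]
  · obtain ⟨b, hb⟩ := hex _ (ker_ap _ c)
    refine ⟨b, sub_eq_zero.1 (ker_inj _ _ ?_)⟩
    rw [map_sub, ker_lift_ap, hb, sub_self]

variable {W : Type} [Ring W] [Algebra ℚ W]

namespace WData

variable (D : WData W)

/-- The finite-dimensional algebra. -/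
abbrev R : Type := (End ((coy D.Vp).obj D.V))ᵐᵒᵖ

/-- The functor `Hom(V, -)`. -/
noncomputable abbrev F : D.M ⥤ ModuleCat.{0} D.R := coy2 D.Vp D.V

/-- The chain of Koszul modules. -/
noncomputable def C (k : ℤ) : D.M := D.pp.N (2 - k, -k)

/-- The maps of the chain. -/
noncomputable def fC (k : ℤ) : D.C (k + 1) ⟶ D.C k :=
  D.pp.eN (by ext <;> simp <;> omega)

variable {D}

lemma fC_fC (k : ℤ) : D.fC (k + 1) ≫ D.fC k = 0 := D.pp.eN_eN _ _

lemma fC_bij (k : ℤ) (ν : G) (h : (ν.1 - (k + 1)) % 2 = 0) :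
    InjAt ν (D.fC k) ∧ SurjAt ν (D.fC k) :=
  ⟨D.pp.injAt_eN _ (by dsimp only; omega) rfl, D.pp.surjAt_eN _ (by dsimp only; omega)⟩

lemma reg_C_even {k : ℤ} (h : 0 < k) (h2 : k % 2 = 0) : Reg 0 (D.C k) :=
  reg_C (m := k / 2) (by omega) (by dsimp only; omega) (by dsimp only; omega)

lemma reg_C_odd {k : ℤ} (h : 0 < k) (h2 : k % 2 = 1) : Reg 1 (D.C k) :=
  reg_C (m := (k + 1) / 2) (by omega) (by dsimp only; omega) (by dsimp only; omega)

lemma fC_exact (k : ℤ) (b : D.F.obj (D.C (k + 1))) (hb : (D.F.map (D.fC k)).hom b = 0) :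
    ∃ a, (D.F.map (D.fC (k + 1))).hom a = b := by
  have key : ∀ l : ℤ, ∀ ψ : D.T l ⟶ D.C (k + 1), ψ ≫ D.fC k = 0 →
      ∃ φ : D.T l ⟶ D.C (k + 1 + 1), φ ≫ D.fC (k + 1) = ψ := by
    intro l ψ hψ
    rcases Int.emod_two_eq_zero_or_one (l - k) with h | h
    · exact (homBij_T l fun ν hν => fC_bij (k + 1) ν (by omega)).2 ψ
    · rw [(homBij_T l fun ν hν => fC_bij k ν (by omega)).1 ψ hψ]
      exact ⟨0, zero_comp⟩
  exact coy2_exact D.rV _ _ (bp_V (bp_homExact _ _) (key 0) (key 1)) b hb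

lemma homZero_T (l : ℤ) {A : D.M} (h0 : VanAt (l, l) A) (h1 : VanAt (l, l + 2) A)
    (h2 : VanAt (l, l + 4) A) (hA : ∀ u : A, D.h • u = 0 → u = 0) (φ : D.T l ⟶ A) : φ = 0 :=
  bp_T (bp_homZero A) h0.hom_zero h1.hom_zero h2.hom_zero (D.px.S_homZero (ex l) h1 hA)
    (D.pp.S_homZero (ep l) h1 hA) φ

lemma homZero_T_C : ∀ φ : D.T 0 ⟶ D.C 0, φ = 0 :=
  homZero_T 0 (vanAt_N_p (by simp)) (vanAt_N_p (by simp)) (vanAt_N_p (by simp)) D.pp.N_h_inj

section Target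

variable {Y : D.M} (hn : Nul0 0 Y) (hY : EpsG 0 Y) (ho : Onto3 D.pp (-2, 4) Y)
include hn hY ho

lemma preBij_Fp {k : ℤ} (h : k % 2 = 0) :
    PreBij ((coy D.Vp).map (D.fC k)) ((coy D.Vp).obj Y) := by
  have : IsIso ((coy ((coy D.Vp).obj D.PO)).map ((coy D.Vp).map (D.fC k))) := by
    refine FO_isIso (D.fC k) fun ν hν => fC_bij k ν ?_
    have := (om_facts ν hν).1
    omega
  exact (piE' hn hY ho ((coy D.Vp).obj (D.C (k + 1))) (Fp_finite (D.pp.lf_N _))).preBij_of_map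
    (piE' hn hY ho ((coy D.Vp).obj (D.C k)) (Fp_finite (D.pp.lf_N _))) (preBij_of_isIso _ _)

lemma null_Z : Null (kernel (D.F.map (D.fC 0))) (D.F.obj Y) := by
  refine null_of_chain (ι := {k : ℤ // 0 ≤ k ∧ k % 2 = 0})
    (fun k => kernel (D.F.map (D.fC k.1))) ?_ ⟨0, le_rfl, rfl⟩
  rintro ⟨k, h1, h2⟩
  have w : ∀ k, D.F.map (D.fC (k + 1)) ≫ D.F.map (D.fC k) = 0 := fun k => by
    rw [← Functor.map_comp, fC_fC, Functor.map_zero]
  refine ⟨⟨k + 1 + 1, by omega, by omega⟩, _, _, _, _, _, _, _,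
    ses_cycles (w (k + 1)) (fC_exact (k + 1)), ses_cycles (w k) (fC_exact k), ?_⟩
  rw [kernel.lift_ι]
  exact (piE_reg (Or.inr rfl) _ (reg_C_odd (by omega) (by omega))).preBij_map
    (piE_reg (Or.inl rfl) _ (reg_C_even (by omega) (by omega))) (preBij_Fp hn hY ho (by omega))

lemma piE_X : Pi (coy ((coy D.Vp).obj D.V)) ((coy D.Vp).obj (D.C 0)) ((coy D.Vp).obj Y) := by
  have : Epi (D.F.map (D.fC 0)) := by
    refine (ModuleCat.epi_iff_surjective _).2 (coy_post_surj D.rV _ (bp_V (bp_homSurj _) ?_ ?_))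
    · intro ψ
      exact ⟨0, by rw [homZero_T_C ψ, zero_comp]⟩
    · exact (homBij_T 1 fun ν hν => fC_bij 0 ν (by omega)).2
  exact (piE_reg (Or.inr rfl) _ (reg_C_odd (by omega) (by omega))).of_preBij
    (preBij_Fp hn hY ho rfl) (preBij_of_null (ses_kernel (D.F.map (D.fC 0))) (null_Z hn hY ho))

end Target

/-- The maps out of the relations extend. -/
def OntoV (U : D.M) : Prop :=
  Onto3 D.px (2, 2) U ∧ Onto3 D.pp (-2, 4) U ∧ Onto3 D.px (3, 3) U ∧ Onto3 D.pp (-1, 5) U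

lemma homSurj_Vp_of_ses {K A B : D.M} {k : K ⟶ A} {f : A ⟶ B} (s : SES k f) (h : OntoV K) :
    ∀ ψ : D.Vp ⟶ B, ∃ χ : D.Vp ⟶ A, χ ≫ f = ψ :=
  have hs : ∀ μ, SurjAt μ f := fun _ b _ => s.surj b
  bp_Vp (bp_homSurj f) (homSurj_T 0 s.ap s.ex (hs _) (hs _) (hs _) (hs _) (hs _) h.1 h.2.1)
    (homSurj_T 1 s.ap s.ex (hs _) (hs _) (hs _) (hs _) (hs _) h.2.2.1 h.2.2.2)
    fun μ _ => (hs μ).homSurj

lemma ontoV_P {κ : G} (h : κ = (2, 0) ∨ κ = (-2, 2) ∨ κ = (0, 2)) : OntoV (D.P κ) := by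
  rcases h with rfl | rfl | rfl <;>
    exact ⟨onto3_x_P (by simp), onto3_p_P (by simp), onto3_x_P (by simp), onto3_p_P (by simp)⟩

/-- The two sequences with the rank two modules in the middle. -/
structure Seq (D : WData W) where
  j1 : D.P (2, 0) ⟶ D.Sx 0
  q1 : D.Sx 0 ⟶ D.px.I (-2, 2)
  j2 : D.P (-2, 2) ⟶ D.Sp 0
  q2 : D.Sp 0 ⟶ D.pp.I (2, 0)
  s1 : SES j1 q1
  s2 : SES j2 q2

lemma nonempty_seq (D : WData W) : Nonempty D.Seq := by
  obtain ⟨q1, s1⟩ := D.px.exists_qS (ex 0) (ν := (-2, 2)) rfl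
  obtain ⟨q2, s2⟩ := D.pp.exists_qS (ep 0) (ν := (2, 0)) rfl
  exact ⟨⟨_, q1, _, q2, s1, s2⟩⟩

namespace Seq

variable (s : D.Seq)

lemma ses1 : SES ((coy D.Vp).map s.j1) ((coy D.Vp).map (s.q1 ≫ D.px.i (-2, 2))) := by
  have := s.s1.mono
  have s0 := D.px.ses0 (-2, 2)
  refine coy_ses _ (by rw [← Category.assoc, s.s1.w, zero_comp]) ?_ fun ψ => ?_
  · exact (ShortComplex.moduleCat_exact_iff _).2 fun b hb => s.s1.ex b (s0.inj _ hb)
  · have h0 : ∀ φ : D.Vp ⟶ D.px.N (-2, 2), φ = 0 :=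
      bp_Vp (bp_homZero _)
        (homZero_T 0 (vanAt_N_x (by simp)) (vanAt_N_x (by simp)) (vanAt_N_x (by simp))
          D.px.N_h_inj)
        (homZero_T 1 (vanAt_N_x (by simp)) (vanAt_N_x (by simp)) (vanAt_N_x (by simp))
          D.px.N_h_inj)
        fun μ hμ => (vanAt_N_x (by
          have := om_facts μ hμ
          dsimp only
          omega)).hom_zero
    obtain ⟨ψ', rfl⟩ := s0.lift ψ (h0 _)
    obtain ⟨χ, rfl⟩ := homSurj_Vp_of_ses s.s1 (ontoV_P (by simp)) ψ'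
    exact ⟨χ, (Category.assoc _ _ _).symm⟩

lemma ses2 : SES ((coy D.Vp).map s.j2) ((coy D.Vp).map s.q2) := by
  have := s.s2.mono
  exact coy_ses _ s.s2.w s.s2.2.exact (homSurj_Vp_of_ses s.s2 (ontoV_P (by simp)))

end Seq

lemma ses3 : SES ((coy D.Vp).map (D.pp.i (2, 0))) ((coy D.Vp).map (D.pp.π (2, 0))) := by
  have s0 := D.pp.ses0 (2, 0)
  have s1 := D.pp.ses1 (2, 0)
  have := s0.mono
  have h := ontoV_P (D := D) (κ := (0, 2)) (by simp)
  exact coy_ses _ s0.w s0.2.exact (homSurj_Vp_of_ses s0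
    ⟨(h.1.pr2 h.1).of_surj _ s1.surj, (h.2.1.pr2 h.2.1).of_surj _ s1.surj,
      (h.2.2.1.pr2 h.2.2.1).of_surj _ s1.surj, (h.2.2.2.pr2 h.2.2.2).of_surj _ s1.surj⟩)

lemma retract_Sx : Nonempty (Retract (D.Sx 0) D.V) := by
  obtain ⟨r⟩ := retract_T (D := D) (l := 0) (A := D.Sx 0) (by simp [TL])
  exact ⟨r.trans D.rT0⟩

lemma retract_Sp : Nonempty (Retract (D.Sp 0) D.V) := by
  obtain ⟨r⟩ := retract_T (D := D) (l := 0) (A := D.Sp 0) (by simp [TL])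
  exact ⟨r.trans D.rT0⟩

section Target

variable {Y : D.M} (hn : Nul0 0 Y) (hY : EpsG 0 Y) (ho : Onto3 D.pp (-2, 4) Y)
include hn hY ho

lemma piE_M : Pi (coy ((coy D.Vp).obj D.V)) ((coy D.Vp).obj (D.P (-2, 2))) ((coy D.Vp).obj Y) := by
  obtain ⟨s⟩ := D.nonempty_seq
  obtain ⟨r1⟩ := retract_Sx (D := D)
  obtain ⟨r2⟩ := retract_Sp (D := D)
  exact pi_of_three s.ses1 s.ses2 ses3 (piE_retract r1 _) (piE_retract r2 _) (piE_X hn hY ho)

lemma nullPos_M : NullPos (D.F.obj (D.P (-2, 2))) (D.F.obj Y) :=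
  fun n => (piE_M hn hY ho).van_map ((piE' hn hY ho _ (Fp_finite (lf_P _))).van_of_map
    ((piO_chain hn hY).2.1.van_map (van_projective _ _ n)))

lemma F_bij : Bijective (fun φ : D.P (-2, 2) ⟶ Y => D.F.map φ) := by
  have h1 : Bijective (fun φ : D.P (-2, 2) ⟶ Y => (coy D.Vp).map φ) :=
    (Bijective.of_comp_iff' (piE' hn hY ho _ (Fp_finite (lf_P _))).map_bij _).1
      (piO_chain hn hY).2.1.map_bij
  exact (piE_M hn hY ho).map_bij.comp h1

lemma null_X (hp : Null (D.pp.N (2, 0)) Y) : Null (D.F.obj (D.C 0)) (D.F.obj Y) :=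
  fun n => (piE_X hn hY ho).van_map ((piE' hn hY ho _ (Fp_finite (D.pp.lf_N _))).van_of_map
    ((piO_chain hn hY).2.2.van_map (hp n)))

end Target

lemma F_projective {A : D.M} (r : Retract A D.V) : Projective (D.F.obj A) :=
  coy_projective (r.map (coy D.Vp))

instance : Projective (D.F.obj (D.T 0)) := F_projective D.rT0

lemma hom_finite {U : D.M} (h : LF U) :
    Module.Finite ℚ ((coy D.Vp).obj D.V ⟶ (coy D.Vp).obj U) :=
  have := finite_V h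
  coy_hom_finite D.rV U

lemma R_finite : Module.Finite ℚ D.R :=
  have := hom_finite (D := D) lf_V
  end_op_finite _

instance : IsNoetherianRing D.R :=
  have := hom_finite (D := D) lf_V
  end_op_noetherian _

lemma F_finite {U : D.M} (h : LF U) : Module.Finite D.R (D.F.obj U) :=
  have := hom_finite h
  coy_finite _ _

lemma piE1_step {A B : D.M} (hA : A ∈ D.TL 0) (hB : B ∈ D.TL 1) (f : A ⟶ B)
    (h1 : ∀ ν : G, (ν.1 - 0) % 2 = 0 → InjAt ν f ∧ SurjAt ν f)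
    (h2 : Bijective (fun φ : B ⟶ D.T 1 => f ≫ φ)) :
    Pi (coy (D.F.obj (D.T 0))) (D.F.obj B) (D.F.obj (D.T 1)) := by
  obtain ⟨rA⟩ := retract_T hA
  obtain ⟨rB⟩ := retract_T hB
  have := F_projective (rA.trans D.rT0)
  have := F_projective (rB.trans D.rT1)
  have : IsIso ((coy (D.F.obj (D.T 0))).map (D.F.map f)) :=
    coy_isIso _ _ (post_bij_map D.F f (coy2_bij D.rV D.rT0 _) (coy2_bij D.rV D.rT0 _)
      (bijective_post (homBij_T 0 h1).1 (homBij_T 0 h1).2))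
  exact (pi_coy (rA.map D.F) _).of_preBij (f := D.F.map f)
    (preBij_of_hom _ (nullPos_projective _ _) (nullPos_projective _ _)
      (pre_bij_map D.F f (coy2_bij D.rV (rA.trans D.rT0) _) (coy2_bij D.rV (rB.trans D.rT1) _) h2))
    (preBij_of_isIso _ _)

lemma piE1_P {b : ℤ} (hA : D.P (0, b) ∈ D.TL 0) (hB : D.P (1, b + 1) ∈ D.TL 1)
    (h : Gd 1 (1, b + 1)) :
    Pi (coy (D.F.obj (D.T 0))) (D.F.obj (D.P (1, b + 1))) (D.F.obj (D.T 1)) := by
  have e : ((0, b) : G) = (1, b + 1) + ed := by ext <;> simp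
  exact piE1_step hA hB (D.rmul _ _ D.e) (fun ν hν => ⟨injAt_e e hν, surjAt_e e hν⟩)
    (pre_e_bij e ((reg_T 1).2.1 _ h))

lemma null_X_two : Null (D.F.obj (D.C 0)) (D.F.obj (D.T 1)) := by
  have hQ := (tt_pi (coy (D.F.obj (D.T 0))) (D.F.obj (D.T 1))).bp_comp D.F
  have he := (reg_T (D := D) 1).2.1
  have h1 : Pi (coy (D.F.obj (D.T 0))) (D.F.obj D.V) (D.F.obj (D.T 1)) := by
    refine bp_V hQ (pi_coy (Retract.refl _) _) (bp_T hQ
      (piE1_P (b := 0) (by simp [TL]) (by simp [TL]) (by simp [Gd]))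
      (piE1_P (b := 2) (by simp [TL]) (by simp [TL]) (by simp [Gd]))
      (piE1_P (b := 4) (by simp [TL]) (by simp [TL]) (by simp [Gd])) ?_ ?_)
    · obtain ⟨f, h2, h3⟩ := D.px.exists_eS (ex 1) (μ' := (0, 0 + 2)) (γ' := (0 + 2, 0)) rfl rfl
      exact piE1_step (A := D.Sx 0) (by simp [TL]) (by simp [TL]) f
        (fun ν hν => h2 ν hν (by dsimp only; omega))
        (h3 _ (he _ (by simp [Gd])) (he _ (by simp [Gd])) (he _ (by simp [Gd])).1)
    · obtain ⟨f, h2, h3⟩ := D.pp.exists_eS (ep 1) (μ' := (0, 0 + 2)) (γ' := (0 - 2, 0 + 2)) rfl rfl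
      exact piE1_step (A := D.Sp 0) (by simp [TL]) (by simp [TL]) f
        (fun ν hν => h2 ν hν (by dsimp only; omega))
        (h3 _ (he _ (by simp [Gd])) (he _ (by simp [Gd])) (he _ (by simp [Gd])).1)
  have h2 := pi_of_fg ((tt_pi _ _).iso (coyIso ((coy D.Vp).obj D.V)).symm h1) (D.F.obj (D.C 0))
    (F_finite (D.pp.lf_N _))
  refine fun n => h2.van_of_map (van_of_isZero (coy_isZero _ fun Φ => ?_) _ n)
  obtain ⟨φ, rfl⟩ := (coy2_bij D.rV D.rT0 (D.C 0)).2 Φ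
  dsimp only
  rw [homZero_T_C φ, Functor.map_zero]

lemma null_x_T1 : Null (D.px.N (-2, 2)) (D.T 1) := by
  have hQ := tt_null_right (D.px.N (-2, 2))
  have h : ∀ κ : G, κ.1 ≤ 1 → Null (D.px.N (-2, 2)) (D.P κ) := fun κ hκ =>
    D.px.null_P rfl (onto2_x_P (by simp; omega))
  exact bp_T hQ.bp (h _ le_rfl) (h _ le_rfl) (h _ le_rfl)
    (D.px.tt_S_H hQ (ex 1) (h _ le_rfl) (D.px.null_H rfl (onto3_x_P (by simp))))
    (D.pp.tt_S hQ (ep 1) rfl (h _ (by simp)) (h _ le_rfl) (h _ (by simp)))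

lemma null_p_T1 : Null (D.pp.N (2, 0)) (D.T 1) := by
  have hQ := tt_null_right (D.pp.N (2, 0))
  have h : ∀ κ : G, 1 ≤ κ.1 → Null (D.pp.N (2, 0)) (D.P κ) := fun κ hκ =>
    D.pp.null_P rfl (onto2_p_P (by simp; omega))
  exact bp_T hQ.bp (h _ le_rfl) (h _ le_rfl) (h _ le_rfl)
    (D.px.tt_S hQ (ex 1) rfl (h _ (by simp)) (h _ le_rfl) (h _ (by simp)))
    (D.pp.tt_S_H hQ (ep 1) (h _ le_rfl) (D.pp.null_H rfl (onto3_p_P (by simp))))

lemma nullPos_M_two : NullPos (D.F.obj (D.P (-2, 2))) (D.F.obj (D.T 1)) := by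
  obtain ⟨s⟩ := D.nonempty_seq
  obtain ⟨r1⟩ := retract_Sx (D := D)
  obtain ⟨r2⟩ := retract_Sp (D := D)
  have := F_projective r1
  have := F_projective r2
  have b1 := coy2_bij D.rV r1 (D.T 1)
  have b2 := coy2_bij D.rV r2 (D.T 1)
  refine nullPos_of_periodic (Z1 := D.F.obj (D.Sx 0)) (Z2 := D.F.obj (D.Sp 0))
    (j1 := D.F.map s.j1) (q1 := D.F.map (s.q1 ≫ D.px.i (-2, 2))) (j2 := D.F.map s.j2)
    (q2 := D.F.map s.q2) (i := D.F.map (D.pp.i (2, 0))) (π := D.F.map (D.pp.π (2, 0)))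
    (s.ses1.map (coy _)) (s.ses2.map (coy _)) (ses3.map (coy _)) null_X_two ?_ ?_
  · intro Φ hΦ
    obtain ⟨φ, rfl⟩ := b2.2 Φ
    obtain ⟨ψ, rfl⟩ := periodic_exact s.s1 (D.px.ses0 _) s.s2 (D.pp.ses0 _) null_x_T1 null_p_T1 φ
      (b1.1 (by
        dsimp only at hΦ ⊢
        rw [Functor.map_zero, ← hΦ]
        simp only [Functor.map_comp, Category.assoc]))
    exact ⟨D.F.map ψ, by simp only [Functor.map_comp, Category.assoc]⟩
  · intro Φ hΦ
    obtain ⟨φ, rfl⟩ := b1.2 Φ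
    obtain ⟨ψ, rfl⟩ := periodic_exact s.s2 (D.pp.ses0 _) s.s1 (D.px.ses0 _) null_p_T1 null_x_T1 φ
      (b2.1 (by
        dsimp only at hΦ ⊢
        rw [Functor.map_zero, ← hΦ]
        simp only [Functor.map_comp, Category.assoc]))
    exact ⟨D.F.map ψ, by simp only [Functor.map_comp, Category.assoc]⟩

lemma nullPos_M_self : NullPos (D.F.obj (D.P (-2, 2))) (D.F.obj (D.P (-2, 2))) :=
  nullPos_M (nul0_P (by simp) (by simp)) (epsG_P (by simp)) (onto3_p_P (by simp))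

lemma nullPos_M_R : NullPos (D.F.obj (D.P (-2, 2))) (ModuleCat.of D.R D.R) := by
  intro n
  have h := reg_T (D := D) 0
  exact Van.iso_right (coyIso ((coy D.Vp).obj D.V)).symm
    (Van.c2' (ses_biprod_map D.F (D.T 0) (D.T 1)).2
      (nullPos_M h.1.1 h.2.1 h.1.onto_p.onto3 n) (nullPos_M_two n))

lemma null_X_R : Null (D.F.obj (D.C 0)) (ModuleCat.of D.R D.R) := by
  intro n
  have h := reg_T (D := D) 0
  exact Van.iso_right (coyIso ((coy D.Vp).obj D.V)).symm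
    (Van.c2' (ses_biprod_map D.F (D.T 0) (D.T 1)).2
      (null_X h.1.1 h.2.1 h.1.onto_p.onto3 h.1.2 n) (null_X_two n))

lemma not_projective : ¬ Projective (D.F.obj (D.P (-2, 2))) := by
  intro hP
  obtain ⟨s⟩ := D.nonempty_seq
  have h := reg_Sx (D := D) 0
  have : Epi (D.F.map (s.q1 ≫ D.px.i (-2, 2))) := (s.ses1.map (coy _)).epi
  obtain ⟨σ, hσ⟩ := (F_bij h.1.1 h.2.1 h.1.onto_p.onto3).2
    (Projective.factorThru (𝟙 _) (D.F.map (s.q1 ≫ D.px.i (-2, 2))))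
  have h1 : σ ≫ s.q1 ≫ D.px.i (-2, 2) = 𝟙 _ :=
    (F_bij (nul0_P (by simp) (by simp)) (epsG_P (by simp)) (onto3_p_P (by simp))).1 (by
      dsimp only at hσ ⊢
      rw [Functor.map_comp, hσ, Projective.factorThru_comp, CategoryTheory.Functor.map_id])
  have h2 : D.px.cl (-2, 2) 1 = 0 := by
    have h3 := hom_ap h1 (D.el _ 1)
    rw [Pair.cl, ← show _ = D.el (-2, 2) 1 from h3]
    exact (D.px.ses0 _).ap _
  obtain ⟨a, b, hab⟩ := D.px.cl_eq_zero_iff.1 h2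
  exact D.one_notMem a b hab.symm

end WData

end Vale.Agent.P195
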