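import Vale.Agent.P195.Final

/-!
A nonzero module without Ext to the ring forces infinite finitistic dimension on the other side.
-/

namespace Vale.Agent.P195

open CategoryTheory Limits Abelian Function Opposite

universe u

section Yon

variable {C : Type u} [Category.{0} C] [Abelian C]

/-- The dual `Hom(U, Y)` as a module over `End Y`. -/
noncomputable def dual (Y U : C) : ModuleCat.{0} (End Y) := (preadditiveYonedaObj Y).obj (op U)

/-- The dual map. -/
noncomputable def dmap (Y : C) {U V : C} (f : U ⟶ V) : dual Y V ⟶ dual Y U :=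
  (preadditiveYonedaObj Y).map f.op

lemma dmap_ap (Y : C) {U V : C} (f : U ⟶ V) (g : V ⟶ Y) : (dmap Y f).hom g = f ≫ g := rfl

lemma dual_ses {Y A B E : C} {f : A ⟶ B} {g : B ⟶ E} (s : SES f g)
    (h : ∀ φ : A ⟶ Y, ∃ ψ : B ⟶ Y, f ≫ ψ = φ) : SES (dmap Y g) (dmap Y f) := by
  have := s.epi
  refine ses_of_fun (fun (a : E ⟶ Y) ha => (cancel_epi g).1 (ha.trans comp_zero.symm))
    (fun (a : E ⟶ Y) => ?_) (fun (b : B ⟶ Y) hb => s.desc b hb) h
  change f ≫ g ≫ a = 0
  rw [reassoc_of% s.w, zero_comp]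

/-- Reflexivity properties. -/
def Refl (Y U : C) : Prop :=
  Projective (dual Y U) ∧ (∀ (Z : C) (f : Z ⟶ U), dmap Y f = 0 → f = 0) ∧
    ∀ (Z : C) (Φ : dual Y U ⟶ dual Y Z), ∃ f : Z ⟶ U, dmap Y f = Φ

lemma dual_isZero {Y U : C} (h : ∀ φ : U ⟶ Y, φ = 0) : IsZero (dual Y U) := by
  have : Subsingleton (dual Y U) := ⟨fun a b => (h a).trans (h b).symm⟩
  exact ModuleCat.isZero_of_subsingleton _

lemma dmap_comp (Y : C) {U V Z : C} (f : U ⟶ V) (g : V ⟶ Z) :
    dmap Y (f ≫ g) = dmap Y g ≫ dmap Y f :=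
  hom_ext_ap fun (a : Z ⟶ Y) => Category.assoc f g a

lemma refl_self (Y : C) : Refl Y Y := by
  refine ⟨(inferInstance : Projective (ModuleCat.of (End Y) (End Y))), fun Z f hf => ?_,
    fun Z Φ => ⟨Φ.hom (𝟙 Y), hom_ext_ap fun (g : Y ⟶ Y) => ?_⟩⟩
  · exact (Category.comp_id f).symm.trans (hom_ap hf (𝟙 Y))
  · have h := Φ.hom.map_smul (End.of g) (𝟙 Y)
    exact h.symm.trans (congrArg Φ.hom (Category.id_comp g))

lemma bp_refl (Y : C) : BP (Refl Y) where
  zero Z hZ := by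
    have h := dual_isZero (Y := Y) fun φ : Z ⟶ Y => hZ.eq_of_src φ 0
    exact ⟨h.projective, fun _ f _ => hZ.eq_of_tgt _ _, fun _ Φ => ⟨0, h.eq_of_src _ _⟩⟩
  add A B hA hB := by
    refine ⟨?_, fun Z f hf => ?_, fun Z Φ => ?_⟩
    · have s := dual_ses (Y := Y) (f := (biprod.inl : A ⟶ A ⊞ B)) (g := biprod.snd)
        ⟨_, (biprodSplitting A B).shortExact⟩ fun φ => ⟨biprod.desc φ 0, by simp⟩
      exact projective_iff_hasProjectiveDimensionLT_one.2 (s.2.hasProjectiveDimensionLT_X₂ 1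
        (projective_iff_hasProjectiveDimensionLT_one.1 hB.1)
        (projective_iff_hasProjectiveDimensionLT_one.1 hA.1))
    · ext
      · rw [zero_comp]
        exact hA.2.1 _ _ (by rw [dmap_comp, hf, comp_zero])
      · rw [zero_comp]
        exact hB.2.1 _ _ (by rw [dmap_comp, hf, comp_zero])
    · obtain ⟨a, ha⟩ := hA.2.2 Z (dmap Y biprod.fst ≫ Φ)
      obtain ⟨b, hb⟩ := hB.2.2 Z (dmap Y biprod.snd ≫ Φ)
      refine ⟨biprod.lift a b, hom_ext_ap fun (g : A ⊞ B ⟶ Y) => ?_⟩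
      have h1 : a ≫ biprod.inl ≫ g = Φ.hom (biprod.fst ≫ biprod.inl ≫ g : A ⊞ B ⟶ Y) :=
        hom_ap ha (biprod.inl ≫ g)
      have h2 : b ≫ biprod.inr ≫ g = Φ.hom (biprod.snd ≫ biprod.inr ≫ g : A ⊞ B ⟶ Y) :=
        hom_ap hb (biprod.inr ≫ g)
      have h3 : biprod.fst ≫ biprod.inl ≫ g + biprod.snd ≫ biprod.inr ≫ g = g := by
        rw [← Category.assoc, ← Category.assoc, ← Preadditive.add_comp, biprod.total,
          Category.id_comp]
      have h4 := Φ.hom.map_add (biprod.fst ≫ biprod.inl ≫ g : A ⊞ B ⟶ Y)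
        (biprod.snd ≫ biprod.inr ≫ g : A ⊞ B ⟶ Y)
      refine Eq.trans ?_ ((h4.symm).trans (congrArg Φ.hom h3))
      rw [← h1, ← h2]
      change biprod.lift a b ≫ g = a ≫ biprod.inl ≫ g + b ≫ biprod.inr ≫ g
      rw [biprod.lift_eq, Preadditive.add_comp, Category.assoc, Category.assoc]

lemma dual_finite [Linear ℚ C] (Y U : C) [Module.Finite ℚ (U ⟶ Y)] :
    Module.Finite (End Y) (dual Y U) := by
  have : IsScalarTower ℚ (End Y) (U ⟶ Y) := ⟨fun q r f => Linear.comp_smul _ _ _ f q r⟩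
  exact Module.Finite.of_restrictScalars_finite ℚ (End Y) (U ⟶ Y)

end Yon

section Findim

variable {R : Type} [Ring R] [IsNoetherianRing R]

lemma exists_syzygy (U : ModuleCat.{0} R) (hU : Module.Finite R U) :
    ∃ (K P : ModuleCat.{0} R) (f : K ⟶ P) (g : P ⟶ U), SES f g ∧ Module.Finite R K ∧
      AddC (ModuleCat.of R R) P := by
  obtain ⟨s, hs⟩ := hU.fg_top
  obtain ⟨T', φ, h1, h2⟩ := exists_approx_list (T := ModuleCat.of R R) (U := U)
    (s.toList.map fun u => ModuleCat.ofHom (LinearMap.toSpanSingleton R U u))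
  have hφ : Epi φ := by
    rw [ModuleCat.epi_iff_range_eq_top, eq_top_iff, ← hs, Submodule.span_le]
    intro u hu
    obtain ⟨χ, hχ⟩ := h2 _ (List.mem_map.2 ⟨u, Finset.mem_toList.2 hu, rfl⟩)
    refine ⟨χ.hom 1, ?_⟩
    have := congrArg (fun f => f.hom (1 : R)) hχ
    simpa using this
  have hT : Module.Finite R T' := bp_fg.addC (Module.Finite.self R) h1
  have hK : Module.Finite R (kernel φ : ModuleCat.{0} R) :=
    Module.Finite.of_injective (kernel.ι φ).hom ((ModuleCat.mono_iff_injective _).1 inferInstance)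
  exact ⟨kernel φ, T', kernel.ι φ, φ, ses_kernel φ, hK, h1⟩

lemma exists_step (U : ModuleCat.{0} R) (hU : Module.Finite R U)
    (h : NullPos U (ModuleCat.of R R)) :
    ∃ (K P : ModuleCat.{0} R) (f : K ⟶ P) (g : P ⟶ U), SES f g ∧ Module.Finite R K ∧
      Refl (ModuleCat.of R R) P ∧ NullPos K (ModuleCat.of R R) ∧
      SES (dmap (ModuleCat.of R R) g) (dmap (ModuleCat.of R R) f) := by
  obtain ⟨K, P, f, g, s, hK, hP⟩ := exists_syzygy U hU
  have : Projective P := bp_projective.addC inferInstance hP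
  exact ⟨K, P, f, g, s, hK, (bp_refl _).addC (refl_self _) hP,
    fun n => Van.c1 s.2 (van_projective _ _ n) (h (n + 1)),
    dual_ses s (extend_of_van_one s.2 (h 0))⟩

lemma exists_pd {X : ModuleCat.{0} R} (hX : Module.Finite R X) (h : Null X (ModuleCat.of R R))
    (h0 : ¬ IsZero X) (n : ℕ) : ∃ Z : ModuleCat.{0} R, Module.Finite R Z ∧
      NullPos Z (ModuleCat.of R R) ∧ HasProjectiveDimensionLT (dual (ModuleCat.of R R) Z) (n + 2) ∧
      ¬ HasProjectiveDimensionLT (dual (ModuleCat.of R R) Z) (n + 1) := by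
  induction n with
  | zero =>
    obtain ⟨X1, P0, f0, g0, s0, h1, r0, n1, d0⟩ := exists_step X hX fun n => h (n + 1)
    obtain ⟨X2, P1, f1, g1, s1, h2, r1, n2, d1⟩ := exists_step X1 h1 n1
    have z : IsZero (dual (ModuleCat.of R R) X) := dual_isZero (van_zero_iff.1 (h 0))
    have i0 : IsIso (dmap (ModuleCat.of R R) f0) := d0.2.isIso_g_iff.2 z
    have p1 : Projective (dual (ModuleCat.of R R) X1) :=
      Projective.of_iso (asIso (dmap (ModuleCat.of R R) f0)) r0.1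
    have := r1.1
    refine ⟨X2, h2, n2, d1.2.hasProjectiveDimensionLT_X₃ 1
      (projective_iff_hasProjectiveDimensionLT_one.1 p1)
      (inferInstance : HasProjectiveDimensionLT (dual (ModuleCat.of R R) P1) (1 + 1)),
      fun hp => h0 ?_⟩
    have hp' : Projective (dual (ModuleCat.of R R) X2) :=
      projective_iff_hasProjectiveDimensionLT_one.2 hp
    obtain ⟨ρ, hρ⟩ := extend_of_van_one d1.2 (van_projective (dual (ModuleCat.of R R) X2) _ 0)
      (inv (dmap (ModuleCat.of R R) f0))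
    obtain ⟨σ, rfl⟩ := r1.2.2 P0 ρ
    have h3 : σ ≫ g1 ≫ f0 - 𝟙 P0 = 0 := by
      refine r0.2.1 _ _ (hom_ext_ap fun (a : P0 ⟶ ModuleCat.of R R) => ?_)
      have h4 : dmap (ModuleCat.of R R) (σ ≫ g1 ≫ f0) = 𝟙 _ := by
        change dmap _ g1 ≫ dmap _ σ = _ at hρ
        rw [dmap_comp, dmap_comp, Category.assoc, hρ, IsIso.hom_inv_id]
      have h5 : (σ ≫ g1 ≫ f0) ≫ a = a := hom_ap h4 a
      change (σ ≫ g1 ≫ f0 - 𝟙 P0) ≫ a = 0
      rw [Preadditive.sub_comp, h5, Category.id_comp, sub_self]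
    have := s0.epi
    refine IsZero.of_epi_eq_zero g0 ?_
    rw [← Category.id_comp g0, ← sub_eq_zero.1 h3, Category.assoc, Category.assoc, s0.w,
      comp_zero, comp_zero]
  | succ n ih =>
    obtain ⟨Z, h1, h2, h3, h4⟩ := ih
    obtain ⟨K, P, f, g, s, hK, r, nK, d⟩ := exists_step Z h1 h2
    exact ⟨K, hK, nK, (d.2.hasProjectiveDimensionLT_X₃_iff (n + 1) r.1).2 h3,
      fun hp => h4 ((d.2.hasProjectiveDimensionLT_X₃_iff n r.1).1 hp)⟩

end Findim

lemma hom_finite_of_fg {R : Type} [Ring R] [Algebra ℚ R] [Module.Finite ℚ R]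
    (Z : ModuleCat.{0} R) (hZ : Module.Finite R Z) :
    @Module.Finite ℚ (Z ⟶ ModuleCat.of R R) _ _ (Linear.homModule _ _) := by
  have : IsNoetherianRing R := isNoetherian_of_tower ℚ inferInstance
  let _ : Module ℚ (ModuleCat.of R R ⟶ ModuleCat.of R R) := Linear.homModule _ _
  have h1 : Module.Finite ℚ (ModuleCat.of R R ⟶ ModuleCat.of R R) :=
    finite_of_inj (B := R)
      { toFun := fun f => f.hom 1
        map_zero' := rfl
        map_add' := fun _ _ => rfl } fun f g h => ModuleCat.hom_ext (LinearMap.ext_ring h)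
  obtain ⟨K, P, f, g, s, -, hP⟩ := exists_syzygy Z hZ
  have := (bp_finite_left (ModuleCat.of R R)).addC h1 hP
  have := s.epi
  exact finite_of_epi_left _ g

lemma findim_of_null {R : Type} [Ring R] [Algebra ℚ R] [Module.Finite ℚ R]
    {X : ModuleCat.{0} R} (hX : Module.Finite R X) (h : Null X (ModuleCat.of R R))
    (h0 : ¬ IsZero X) : ∃ (A : Type) (_ : Ring A) (_ : Algebra ℚ A) (_ : Module.Finite ℚ A),
      ∀ n : ℕ, ∃ N : ModuleCat.{0} A, Module.Finite A N ∧
        projectiveDimension N = ((n + 1 : ℕ) : WithBot ℕ∞) := by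
  have : IsNoetherianRing R := isNoetherian_of_tower ℚ inferInstance
  refine ⟨End (ModuleCat.of R R), inferInstance, inferInstance,
    hom_finite_of_fg _ (Module.Finite.self R), fun n => ?_⟩
  obtain ⟨Z, h1, -, h3, h4⟩ := exists_pd hX h h0 n
  have := hom_finite_of_fg Z h1
  exact ⟨_, dual_finite _ Z, le_antisymm ((projectiveDimension_le_iff _ _).2 h3)
    ((projectiveDimension_ge_iff _ _).2 h4)⟩

variable {W : Type} [Ring W] [Algebra ℚ W]

namespace WData

variable {D : WData W}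

lemma X_ne_zero : ¬ IsZero (D.F.obj (D.C 0)) := by
  intro h
  obtain ⟨r⟩ := retract_T (D := D) (l := 1) (A := D.P (1, 1 + 2)) (by simp [TL])
  have hu : At (1, 1 + 2) (D.pp.cl (2 - 0, -0) (D.h * D.h * D.e)) := by
    rw [← D.pp.smul_cl, mul_smul]
    exact ((D.pp.at_cl D.pr_e rfl).act D.pr_h rfl).act D.pr_h rfl
  have h1 : lift (1, 1 + 2) (D.pp.cl (2 - 0, -0) (D.h * D.h * D.e)) = 0 :=
    (coy2_bij D.rV (r.trans D.rT1) (D.C 0)).1 (h.eq_of_tgt _ _)
  have h2 := (lift_one hu).symm.trans (hom_ap h1 _)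
  rw [← D.pp.smul_cl, mul_smul] at h2
  obtain ⟨a, b, hab⟩ := D.pp.cl_eq_zero_iff.1 (D.pp.N_h_inj _ (D.pp.N_h_inj _ h2))
  exact D.e_notMem a b hab.symm

end WData

end Vale.Agent.P195
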