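import Vale.Agent.P195.Koszul

/-!
Ext groups from Koszul modules into free modules and their quotients; position-wise properties.
-/

namespace Vale.Agent.P195

open CategoryTheory Limits Abelian Function

variable {W : Type} [Ring W] [Algebra ℚ W]

namespace WData

variable {D : WData W}

/-- The quotient of the free module by `h`. -/
noncomputable def H (D : WData W) (κ : G) : D.M := cokernel (D.rmul (κ + hd) κ D.h)

/-- The projection to the quotient by `h`. -/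
noncomputable def πH (D : WData W) (κ : G) : D.P κ ⟶ D.H κ := cokernel.π _

lemma πH_eq_zero_iff {κ : G} {w : W} :
    (D.πH κ).hom (D.el κ w) = 0 ↔ ∃ a, w = D.h * a := by
  constructor
  · intro h
    obtain ⟨x, hx⟩ := cok_ex _ _ h
    obtain ⟨a, rfl⟩ := el_surj x
    rw [rmul_el D.pr_h rfl] at hx
    exact ⟨a, by rw [D.h_comm, el_inj hx]⟩
  · rintro ⟨a, rfl⟩
    rw [D.h_comm, ← rmul_el D.pr_h rfl]
    exact cok_ap _ _

lemma πH_surj {κ : G} (u : D.H κ) : ∃ v, (D.πH κ).hom v = u := cok_surj _ u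

lemma πH_surj' {κ : G} (u : D.H κ) : ∃ w, (D.πH κ).hom (D.el κ w) = u := cok_surj _ u

lemma ses_H (κ : G) : SES (D.rmul (κ + hd) κ D.h) (D.πH κ) := by
  have : Mono (D.rmul (κ + hd) κ D.h) := by
    refine (ModuleCat.mono_iff_injective _).2 ((injective_iff_map_eq_zero _).2 fun u hu => ?_)
    obtain ⟨w, rfl⟩ := el_surj u
    have h1 := (rmul_el D.pr_h rfl w).symm.trans hu
    rw [D.h_reg w ((D.h_comm w).trans (el_eq_zero h1)), map_zero]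
  exact ses_cokernel _

lemma tt_H {Q : D.M → Prop} (hQ : TT Q) {κ μ : G} (e : μ = κ + hd) (h1 : Q (D.P μ))
    (h0 : Q (D.P κ)) : Q (D.H κ) := by
  subst e
  exact hQ.s3 (ses_H κ) h1 h0

namespace Pair

variable (y : D.Pair)

lemma van0_P (ν κ : G) : Van (y.N ν) (D.P κ) 0 := by
  refine y.van0 fun u _ h0 h1 => ?_
  obtain ⟨w, rfl⟩ := el_surj u
  rw [y.k.R1 w (el_eq_zero h0) (el_eq_zero h1), map_zero]

lemma van1_P (ν κ : G) : Van (y.N ν) (D.P κ) 1 := by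
  refine y.van1 fun a b _ _ h => ?_
  obtain ⟨a, rfl⟩ := el_surj a
  obtain ⟨b, rfl⟩ := el_surj b
  have h1 : y.y1 * a = y.y0 * b := el_inj h
  obtain ⟨w, h2, h3⟩ := y.k.R2 (-b) a (by rw [h1, mul_neg, neg_add_cancel])
  exact ⟨D.el κ (-w), by rw [smul_el, h3, mul_neg], by rw [smul_el, mul_neg, ← h2, neg_neg]⟩

lemma null_P {ν κ μ : G} (e : μ = ν + y.d + y.d) (h : Onto2 y μ (D.P κ)) :
    Null (y.N ν) (D.P κ) := by
  subst e
  exact (y.res ν).null (y.van0_P ν κ) (y.van1_P ν κ) (y.van2 h)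

lemma null_N3_P {ν κ μ : G} (e : μ = ν + hd + y.d + y.d) (h : Onto3 y μ (D.P κ)) :
    Null (y.N3 ν) (D.P κ) := by
  subst e
  refine y.null_N3 (y.van0_P _ κ) (y.van1_P _ κ) (y.van0_P _ κ) (y.van1_P _ κ) ?_ h
  intro u a b hab
  obtain ⟨a', b', h1⟩ := y.k.R3 u a b hab
  exact ⟨a', b', h1⟩

lemma null_H {ν κ μ : G} (e : μ = ν + y.d + y.d) (h : Onto3 y μ (D.P κ)) :
    Null (y.N ν) (D.H κ) := by
  subst e
  have hc : ∀ a b : W, a * (D.h * b) = D.h * (a * b) := fun a b => by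
    rw [← mul_assoc, ← D.h_comm, mul_assoc]
  refine (y.res ν).null (y.van0 fun u _ h0 h1 => ?_) (y.van1 fun a b _ _ hab => ?_)
    (y.van2 fun u hu => ?_)
  · obtain ⟨w, rfl⟩ := πH_surj' u
    rw [← map_act, smul_el, πH_eq_zero_iff] at h0 h1
    obtain ⟨a, ha⟩ := h0
    obtain ⟨b, hb⟩ := h1
    have h2 : y.y0 * (-b) + y.y1 * a = 0 := by
      apply D.h_reg
      rw [mul_add, mul_neg, mul_neg, ← hc, ← hc, ← ha, ← hb, ← mul_assoc, ← mul_assoc, y.k.comm,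
        neg_add_cancel]
    obtain ⟨c, h3, h4⟩ := y.k.R2 _ _ h2
    refine πH_eq_zero_iff.2 ⟨-c, sub_eq_zero.1 (y.k.R1 _ ?_ ?_)⟩
    · rw [mul_sub, ha, h4, hc, mul_neg, mul_neg, mul_neg, sub_self]
    · rw [mul_sub, hb, hc, mul_neg, ← h3, neg_neg, sub_self]
  · obtain ⟨a, rfl⟩ := πH_surj' a
    obtain ⟨b, rfl⟩ := πH_surj' b
    rw [← sub_eq_zero, ← map_act, ← map_act, ← map_sub, smul_el, smul_el, ← map_sub,
      πH_eq_zero_iff] at hab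
    obtain ⟨c, hc'⟩ := hab
    obtain ⟨c0, c1, rfl⟩ := y.k.R3 c (-b) a (by rw [← hc', mul_neg]; abel)
    obtain ⟨w, h2, h3⟩ := y.k.R2 (-b - D.h * c0) (a - D.h * c1) (by
      rw [mul_sub, mul_sub, hc, hc, mul_neg]
      rw [mul_add] at hc'
      rw [← sub_eq_zero] at hc'
      rw [← hc']
      abel)
    refine ⟨(D.πH κ).hom (D.el κ (-w)), ?_, ?_⟩
    · rw [← sub_eq_zero, ← map_act, ← map_sub, smul_el, ← map_sub, πH_eq_zero_iff]
      exact ⟨c1, by rw [mul_neg, ← h3]; abel⟩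
    · rw [← sub_eq_zero, ← map_act, ← map_sub, smul_el, ← map_sub, πH_eq_zero_iff]
      exact ⟨-c0, by rw [mul_neg, ← h2, mul_neg]; abel⟩
  · obtain ⟨v, hv, rfl⟩ := hu.lift (πH_surj u)
    obtain ⟨a, b, c, rfl⟩ := h v hv
    obtain ⟨c, rfl⟩ := el_surj c
    refine ⟨(D.πH κ).hom a, (D.πH κ).hom b, ?_⟩
    rw [map_add, map_add, map_act, map_act, smul_el, πH_eq_zero_iff.2 ⟨c, rfl⟩, add_zero]

end Pair

lemma onto2_x_P {μ κ : G} (h : 0 < μ.1 - κ.1) : Onto2 D.px μ (D.P κ) :=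
  fun u hu => (D.suppx (μ - κ) u h hu).2

lemma onto2_p_P {μ κ : G} (h : μ.1 - κ.1 < -1) : Onto2 D.pp μ (D.P κ) :=
  fun u hu => (D.suppp (μ - κ) u h hu).2

lemma onto3_x_P {μ κ : G} (h : 0 < μ.1 - κ.1 ∨ 0 < μ.1 - κ.1 + (μ.2 - κ.2) ∨
    (μ.1 - κ.1 + (μ.2 - κ.2) = 0 ∧ (μ.1 - κ.1) % 2 = 1)) : Onto3 D.px μ (D.P κ) := by
  rcases h with h | h
  · exact (onto2_x_P h).onto3
  · exact fun u hu => (D.suppxh (μ - κ) u h hu).2

lemma onto3_p_P {μ κ : G} (h : μ.1 - κ.1 < -1 ∨ 0 < μ.2 - κ.2) : Onto3 D.pp μ (D.P κ) := by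
  rcases h with h | h
  · exact (onto2_p_P h).onto3
  · exact fun u hu => (D.suppph (μ - κ) u h hu).2

/-- The module vanishes in degree `μ`. -/
def VanAt (μ : G) (U : D.M) : Prop := ∀ u : U, At μ u → u = 0

lemma vanAt_N_x {μ ν : G} (h : 0 < μ.1 - ν.1) : VanAt μ (D.px.N ν) := by
  intro u hu
  obtain ⟨w, hw, rfl⟩ := D.px.cl_surj_at hu
  exact D.px.cl_eq_zero_iff.2 (D.suppx (μ - ν) w h hw).1

lemma vanAt_N_p {μ ν : G} (h : μ.1 - ν.1 < -1) : VanAt μ (D.pp.N ν) := by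
  intro u hu
  obtain ⟨w, hw, rfl⟩ := D.pp.cl_surj_at hu
  exact D.pp.cl_eq_zero_iff.2 (D.suppp (μ - ν) w h hw).1

lemma Pair.vanAt_N3 (y : D.Pair) {μ ν : G}
    (h : ∀ w, D.pr (μ - ν) w = w → ∃ a b c, w = a * y.y0 + b * y.y1 + c * D.h) :
    VanAt μ (y.N3 ν) := by
  intro u hu
  obtain ⟨v, hv, rfl⟩ := hu.lift ((y.ses_N3 ν).surj u)
  obtain ⟨w, hw, rfl⟩ := y.cl_surj_at hv
  obtain ⟨a, b, c, rfl⟩ := h w hw
  rw [y.cl_add, y.cl_eq_zero_iff.2 ⟨a, b, rfl⟩, zero_add, ← y.hN_cl]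
  exact (y.ses_N3 ν).ap _

lemma vanAt_N3_x {μ ν : G} (h : 0 < μ.1 - ν.1 + (μ.2 - ν.2) ∨
    (μ.1 - ν.1 + (μ.2 - ν.2) = 0 ∧ (μ.1 - ν.1) % 2 = 1)) : VanAt μ (D.px.N3 ν) :=
  D.px.vanAt_N3 fun w hw => (D.suppxh (μ - ν) w h hw).1

lemma vanAt_N3_p {μ ν : G} (h : 0 < μ.2 - ν.2) : VanAt μ (D.pp.N3 ν) :=
  D.pp.vanAt_N3 fun w hw => (D.suppph (μ - ν) w h hw).1

lemma VanAt.hom_zero {μ : G} {U : D.M} (h : VanAt μ U) (f : D.P μ ⟶ U) : f = 0 :=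
  P_ext (h _ (at_hom f))

lemma VanAt.null {μ : G} {U : D.M} (h : VanAt μ U) : Null (D.P μ) U
  | 0 => van_zero_iff.2 h.hom_zero
  | n + 1 => van_projective _ _ n

/-- Surjectivity in degree `μ`. -/
def SurjAt (μ : G) {A B : D.M} (f : A ⟶ B) : Prop := ∀ b : B, At μ b → ∃ a, f.hom a = b

/-- Injectivity in degree `μ`. -/
def InjAt (μ : G) {A B : D.M} (f : A ⟶ B) : Prop := ∀ a : A, At μ a → f.hom a = 0 → a = 0

lemma SurjAt.at {μ : G} {A B : D.M} {f : A ⟶ B} (h : SurjAt μ f) {b : B} (hb : At μ b) :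
    ∃ a, At μ a ∧ f.hom a = b := hb.lift (h b hb)

lemma SurjAt.homSurj {μ : G} {A B : D.M} {f : A ⟶ B} (h : SurjAt μ f) (ψ : D.P μ ⟶ B) :
    ∃ φ : D.P μ ⟶ A, φ ≫ f = ψ := by
  obtain ⟨a, ha, hb⟩ := h.at (at_hom ψ)
  exact ⟨lift μ a, P_ext (by rw [comp_ap, lift_one ha, hb])⟩

lemma surjAt_of_homSurj {μ : G} {A B : D.M} {f : A ⟶ B}
    (h : ∀ ψ : D.P μ ⟶ B, ∃ φ : D.P μ ⟶ A, φ ≫ f = ψ) : SurjAt μ f := by
  intro b hb
  obtain ⟨φ, hφ⟩ := h (lift μ b)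
  exact ⟨_, (hom_ap hφ (D.el μ 1)).trans (lift_one hb)⟩

lemma InjAt.homInj {μ : G} {A B : D.M} {f : A ⟶ B} (h : InjAt μ f) (φ : D.P μ ⟶ A)
    (hφ : φ ≫ f = 0) : φ = 0 :=
  P_ext (h _ (at_hom φ) (hom_ap hφ _))

lemma SurjAt.of_onto2 {y : D.Pair} {μ ν : G} {A B : D.M} {f : A ⟶ B} (h : SurjAt ν f)
    (h2 : Onto2 y μ B) (e : μ = ν + y.d) : SurjAt μ f := by
  intro u hu
  obtain ⟨a, b, ha, hb, rfl⟩ := h2.at e hu
  obtain ⟨a, rfl⟩ := h a ha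
  obtain ⟨b, rfl⟩ := h b hb
  exact ⟨y.y0 • a + y.y1 • b, by rw [map_add, map_act, map_act]⟩

lemma SurjAt.of_onto3 {y : D.Pair} {μ ν κ : G} {A B : D.M} {f : A ⟶ B} (h : SurjAt ν f)
    (h' : SurjAt κ f) (h3 : Onto3 y μ B) (e : μ = ν + y.d) (e' : μ = κ + hd) : SurjAt μ f := by
  intro u hu
  obtain ⟨a, b, c, ha, hb, hc, rfl⟩ := h3.at e e' hu
  obtain ⟨a, rfl⟩ := h a ha
  obtain ⟨b, rfl⟩ := h b hb
  obtain ⟨c, rfl⟩ := h' c hc
  exact ⟨y.y0 • a + y.y1 • b + D.h • c, by rw [map_add, map_add, map_act, map_act, map_act]⟩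

lemma SurjAt.pmap {μ : G} {A B A' B' : D.M} {f : A ⟶ A'} {g : B ⟶ B'} (hf : SurjAt μ f)
    (hg : SurjAt μ g) : SurjAt μ (pmap f g) := by
  intro x hx
  obtain ⟨a, b, rfl⟩ := mk2_surj x
  obtain ⟨a, rfl⟩ := hf a hx.fst
  obtain ⟨b, rfl⟩ := hg b hx.snd
  exact ⟨mk2 a b, rfl⟩

lemma InjAt.pmap {μ : G} {A B A' B' : D.M} {f : A ⟶ A'} {g : B ⟶ B'} (hf : InjAt μ f)
    (hg : InjAt μ g) : InjAt μ (pmap f g) := by
  intro x hx h
  obtain ⟨a, b, rfl⟩ := mk2_surj x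
  rw [hf a hx.fst (mk2_eq_zero h).1, hg b hx.snd (mk2_eq_zero h).2, mk2_zero]

lemma injAt_cok {μ : G} {A B A' B' : D.M} {f : A ⟶ B} {f' : A' ⟶ B'} {φA : A ⟶ A'} {φB : B ⟶ B'}
    {φ : cokernel f ⟶ cokernel f'} (c1 : φA ≫ f' = f ≫ φB)
    (c2 : φB ≫ cokernel.π f' = cokernel.π f ≫ φ) (hA : SurjAt μ φA) (hB : InjAt μ φB) :
    InjAt μ φ := by
  intro c hc h
  obtain ⟨b, hb, rfl⟩ := hc.lift (cok_surj f c)
  obtain ⟨a', ha', h1⟩ := (hb.map φB).lift (cok_ex f' _ ((hom_ap c2 b).trans h))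
  obtain ⟨a, ha, rfl⟩ := hA.at ha'
  have h2 : b - f.hom a = 0 := hB _ (hb.sub (ha.map f)) (by
    rw [map_sub, ← h1, sub_eq_zero]
    exact hom_ap c1 a)
  rw [sub_eq_zero.1 h2, cok_ap]

lemma surjAt_cok {μ : G} {A B A' B' : D.M} {f : A ⟶ B} {f' : A' ⟶ B'} {φB : B ⟶ B'}
    {φ : cokernel f ⟶ cokernel f'} (c2 : φB ≫ cokernel.π f' = cokernel.π f ≫ φ)
    (hB : SurjAt μ φB) : SurjAt μ φ := by
  intro c hc
  obtain ⟨b, hb, rfl⟩ := hc.lift (cok_surj f' c)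
  obtain ⟨b, rfl⟩ := hB b hb
  exact ⟨_, (hom_ap c2 b).symm⟩

lemma injAt_e {μ κ l : G} (e : κ = l + ed) (h : (μ.1 - κ.1) % 2 = 0) :
    InjAt μ (D.rmul κ l D.e) := by
  intro u hu h1
  obtain ⟨w, rfl⟩ := el_surj u
  rw [rmul_el D.pr_e e] at h1
  rw [D.eps_inj (μ - κ) w h hu ((D.e_comm w).trans (el_eq_zero h1)), map_zero]

lemma surjAt_e {μ κ l : G} (e : κ = l + ed) (h : (μ.1 - κ.1) % 2 = 0) :
    SurjAt μ (D.rmul κ l D.e) := by
  intro u hu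
  obtain ⟨w, rfl⟩ := el_surj u
  obtain ⟨v, rfl⟩ := D.eps_surj (μ - l) w (by
    have := congrArg Prod.fst e
    simp only [Prod.fst_add, Prod.fst_sub] at this ⊢
    omega) hu
  exact ⟨D.el κ v, by rw [rmul_el D.pr_e e, D.e_comm]⟩

/-- Multiplication by `e` is injective in degree `μ`. -/
def EpsInj (μ : G) (U : D.M) : Prop := ∀ u : U, At μ u → D.e • u = 0 → u = 0

/-- Multiplication by `e` maps degree `μ` onto the next degree. -/
def EpsSurj (μ : G) (U : D.M) : Prop := ∀ v : U, At (μ + ed) v → ∃ u, v = D.e • u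

lemma EpsSurj.at {μ ν : G} {U : D.M} (h : EpsSurj μ U) (e : ν = μ + ed) {v : U} (hv : At ν v) :
    ∃ u, At μ u ∧ v = D.e • u := by
  subst e
  obtain ⟨u, hu⟩ := h v hv
  exact at_one' D.pr_e hv rfl hu

lemma epsInj_P {μ κ : G} (h : (μ.1 - κ.1) % 2 = 0) : EpsInj μ (D.P κ) :=
  fun u hu h1 => D.eps_inj (μ - κ) u h hu h1

lemma epsSurj_P {μ κ : G} (h : (μ.1 - κ.1) % 2 = 0) : EpsSurj μ (D.P κ) :=
  fun u hu => D.eps_surj (μ + ed - κ) u (by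
    simp only [Prod.fst_add, Prod.fst_sub]
    omega) hu

/-- Multiplication by `e` is bijective from degree `μ` to the next degree. -/
def Eps (μ : G) (U : D.M) : Prop := EpsInj μ U ∧ EpsSurj μ U

lemma eps_P {μ κ : G} (h : (μ.1 - κ.1) % 2 = 0) : Eps μ (D.P κ) := ⟨epsInj_P h, epsSurj_P h⟩

lemma Eps.ker {μ : G} {K A B : D.M} {k : K ⟶ A} {f : A ⟶ B} (hk : ∀ x, k.hom x = 0 → x = 0)
    (hw : ∀ x, f.hom (k.hom x) = 0) (hex : ∀ a, f.hom a = 0 → ∃ x, k.hom x = a) (hA : Eps μ A)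
    (hB : EpsInj μ B) : Eps μ K := by
  refine ⟨fun u hu h => hk _ (hA.1 _ (hu.map k) (by rw [← map_act, h, map_zero])),
    fun v hv => ?_⟩
  obtain ⟨a, ha, h1⟩ := hA.2.at rfl (hv.map k)
  obtain ⟨x, rfl⟩ := hex a (hB _ (ha.map f) (by rw [← map_act, ← h1, hw]))
  exact ⟨x, sub_eq_zero.1 (hk _ (by rw [map_sub, map_act, h1, sub_self]))⟩

lemma tt_eps (μ : G) : TT (fun U : D.M => Eps μ U) where
  zero Z hZ := by
    have := ModuleCat.subsingleton_of_isZero hZ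
    exact ⟨fun u _ _ => Subsingleton.elim _ _, fun v _ => ⟨0, Subsingleton.elim _ _⟩⟩
  c1 {S} hS h2 h3 := by
    have s : SES S.f S.g := ⟨S.zero, hS⟩
    exact Eps.ker s.inj s.ap s.ex h2 h3.1
  c2 {S} hS h1 h3 := by
    have s : SES S.f S.g := ⟨S.zero, hS⟩
    constructor
    · intro u hu h
      obtain ⟨a, ha, rfl⟩ := hu.lift (s.ex u (h3.1 _ (hu.map S.g) (by
        rw [← map_act, h, map_zero])))
      rw [h1.1 a ha (s.inj _ (by rw [map_act, h])), map_zero]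
    · intro v hv
      obtain ⟨c, hc, h4⟩ := h3.2.at rfl (hv.map S.g)
      obtain ⟨b, hb, rfl⟩ := hc.lift (s.surj c)
      obtain ⟨a, ha, h5⟩ := (hv.sub (hb.act D.pr_e rfl)).lift (s.ex (v - D.e • b) (by
        rw [map_sub, map_act, h4, sub_self]))
      obtain ⟨a, rfl⟩ := h1.2 a ha
      exact ⟨S.f.hom a + b, by rw [smul_add, ← map_act, h5, sub_add_cancel]⟩
  c3 {S} hS h1 h2 := by
    have s : SES S.f S.g := ⟨S.zero, hS⟩
    constructor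
    · intro c hc h
      obtain ⟨b, hb, rfl⟩ := hc.lift (s.surj c)
      obtain ⟨a, ha, h4⟩ := (hb.act D.pr_e rfl).lift (s.ex (D.e • b) (by rw [map_act, h]))
      obtain ⟨a, ha', rfl⟩ := h1.2.at rfl ha
      have : b - S.f.hom a = 0 := h2.1 _ (hb.sub (ha'.map _)) (by
        rw [smul_sub, ← map_act, h4, sub_self])
      rw [sub_eq_zero.1 this, s.ap]
    · intro c hc
      obtain ⟨b, hb, rfl⟩ := hc.lift (s.surj c)
      obtain ⟨b, rfl⟩ := h2.2 b hb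
      exact ⟨S.g.hom b, map_act _ _ _⟩

lemma SurjAt.eps {μ ν : G} {A B : D.M} {f : A ⟶ B} (h : SurjAt μ f) (hB : EpsSurj μ B)
    (e : ν = μ + ed) : SurjAt ν f := by
  intro v hv
  obtain ⟨u, hu, rfl⟩ := hB.at e hv
  obtain ⟨a, rfl⟩ := h u hu
  exact ⟨D.e • a, map_act _ _ _⟩

lemma Onto3.eps {y : D.Pair} {μ ν : G} {U : D.M} (h : Onto3 y μ U) (hU : EpsSurj μ U)
    (e : ν = μ + ed) : Onto3 y ν U := by
  intro v hv
  obtain ⟨u, hu, rfl⟩ := hU.at e hv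
  obtain ⟨a, b, c, rfl⟩ := h u hu
  exact ⟨D.e • a, D.e • b, D.e • c, by
    rw [smul_add, smul_add, e_smul_comm, e_smul_comm y.y1, e_smul_comm D.h]⟩

lemma pre_e_bij {κ l : G} (e : κ = l + ed) {U : D.M} (h : Eps l U) :
    Bijective (fun φ : D.P l ⟶ U => D.rmul κ l D.e ≫ φ) := by
  have key : ∀ φ : D.P l ⟶ U,
      (D.rmul κ l D.e ≫ φ).hom (D.el κ 1) = D.e • φ.hom (D.el l 1) := fun φ => by
    rw [comp_ap, rmul_el D.pr_e e, one_mul, hom_el]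
  constructor
  · intro φ ψ h1
    refine P_ext (sub_eq_zero.1 (h.1 _ ((at_hom φ).sub (at_hom ψ)) ?_))
    rw [smul_sub, ← key, ← key, sub_eq_zero]
    exact hom_ap h1 _
  · intro ψ
    obtain ⟨u, hu, h1⟩ := h.2.at e (at_hom ψ)
    exact ⟨lift l u, P_ext (by rw [key, lift_one hu, h1])⟩

/-- All homogeneous components are finite-dimensional. -/
def LF (U : D.M) : Prop := ∀ μ, Module.Finite ℚ (D.P μ ⟶ U)

lemma lf_P (κ : G) : LF (D.P κ) := fun μ => P_finite μ κ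

lemma bp_lf : BP (fun U : D.M => LF U) where
  zero Z hZ μ := (bp_finite_right (D.P μ)).zero Z hZ
  add A B hA hB μ := (bp_finite_right (D.P μ)).add A B (hA μ) (hB μ)

lemma LF.of_mono {A B : D.M} (h : LF B) (f : A ⟶ B) [Mono f] : LF A :=
  fun μ => have := h μ; finite_of_mono _ f

lemma LF.of_epi {A B : D.M} (h : LF A) (f : A ⟶ B) [Epi f] : LF B :=
  fun μ => have := h μ; finite_of_epi _ f

/-- The biproduct is the product. -/
noncomputable def pr2Iso (A B : D.M) : A ⊞ B ≅ pr2 A B := ModuleCat.biprodIsoProd A B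

lemma LF.pr2 {A B : D.M} (hA : LF A) (hB : LF B) : LF (pr2 A B) :=
  (bp_lf.add A B hA hB).of_epi (pr2Iso A B).hom

lemma Pair.lf_N (y : D.Pair) (ν : G) : LF (y.N ν) :=
  have := (y.ses0 ν).epi
  (lf_P ν).of_epi (y.π ν)

lemma finite_pr2_left {A B U : D.M} (hA : Module.Finite ℚ (A ⟶ U))
    (hB : Module.Finite ℚ (B ⟶ U)) : Module.Finite ℚ (pr2 A B ⟶ U) :=
  have := (bp_finite_left U).add A B hA hB
  finite_of_epi_left U (pr2Iso A B).hom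

/-- Multiplication by `e` between Koszul modules. -/
noncomputable def Pair.eN (y : D.Pair) {κ ν : G} (e : κ = ν + ed) : y.N κ ⟶ y.N ν :=
  y.cN κ ν D.e D.e_comm (by rw [e, add_sub_cancel_left, D.pr_e])

lemma Pair.eN_cl (y : D.Pair) {κ ν : G} (e : κ = ν + ed) (w : W) :
    (y.eN e).hom (y.cl κ w) = y.cl ν (w * D.e) := y.cN_cl _ _ w

lemma Pair.eN_eN (y : D.Pair) {l κ ν : G} (e' : l = κ + ed) (e : κ = ν + ed) :
    y.eN e' ≫ y.eN e = 0 := by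
  refine y.N_ext ?_
  rw [comp_ap, eN_cl, eN_cl, one_mul, D.e_sq]
  exact y.cl_eq_zero_iff.2 ⟨0, 0, by simp⟩

lemma Pair.injAt_eN (y : D.Pair) {μ κ ν : G} (e : κ = ν + ed) (h : (μ.1 - κ.1) % 2 = 0)
    (hy : y.d.1 % 2 = 0) : InjAt μ (y.eN e) := by
  have e' : κ + y.d = ν + y.d + ed := by rw [e]; abel
  have h' : (μ.1 - (κ + y.d).1) % 2 = 0 := by
    simp only [Prod.fst_add]
    omega
  refine injAt_cok (φA := pmap (D.rmul _ _ D.e) (D.rmul _ _ D.e)) (φB := D.rmul κ ν D.e) ?_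
    (cokernel.π_desc _ _ _).symm ((surjAt_e e' h').pmap (surjAt_e e' h')) (injAt_e e h)
  refine hom_ext_ap fun x => ?_
  obtain ⟨a, b, rfl⟩ := el2_surj x
  rw [comp_ap, comp_ap, pmap_ap, rmul_el D.pr_e e', rmul_el D.pr_e e', y.k1_ap,
    y.k1_ap, rmul_el D.pr_e e, add_mul]
  simp only [mul_assoc, D.e_comm]

lemma Pair.surjAt_eN (y : D.Pair) {μ κ ν : G} (e : κ = ν + ed) (h : (μ.1 - κ.1) % 2 = 0) :
    SurjAt μ (y.eN e) :=
  surjAt_cok (φB := D.rmul κ ν D.e) (cokernel.π_desc _ _ _).symm (surjAt_e e h)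

end WData

end Vale.Agent.P195
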