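import Mathlib

/-!
Abstract homological algebra: long exact sequences in element form, vanishing classes,
comparison of Ext groups along an exact functor.
-/

namespace Vale.Agent.P195

open CategoryTheory Limits Abelian Function

universe w v u v' u'

section Basic

variable {C : Type u} [Category.{v} C] [Abelian C] [HasExt.{w} C]

/-- Precomposition on Ext. -/
noncomputable def pre {U U' : C} (f : U ⟶ U') (Y : C) (n : ℕ) : Ext U' Y n →+ Ext U Y n :=
  (Ext.mk₀ f).precomp Y (zero_add n)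

/-- Postcomposition on Ext. -/
noncomputable def post (N : C) {U U' : C} (f : U ⟶ U') (n : ℕ) : Ext N U n →+ Ext N U' n :=
  (Ext.mk₀ f).postcomp N (add_zero n)

/-- Connecting map in the first variable. -/
noncomputable def del {S : ShortComplex C} (hS : S.ShortExact) (Y : C) (n : ℕ) :
    Ext S.X₁ Y n →+ Ext S.X₃ Y (n + 1) :=
  hS.extClass.precomp Y (add_comm 1 n)

/-- Connecting map in the second variable. -/
noncomputable def del' (N : C) {S : ShortComplex C} (hS : S.ShortExact) (n : ℕ) :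
    Ext N S.X₃ n →+ Ext N S.X₁ (n + 1) :=
  hS.extClass.postcomp N rfl

lemma pre_apply {U U' : C} (f : U ⟶ U') (Y : C) (n : ℕ) (x : Ext U' Y n) :
    pre f Y n x = (Ext.mk₀ f).comp x (zero_add n) := rfl

lemma del_apply {S : ShortComplex C} (hS : S.ShortExact) (Y : C) (n : ℕ) (x : Ext S.X₁ Y n) :
    del hS Y n x = hS.extClass.comp x (add_comm 1 n) := rfl

lemma pre_pre {U U' U'' : C} (f : U ⟶ U') (g : U' ⟶ U'') (Y : C) (n : ℕ) (x : Ext U'' Y n) :
    pre f Y n (pre g Y n x) = pre (f ≫ g) Y n x := by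
  simp [pre_apply]

lemma pre_id (U Y : C) (n : ℕ) (x : Ext U Y n) : pre (𝟙 U) Y n x = x := by
  simp [pre_apply]

lemma pre_zero (U U' Y : C) (n : ℕ) (x : Ext U' Y n) : pre (0 : U ⟶ U') Y n x = 0 := by
  simp [pre_apply]

lemma pre_mk₀ {U U' Y : C} (f : U ⟶ U') (g : U' ⟶ Y) :
    pre f Y 0 (Ext.mk₀ g) = Ext.mk₀ (f ≫ g) := by
  simp [pre_apply]

lemma mk₀_surj {U Y : C} (x : Ext U Y 0) : ∃ g : U ⟶ Y, x = Ext.mk₀ g := by
  obtain ⟨g, hg⟩ := (Ext.mk₀_bijective U Y).2 x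
  exact ⟨g, hg.symm⟩

lemma mk₀_inj {U Y : C} {f g : U ⟶ Y} (h : Ext.mk₀ f = Ext.mk₀ g) : f = g :=
  (Ext.mk₀_bijective U Y).1 h

section
variable {S : ShortComplex C} (hS : S.ShortExact) (Y : C) (n : ℕ)

lemma ex1 : Exact (pre S.f Y n) (del hS Y n) :=
  (ShortComplex.ab_exact_iff_function_exact _).1
    (Ext.contravariant_sequence_exact₁' hS Y n (n + 1) (add_comm 1 n))

include hS in
lemma ex2 : Exact (pre S.g Y n) (pre S.f Y n) :=
  (ShortComplex.ab_exact_iff_function_exact _).1 (Ext.contravariant_sequence_exact₂' hS Y n)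

lemma ex3 : Exact (del hS Y n) (pre S.g Y (n + 1)) :=
  (ShortComplex.ab_exact_iff_function_exact _).1
    (Ext.contravariant_sequence_exact₃' hS Y n (n + 1) (add_comm 1 n))

include hS in
lemma ex0 : Injective (pre S.g Y 0) := by
  have := hS.epi_g
  exact Ext.precomp_mk₀_injective_of_epi Y S.g

lemma ex1' : Exact (del' Y hS n) (post Y S.f (n + 1)) :=
  (ShortComplex.ab_exact_iff_function_exact _).1
    (Ext.covariant_sequence_exact₁' Y hS n (n + 1) rfl)

include hS in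
lemma ex2' : Exact (post Y S.f n) (post Y S.g n) :=
  (ShortComplex.ab_exact_iff_function_exact _).1 (Ext.covariant_sequence_exact₂' Y hS n)

lemma ex3' : Exact (post Y S.g n) (del' Y hS n) :=
  (ShortComplex.ab_exact_iff_function_exact _).1
    (Ext.covariant_sequence_exact₃' Y hS n (n + 1) rfl)

include hS in
lemma ex0' : Injective (post Y S.f 0) := by
  have := hS.mono_f
  exact Ext.postcomp_mk₀_injective_of_mono Y S.f

end

/-- Vanishing of one Ext group. -/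
def Van (U Y : C) (n : ℕ) : Prop := ∀ x : Ext U Y n, x = 0

/-- Vanishing of all Ext groups. -/
def Null (U Y : C) : Prop := ∀ n, Van U Y n

/-- Vanishing of all positive Ext groups. -/
def NullPos (U Y : C) : Prop := ∀ n, Van U Y (n + 1)

lemma van_of_exact {A B D : Type*} [AddCommGroup A] [AddCommGroup B] [AddCommGroup D]
    {f : A →+ B} {g : B →+ D} (h : Exact f g) (hA : ∀ a : A, a = 0) (hD : ∀ d : D, d = 0)
    (b : B) : b = 0 := by
  obtain ⟨a, rfl⟩ := (h b).1 (hD _)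
  rw [hA a, map_zero]

lemma van_projective (P Y : C) [Projective P] (n : ℕ) : Van P Y (n + 1) :=
  fun x => Ext.eq_zero_of_projective x

lemma nullPos_projective (P Y : C) [Projective P] : NullPos P Y :=
  fun n => van_projective P Y n

lemma van_zero_iff {U Y : C} : Van U Y 0 ↔ ∀ f : U ⟶ Y, f = 0 := by
  constructor
  · intro h f
    exact mk₀_inj ((h _).trans (Ext.mk₀_zero _ _).symm)
  · intro h x
    obtain ⟨g, rfl⟩ := mk₀_surj x
    rw [h g, Ext.mk₀_zero]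

lemma van_of_isZero {U : C} (hU : IsZero U) (Y : C) (n : ℕ) : Van U Y n := by
  intro x
  rw [← pre_id U Y n x, hU.eq_of_src (𝟙 U) 0, pre_zero]

lemma van_of_isZero' (U : C) {Y : C} (hY : IsZero Y) (n : ℕ) : Van U Y n := by
  intro x
  rw [← Ext.comp_mk₀_id x, hY.eq_of_src (𝟙 Y) 0]
  simp

section
variable {S : ShortComplex C} (hS : S.ShortExact) {Y : C} {n : ℕ}
include hS

lemma Van.c1 (h2 : Van S.X₂ Y n) (h3 : Van S.X₃ Y (n + 1)) : Van S.X₁ Y n :=
  van_of_exact (ex1 hS Y n) h2 h3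

lemma Van.c2 (h1 : Van S.X₁ Y n) (h3 : Van S.X₃ Y n) : Van S.X₂ Y n :=
  van_of_exact (ex2 hS Y n) h3 h1

lemma Van.c3 (h1 : Van S.X₁ Y n) (h2 : Van S.X₂ Y (n + 1)) : Van S.X₃ Y (n + 1) :=
  van_of_exact (ex3 hS Y n) h1 h2

lemma Van.c3_zero (h2 : Van S.X₂ Y 0) : Van S.X₃ Y 0 :=
  fun x => ex0 hS Y (by rw [h2 (pre S.g Y 0 x), map_zero])

lemma Van.c1' (h2 : Van Y S.X₂ (n + 1)) (h3 : Van Y S.X₃ n) : Van Y S.X₁ (n + 1) :=
  van_of_exact (ex1' hS Y n) h3 h2

lemma Van.c1_zero' (h2 : Van Y S.X₂ 0) : Van Y S.X₁ 0 :=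
  fun x => ex0' hS Y (by rw [h2 (post Y S.f 0 x), map_zero])

lemma Van.c2' (h1 : Van Y S.X₁ n) (h3 : Van Y S.X₃ n) : Van Y S.X₂ n :=
  van_of_exact (ex2' hS Y n) h1 h3

lemma Van.c3' (h1 : Van Y S.X₁ (n + 1)) (h2 : Van Y S.X₂ n) : Van Y S.X₃ n :=
  van_of_exact (ex3' hS Y n) h2 h1

/-- `Ext¹(X₃, Y) = 0` from an extension property when the middle term has no `Ext¹`. -/
lemma van_one_of_extend (h2 : Van S.X₂ Y 1)
    (h : ∀ φ : S.X₁ ⟶ Y, ∃ ψ : S.X₂ ⟶ Y, S.f ≫ ψ = φ) : Van S.X₃ Y 1 := by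
  intro x
  obtain ⟨y, rfl⟩ := (ex3 hS Y 0 x).1 (h2 _)
  obtain ⟨φ, rfl⟩ := mk₀_surj y
  obtain ⟨ψ, rfl⟩ := h φ
  exact (ex1 hS Y 0 _).2 ⟨Ext.mk₀ ψ, pre_mk₀ _ _⟩

lemma extend_of_van_one (h3 : Van S.X₃ Y 1) (φ : S.X₁ ⟶ Y) :
    ∃ ψ : S.X₂ ⟶ Y, S.f ≫ ψ = φ := by
  obtain ⟨y, hy⟩ := (ex1 hS Y 0 (Ext.mk₀ φ)).1 (h3 _)
  obtain ⟨ψ, rfl⟩ := mk₀_surj y
  exact ⟨ψ, mk₀_inj ((pre_mk₀ _ _).symm.trans hy)⟩

end

end Basic

section TT

variable {C : Type u} [Category.{v} C] [Abelian C]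

/-- Properties of objects that satisfy two-out-of-three on short exact sequences. -/
structure TT (Q : C → Prop) : Prop where
  zero : ∀ Z, IsZero Z → Q Z
  c1 : ∀ {S : ShortComplex C}, S.ShortExact → Q S.X₂ → Q S.X₃ → Q S.X₁
  c2 : ∀ {S : ShortComplex C}, S.ShortExact → Q S.X₁ → Q S.X₃ → Q S.X₂
  c3 : ∀ {S : ShortComplex C}, S.ShortExact → Q S.X₁ → Q S.X₂ → Q S.X₃

open ZeroObject in
lemma TT.iso {Q : C → Prop} (hQ : TT Q) {A B : C} (i : A ≅ B) (hA : Q A) : Q B := by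
  let S : ShortComplex C := ShortComplex.mk i.hom (0 : B ⟶ 0) (by simp)
  have hS : S.ShortExact :=
    { exact := by
        rw [ShortComplex.exact_iff_epi _ rfl]
        dsimp [S]
        infer_instance
      mono_f := by dsimp [S]; infer_instance
      epi_g := ⟨fun _ _ _ => (isZero_zero C).eq_of_src _ _⟩ }
  exact hQ.c2 hS hA (hQ.zero _ (isZero_zero C))

lemma TT.and {Q Q' : C → Prop} (h : TT Q) (h' : TT Q') : TT (fun U => Q U ∧ Q' U) where
  zero Z hZ := ⟨h.zero Z hZ, h'.zero Z hZ⟩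
  c1 hS a b := ⟨h.c1 hS a.1 b.1, h'.c1 hS a.2 b.2⟩
  c2 hS a b := ⟨h.c2 hS a.1 b.1, h'.c2 hS a.2 b.2⟩
  c3 hS a b := ⟨h.c3 hS a.1 b.1, h'.c3 hS a.2 b.2⟩

lemma TT.forall {ι : Sort*} {Q : ι → C → Prop} (h : ∀ i, TT (Q i)) : TT (fun U => ∀ i, Q i U) where
  zero Z hZ i := (h i).zero Z hZ
  c1 hS a b i := (h i).c1 hS (a i) (b i)
  c2 hS a b i := (h i).c2 hS (a i) (b i)
  c3 hS a b i := (h i).c3 hS (a i) (b i)

/-- The split short complex of a binary biproduct. -/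
noncomputable def biprodSC (A B : C) : ShortComplex C :=
  ShortComplex.mk (biprod.inl : A ⟶ A ⊞ B) biprod.snd (by simp)

/-- The splitting of the short complex of a binary biproduct. -/
noncomputable def biprodSplitting (A B : C) : (biprodSC A B).Splitting where
  r := biprod.fst
  s := biprod.inr
  f_r := by simp [biprodSC]
  s_g := by simp [biprodSC]
  id := biprod.total

lemma TT.biprod {Q : C → Prop} (hQ : TT Q) {A B : C} (hA : Q A) (hB : Q B) : Q (A ⊞ B) :=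
  hQ.c2 (biprodSplitting A B).shortExact hA hB

variable [HasExt.{w} C]

lemma tt_null_left (Y : C) : TT (fun U => Null U Y) where
  zero Z hZ n := van_of_isZero hZ Y n
  c1 hS h2 h3 n := Van.c1 hS (h2 n) (h3 (n + 1))
  c2 hS h1 h3 n := Van.c2 hS (h1 n) (h3 n)
  c3 hS h1 h2 n := by
    cases n with
    | zero => exact Van.c3_zero hS (h2 0)
    | succ n => exact Van.c3 hS (h1 n) (h2 (n + 1))

lemma tt_null_right (N : C) : TT (fun U => Null N U) where
  zero Z hZ n := van_of_isZero' N hZ n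
  c1 hS h2 h3 n := by
    cases n with
    | zero => exact Van.c1_zero' hS (h2 0)
    | succ n => exact Van.c1' hS (h2 (n + 1)) (h3 n)
  c2 hS h1 h3 n := Van.c2' hS (h1 n) (h3 n)
  c3 hS h1 h2 n := Van.c3' hS (h1 (n + 1)) (h2 n)

end TT

section Pi

variable {C : Type u} [Category.{v} C] [Abelian C] [HasExt.{w} C]
variable {D : Type u'} [Category.{v'} D] [Abelian D] [HasExt.{w} D]
variable (H : C ⥤ D) [H.Additive] [PreservesFiniteLimits H] [PreservesFiniteColimits H]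

/-- Injectivity of the comparison map in one degree. -/
def PiInj (U Y : C) (n : ℕ) : Prop := Injective (H.mapExtAddHom U Y n)

/-- Surjectivity of the comparison map in one degree. -/
def PiSurj (U Y : C) (n : ℕ) : Prop := Surjective (H.mapExtAddHom U Y n)

/-- Bijectivity of the comparison maps in all degrees. -/
def Pi (U Y : C) : Prop := ∀ n, PiInj H U Y n ∧ PiSurj H U Y n

lemma map_pre {U U' : C} (f : U ⟶ U') (Y : C) (n : ℕ) (x : Ext U' Y n) :
    H.mapExtAddHom U Y n (pre f Y n x) =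
      pre (H.map f) (H.obj Y) n (H.mapExtAddHom U' Y n x) := by
  simp [pre_apply, Ext.mapExactFunctor_comp, Ext.mapExactFunctor_mk₀]

lemma map_del {S : ShortComplex C} (hS : S.ShortExact) (Y : C) (n : ℕ) (x : Ext S.X₁ Y n) :
    H.mapExtAddHom S.X₃ Y (n + 1) (del hS Y n x) =
      del (hS.map_of_exact H) (H.obj Y) n (H.mapExtAddHom S.X₁ Y n x) := by
  rw [del_apply, Functor.mapExtAddHom_apply, Ext.mapExactFunctor_comp,
    Ext.mapExactFunctor_extClass]
  rfl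

lemma map_mk₀ {U Y : C} (f : U ⟶ Y) :
    H.mapExtAddHom U Y 0 (Ext.mk₀ f) = Ext.mk₀ (H.map f) := by
  simp [Ext.mapExactFunctor_mk₀]

section
variable {H} {S : ShortComplex C} (hS : S.ShortExact) {Y : C} {n : ℕ}
include hS

lemma PiInj.c1 (a : PiSurj H S.X₃ Y n) (b : PiInj H S.X₂ Y n) (c : PiInj H S.X₃ Y (n + 1)) :
    PiInj H S.X₁ Y n :=
  AddMonoidHom.injective_of_surjective_of_injective_of_injective
    (pre S.g Y n) (pre S.f Y n) (del hS Y n)
    (pre (S.map H).g (H.obj Y) n) (pre (S.map H).f (H.obj Y) n)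
    (del (hS.map_of_exact H) (H.obj Y) n) _ _ _ _
    (by ext x; exact (map_pre H _ _ _ x).symm) (by ext x; exact (map_pre H _ _ _ x).symm)
    (by ext x; exact (map_del H hS _ _ x).symm)
    (ex2 hS Y n) (ex1 hS Y n) (ex2 (hS.map_of_exact H) _ n) a b c

lemma PiSurj.c1 (a : PiSurj H S.X₂ Y n) (b : PiSurj H S.X₃ Y (n + 1))
    (c : PiInj H S.X₂ Y (n + 1)) : PiSurj H S.X₁ Y n :=
  AddMonoidHom.surjective_of_surjective_of_surjective_of_injective
    (pre S.f Y n) (del hS Y n) (pre S.g Y (n + 1))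
    (pre (S.map H).f (H.obj Y) n) (del (hS.map_of_exact H) (H.obj Y) n)
    (pre (S.map H).g (H.obj Y) (n + 1)) _ _ _ _
    (by ext x; exact (map_pre H _ _ _ x).symm) (by ext x; exact (map_del H hS _ _ x).symm)
    (by ext x; exact (map_pre H _ _ _ x).symm)
    (ex3 hS Y n) (ex1 (hS.map_of_exact H) _ n) (ex3 (hS.map_of_exact H) _ n) a b c

lemma PiInj.c2 (a : PiSurj H S.X₁ Y n) (b : PiInj H S.X₃ Y (n + 1))
    (c : PiInj H S.X₁ Y (n + 1)) : PiInj H S.X₂ Y (n + 1) :=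
  AddMonoidHom.injective_of_surjective_of_injective_of_injective
    (del hS Y n) (pre S.g Y (n + 1)) (pre S.f Y (n + 1))
    (del (hS.map_of_exact H) (H.obj Y) n) (pre (S.map H).g (H.obj Y) (n + 1))
    (pre (S.map H).f (H.obj Y) (n + 1)) _ _ _ _
    (by ext x; exact (map_del H hS _ _ x).symm) (by ext x; exact (map_pre H _ _ _ x).symm)
    (by ext x; exact (map_pre H _ _ _ x).symm)
    (ex3 hS Y n) (ex2 hS Y (n + 1)) (ex3 (hS.map_of_exact H) _ n) a b c

lemma PiInj.c2_zero (b : PiInj H S.X₃ Y 0) (c : PiInj H S.X₁ Y 0) : PiInj H S.X₂ Y 0 := by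
  refine (injective_iff_map_eq_zero _).2 fun x hx => ?_
  have h1 : pre S.f Y 0 x = 0 := c (by rw [map_pre, hx, map_zero, map_zero])
  obtain ⟨y, rfl⟩ := (ex2 hS Y 0 x).1 h1
  rw [map_pre] at hx
  have h2 : H.mapExtAddHom S.X₃ Y 0 y = 0 :=
    ex0 (hS.map_of_exact H) (H.obj Y) (hx.trans (map_zero _).symm)
  rw [b (h2.trans (map_zero _).symm), map_zero]

lemma PiSurj.c2 (a : PiSurj H S.X₃ Y n) (b : PiSurj H S.X₁ Y n)
    (c : PiInj H S.X₃ Y (n + 1)) : PiSurj H S.X₂ Y n :=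
  AddMonoidHom.surjective_of_surjective_of_surjective_of_injective
    (pre S.g Y n) (pre S.f Y n) (del hS Y n)
    (pre (S.map H).g (H.obj Y) n) (pre (S.map H).f (H.obj Y) n)
    (del (hS.map_of_exact H) (H.obj Y) n) _ _ _ _
    (by ext x; exact (map_pre H _ _ _ x).symm) (by ext x; exact (map_pre H _ _ _ x).symm)
    (by ext x; exact (map_del H hS _ _ x).symm)
    (ex1 hS Y n) (ex2 (hS.map_of_exact H) _ n) (ex1 (hS.map_of_exact H) _ n) a b c

lemma PiInj.c3 (a : PiSurj H S.X₂ Y n) (b : PiInj H S.X₁ Y n)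
    (c : PiInj H S.X₂ Y (n + 1)) : PiInj H S.X₃ Y (n + 1) :=
  AddMonoidHom.injective_of_surjective_of_injective_of_injective
    (pre S.f Y n) (del hS Y n) (pre S.g Y (n + 1))
    (pre (S.map H).f (H.obj Y) n) (del (hS.map_of_exact H) (H.obj Y) n)
    (pre (S.map H).g (H.obj Y) (n + 1)) _ _ _ _
    (by ext x; exact (map_pre H _ _ _ x).symm) (by ext x; exact (map_del H hS _ _ x).symm)
    (by ext x; exact (map_pre H _ _ _ x).symm)
    (ex1 hS Y n) (ex3 hS Y n) (ex1 (hS.map_of_exact H) _ n) a b c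

lemma PiInj.c3_zero (c : PiInj H S.X₂ Y 0) : PiInj H S.X₃ Y 0 := by
  refine (injective_iff_map_eq_zero _).2 fun x hx => ?_
  have h1 : pre S.g Y 0 x = 0 := c (by rw [map_pre, hx, map_zero, map_zero])
  exact ex0 hS Y (h1.trans (map_zero _).symm)

lemma PiSurj.c3 (a : PiSurj H S.X₁ Y n) (b : PiSurj H S.X₂ Y (n + 1))
    (c : PiInj H S.X₁ Y (n + 1)) : PiSurj H S.X₃ Y (n + 1) :=
  AddMonoidHom.surjective_of_surjective_of_surjective_of_injective
    (del hS Y n) (pre S.g Y (n + 1)) (pre S.f Y (n + 1))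
    (del (hS.map_of_exact H) (H.obj Y) n) (pre (S.map H).g (H.obj Y) (n + 1))
    (pre (S.map H).f (H.obj Y) (n + 1)) _ _ _ _
    (by ext x; exact (map_del H hS _ _ x).symm) (by ext x; exact (map_pre H _ _ _ x).symm)
    (by ext x; exact (map_pre H _ _ _ x).symm)
    (ex2 hS Y (n + 1)) (ex3 (hS.map_of_exact H) _ n) (ex2 (hS.map_of_exact H) _ (n + 1)) a b c

lemma PiSurj.c3_zero (b : PiSurj H S.X₂ Y 0) (c : PiInj H S.X₁ Y 0) : PiSurj H S.X₃ Y 0 :=
  AddMonoidHom.surjective_of_surjective_of_injective_of_left_exact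
    (pre S.g Y 0) (pre S.f Y 0) (pre (S.map H).g (H.obj Y) 0) (pre (S.map H).f (H.obj Y) 0)
    _ _ _ (by ext x; exact (map_pre H _ _ _ x).symm) (by ext x; exact (map_pre H _ _ _ x).symm)
    (ex2 hS Y 0) (ex2 (hS.map_of_exact H) _ 0) b c (ex0 (hS.map_of_exact H) _)

end

lemma pi_of_null {U Y : C} (h : Null U Y) (h' : Null (H.obj U) (H.obj Y)) : Pi H U Y :=
  fun n => ⟨fun x y _ => (h n x).trans (h n y).symm,
    fun y => ⟨0, (h' n _).trans (h' n y).symm⟩⟩

lemma tt_pi (Y : C) : TT (fun U => Pi H U Y) where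
  zero Z hZ := pi_of_null H (van_of_isZero hZ Y) (van_of_isZero (H.map_isZero hZ) _)
  c1 hS h2 h3 n := ⟨PiInj.c1 hS (h3 n).2 (h2 n).1 (h3 _).1,
    PiSurj.c1 hS (h2 n).2 (h3 _).2 (h2 _).1⟩
  c2 hS h1 h3 n := by
    refine ⟨?_, PiSurj.c2 hS (h3 n).2 (h1 n).2 (h3 _).1⟩
    cases n with
    | zero => exact PiInj.c2_zero hS (h3 0).1 (h1 0).1
    | succ n => exact PiInj.c2 hS (h1 n).2 (h3 _).1 (h1 _).1
  c3 hS h1 h2 n := by
    cases n with
    | zero => exact ⟨PiInj.c3_zero hS (h2 0).1, PiSurj.c3_zero hS (h2 0).2 (h1 0).1⟩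
    | succ n => exact ⟨PiInj.c3 hS (h2 n).2 (h1 n).1 (h2 _).1,
        PiSurj.c3 hS (h1 n).2 (h2 _).2 (h1 _).1⟩

end Pi

end Vale.Agent.P195
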