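import Vale.Agent.P195.Hom1

/-!
More abstract homological algebra.
-/

namespace Vale.Agent.P195

open CategoryTheory Limits Abelian Function

universe w v u v' u'

section SES

variable {C : Type u} [Category.{v} C] [Abelian C]

/-- `f` and `g` form a short exact sequence. -/
def SES {A B E : C} (f : A ⟶ B) (g : B ⟶ E) : Prop :=
  ∃ w : f ≫ g = 0, (ShortComplex.mk f g w).ShortExact

variable {A B E : C} {f : A ⟶ B} {g : B ⟶ E}

lemma TT.s1 {Q : C → Prop} (hQ : TT Q) (h : SES f g) (hB : Q B) (hE : Q E) : Q A :=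
  hQ.c1 h.2 hB hE

lemma TT.s2 {Q : C → Prop} (hQ : TT Q) (h : SES f g) (hA : Q A) (hE : Q E) : Q B :=
  hQ.c2 h.2 hA hE

lemma TT.s3 {Q : C → Prop} (hQ : TT Q) (h : SES f g) (hA : Q A) (hB : Q B) : Q E :=
  hQ.c3 h.2 hA hB

lemma SES.w (h : SES f g) : f ≫ g = 0 := h.1

lemma SES.mono (h : SES f g) : Mono f := h.2.mono_f

lemma SES.epi (h : SES f g) : Epi g := h.2.epi_g

lemma SES.desc (h : SES f g) {Y : C} (φ : B ⟶ Y) (hφ : f ≫ φ = 0) : ∃ ψ : E ⟶ Y, g ≫ ψ = φ := by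
  have := h.2.epi_g
  exact h.2.exact.desc' φ hφ

lemma SES.lift (h : SES f g) {Y : C} (φ : Y ⟶ B) (hφ : φ ≫ g = 0) : ∃ ψ : Y ⟶ A, ψ ≫ f = φ := by
  have := h.2.mono_f
  exact h.2.exact.lift' φ hφ

lemma SES.map {D : Type u'} [Category.{v'} D] [Abelian D] (H : C ⥤ D) [H.Additive]
    [PreservesFiniteLimits H] [PreservesFiniteColimits H] (h : SES f g) :
    SES (H.map f) (H.map g) :=
  ⟨_, h.2.map_of_exact H⟩

lemma ses_kernel (g : B ⟶ E) [Epi g] : SES (kernel.ι g) g :=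
  ⟨kernel.condition g, { exact := ShortComplex.exact_kernel g }⟩

lemma ses_cokernel (f : A ⟶ B) [Mono f] : SES f (cokernel.π f) :=
  ⟨cokernel.condition f, { exact := ShortComplex.exact_cokernel f }⟩

lemma ses_biprod_map {D : Type u'} [Category.{v'} D] [Abelian D] (H : C ⥤ D) [H.Additive]
    (A B : C) : SES (H.map (biprod.inl : A ⟶ A ⊞ B)) (H.map (biprod.snd : A ⊞ B ⟶ B)) :=
  ⟨_, ((biprodSplitting A B).map H).shortExact⟩

end SES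

section PreBij

variable {C : Type u} [Category.{v} C] [Abelian C] [HasExt.{w} C]

/-- Precomposition with `f` is bijective on all Ext groups into `Y`. -/
def PreBij {U U' : C} (f : U ⟶ U') (Y : C) : Prop := ∀ n, Bijective (pre f Y n)

lemma preBij_of_isIso {U U' : C} (f : U ⟶ U') [IsIso f] (Y : C) : PreBij f Y := by
  intro n
  refine bijective_iff_has_inverse.2 ⟨pre (inv f) Y n, fun x => ?_, fun x => ?_⟩
  · rw [pre_pre, IsIso.inv_hom_id, pre_id]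
  · rw [pre_pre, IsIso.hom_inv_id, pre_id]

lemma preBij_of_hom {U U' Y : C} (f : U ⟶ U') (hU : NullPos U Y) (hU' : NullPos U' Y)
    (h : Bijective (fun φ : U' ⟶ Y => f ≫ φ)) : PreBij f Y := by
  intro n
  cases n with
  | zero =>
    constructor
    · intro x y hxy
      obtain ⟨a, rfl⟩ := mk₀_surj x
      obtain ⟨b, rfl⟩ := mk₀_surj y
      rw [pre_mk₀, pre_mk₀] at hxy
      rw [h.1 (mk₀_inj hxy)]
    · intro x
      obtain ⟨a, rfl⟩ := mk₀_surj x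
      obtain ⟨b, rfl⟩ := h.2 a
      exact ⟨Ext.mk₀ b, pre_mk₀ _ _⟩
  | succ n =>
    exact ⟨fun x y _ => (hU' n x).trans (hU' n y).symm,
      fun y => ⟨0, (hU n _).trans (hU n y).symm⟩⟩

lemma preBij_of_null {A B E Y : C} {f : A ⟶ B} {g : B ⟶ E} (h : SES f g) (hA : Null A Y) :
    PreBij g Y := by
  obtain ⟨w, hS⟩ := h
  intro n
  constructor
  · cases n with
    | zero => exact ex0 hS Y
    | succ n =>
      refine (injective_iff_map_eq_zero _).2 fun x hx => ?_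
      obtain ⟨y, rfl⟩ := (ex3 hS Y n x).1 hx
      rw [hA n y, map_zero]
  · intro x
    exact (ex2 hS Y n x).1 (hA n _)

lemma PreBij.van_src {U U' Y : C} {f : U ⟶ U'} (h : PreBij f Y) {n : ℕ} (hU : Van U' Y n) :
    Van U Y n := by
  intro x
  obtain ⟨y, rfl⟩ := (h n).2 x
  rw [hU y, map_zero]

lemma lemmaA {X'' G I G' X Y : C} {a : X'' ⟶ G} {b : G ⟶ I} {c : I ⟶ G'} {d : G' ⟶ X}
    (h1 : SES a b) (h2 : SES c d) (hf : PreBij (b ≫ c) Y) :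
    Van X Y 0 ∧ Van X Y 1 ∧ ∀ n, Van X'' Y n → Van X Y (n + 2) := by
  obtain ⟨w1, h1⟩ := h1
  obtain ⟨w2, h2⟩ := h2
  have key : ∀ n (x : Ext X Y n), pre d Y n x = 0 := by
    intro n x
    apply (hf n).1
    rw [pre_pre, Category.assoc, w2, comp_zero, pre_zero, map_zero]
  have split : ∀ n (y : Ext I Y n), ∃ z : Ext G' Y n, pre b Y n (y - pre c Y n z) = 0 := by
    intro n y
    obtain ⟨z, hz⟩ := (hf n).2 (pre b Y n y)
    exact ⟨z, by rw [map_sub, pre_pre, hz, sub_self]⟩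
  refine ⟨fun x => ex0 h2 Y ((key 0 x).trans (map_zero _).symm), fun x => ?_, fun n hn x => ?_⟩
  · obtain ⟨y, rfl⟩ := (ex3 h2 Y 0 x).1 (key 1 x)
    obtain ⟨z, hz⟩ := split 0 y
    have : y - pre c Y 0 z = 0 := ex0 h1 Y (hz.trans (map_zero _).symm)
    exact (ex1 h2 Y 0 y).2 ⟨z, (sub_eq_zero.1 this).symm⟩
  · obtain ⟨y, rfl⟩ := (ex3 h2 Y (n + 1) x).1 (key _ x)
    obtain ⟨z, hz⟩ := split (n + 1) y
    obtain ⟨t, ht⟩ := (ex3 h1 Y n _).1 hz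
    rw [hn t, map_zero] at ht
    exact (ex1 h2 Y (n + 1) y).2 ⟨z, (sub_eq_zero.1 ht.symm).symm⟩

/-- An infinite chain of four-term exact sequences. -/
lemma null_of_chain {Y : C} {ι : Sort*} (X : ι → C)
    (h : ∀ k, ∃ (j : ι) (G I G' : C) (a : X j ⟶ G) (b : G ⟶ I) (c : I ⟶ G') (d : G' ⟶ X k),
      SES a b ∧ SES c d ∧ PreBij (b ≫ c) Y) (k : ι) : Null (X k) Y := by
  have key : ∀ n k, Van (X k) Y n ∧ Van (X k) Y (n + 1) := by
    intro n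
    induction n with
    | zero =>
      intro k
      obtain ⟨j, G, I, G', a, b, c, d, h1, h2, h3⟩ := h k
      exact ⟨(lemmaA h1 h2 h3).1, (lemmaA h1 h2 h3).2.1⟩
    | succ n ih =>
      intro k
      obtain ⟨j, G, I, G', a, b, c, d, h1, h2, h3⟩ := h k
      exact ⟨(ih k).2, (lemmaA h1 h2 h3).2.2 n (ih j).1⟩
  exact fun n => (key n k).1

lemma Van.iso_right {U Y Y' : C} (i : Y ≅ Y') {n : ℕ} (h : Van U Y n) : Van U Y' n := by
  intro x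
  have h1 : x = (x.comp (Ext.mk₀ i.inv) (add_zero n)).comp (Ext.mk₀ i.hom) (add_zero n) := by
    rw [Ext.comp_assoc_of_second_deg_zero]
    simp
  rw [h1, h (x.comp _ _), Ext.zero_comp]

/-- The periodicity argument. -/
lemma nullPos_of_periodic {M M' K X Z1 Z2 Y : C} [Projective Z1] [Projective Z2]
    {j1 : M ⟶ Z1} {q1 : Z1 ⟶ M'} {j2 : M' ⟶ Z2} {q2 : Z2 ⟶ K} {i : K ⟶ M} {π : M ⟶ X}
    (s1 : SES j1 q1) (s2 : SES j2 q2) (s3 : SES i π) (hX : Null X Y)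
    (e1 : ∀ φ : Z2 ⟶ Y, (q1 ≫ j2) ≫ φ = 0 → ∃ ψ : Z1 ⟶ Y, (q2 ≫ i ≫ j1) ≫ ψ = φ)
    (e2 : ∀ φ : Z1 ⟶ Y, (q2 ≫ i ≫ j1) ≫ φ = 0 → ∃ ψ : Z2 ⟶ Y, (q1 ≫ j2) ≫ ψ = φ) :
    NullPos M' Y := by
  have := s1.epi
  have := s2.epi
  have key : ∀ n, Van M' Y (n + 1) ∧ Van K Y (n + 1) := by
    intro n
    induction n with
    | zero =>
      constructor
      · refine van_one_of_extend s1.2 (van_projective _ _ 0) fun χ => ?_
        obtain ⟨ψ, hψ⟩ := e1 (q2 ≫ i ≫ χ) (by simp [reassoc_of% s2.w])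
        have h1 : i ≫ (j1 ≫ ψ - χ) = 0 := by
          rw [← cancel_epi q2, Preadditive.comp_sub, Preadditive.comp_sub, comp_zero, ← hψ]
          simp
        obtain ⟨θ, hθ⟩ := s3.desc _ h1
        rw [van_zero_iff.1 (hX 0) θ, comp_zero] at hθ
        exact ⟨ψ, sub_eq_zero.1 hθ.symm⟩
      · refine van_one_of_extend s2.2 (van_projective _ _ 0) fun χ => ?_
        obtain ⟨ψ, hψ⟩ := e2 (q1 ≫ χ) (by simp [reassoc_of% s1.w])
        exact ⟨ψ, by rw [← cancel_epi q1, ← hψ]; simp⟩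
    | succ n ih =>
      exact ⟨Van.c3 s1.2 (Van.c2 s3.2 ih.2 (hX _)) (van_projective _ _ _),
        Van.c3 s2.2 ih.1 (van_projective _ _ _)⟩
  exact fun n => (key n).1

/-- Exactness of the Hom sequence of the periodic complex. -/
lemma periodic_exact {L L' S S' I I' N N' Y : C}
    {j : L ⟶ S} {q : S ⟶ I} {i : I ⟶ L'} {π : L' ⟶ N}
    {j' : L' ⟶ S'} {q' : S' ⟶ I'} {i' : I' ⟶ L} {π' : L ⟶ N'}
    (s1 : SES j q) (s2 : SES i π) (s3 : SES j' q') (s4 : SES i' π') [Projective L']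
    (hN : Null N Y) (hN' : Null N' Y) (φ : S' ⟶ Y) (hφ : (q ≫ i ≫ j') ≫ φ = 0) :
    ∃ ψ : S ⟶ Y, (q' ≫ i' ≫ j) ≫ ψ = φ := by
  have := s1.epi
  have h1 : i ≫ j' ≫ φ = 0 := by rw [← cancel_epi q, comp_zero, ← hφ]; simp
  obtain ⟨θ, hθ⟩ := s2.desc _ h1
  rw [van_zero_iff.1 (hN 0) θ, comp_zero] at hθ
  obtain ⟨φ', rfl⟩ := s3.desc φ hθ.symm
  obtain ⟨χ, rfl⟩ := extend_of_van_one s4.2 (hN' 1) φ'
  have h2 : Van I Y 1 := Van.c1 s2.2 (van_projective _ _ 0) (hN 2)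
  obtain ⟨ψ, rfl⟩ := extend_of_van_one s1.2 h2 χ
  exact ⟨ψ, by simp⟩

end PreBij

section Pi

variable {C : Type u} [Category.{v} C] [Abelian C] [HasExt.{w} C]
variable {D : Type u'} [Category.{v'} D] [Abelian D] [HasExt.{w} D]
variable {H : C ⥤ D} [H.Additive] [PreservesFiniteLimits H] [PreservesFiniteColimits H]

lemma Pi.bij {U Y : C} (h : Pi H U Y) (n : ℕ) : Bijective (H.mapExtAddHom U Y n) := h n

lemma pi_square {U U' : C} (f : U ⟶ U') (Y : C) (n : ℕ) :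
    H.mapExtAddHom U Y n ∘ pre f Y n =
      pre (H.map f) (H.obj Y) n ∘ H.mapExtAddHom U' Y n := by
  funext x
  exact map_pre H f Y n x

lemma Pi.of_preBij {U U' Y : C} {f : U ⟶ U'} (h : Pi H U Y) (h1 : PreBij f Y)
    (h2 : PreBij (H.map f) (H.obj Y)) : Pi H U' Y := by
  intro n
  have := (h.bij n).comp (h1 n)
  rw [pi_square] at this
  exact (Bijective.of_comp_iff' (h2 n) _).1 this

lemma Pi.preBij_map {U U' Y : C} {f : U ⟶ U'} (h : Pi H U Y) (h' : Pi H U' Y)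
    (h1 : PreBij f Y) : PreBij (H.map f) (H.obj Y) := by
  intro n
  have := (h.bij n).comp (h1 n)
  rw [pi_square] at this
  exact (Bijective.of_comp_iff _ (h'.bij n)).1 this

lemma Pi.preBij_of_map {U U' Y : C} {f : U ⟶ U'} (h : Pi H U Y) (h' : Pi H U' Y)
    (h2 : PreBij (H.map f) (H.obj Y)) : PreBij f Y := by
  intro n
  have := (h2 n).comp (h'.bij n)
  rw [← pi_square] at this
  exact (Bijective.of_comp_iff' (h.bij n) _).1 this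

lemma Pi.van_map {U Y : C} (h : Pi H U Y) {n : ℕ} (hv : Van U Y n) :
    Van (H.obj U) (H.obj Y) n := by
  intro x
  obtain ⟨y, rfl⟩ := (h n).2 x
  rw [hv y, map_zero]

lemma Pi.van_of_map {U Y : C} (h : Pi H U Y) {n : ℕ} (hv : Van (H.obj U) (H.obj Y) n) :
    Van U Y n :=
  fun _ => (h n).1 ((hv _).trans (map_zero _).symm)

lemma Pi.map_bij {U Y : C} (h : Pi H U Y) : Bijective (fun f : U ⟶ Y => H.map f) := by
  constructor
  · intro f g hfg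
    apply mk₀_inj
    apply (h 0).1
    rw [map_mk₀, map_mk₀]
    exact congrArg _ hfg
  · intro f
    obtain ⟨x, hx⟩ := (h 0).2 (Ext.mk₀ f)
    obtain ⟨g, rfl⟩ := mk₀_surj x
    rw [map_mk₀] at hx
    exact ⟨g, mk₀_inj hx⟩

lemma pi_of_map_bij {U Y : C} (h0 : Bijective (fun f : U ⟶ Y => H.map f)) (h1 : NullPos U Y)
    (h2 : NullPos (H.obj U) (H.obj Y)) : Pi H U Y := by
  intro n
  cases n with
  | zero =>
    constructor
    · intro x y hxy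
      obtain ⟨a, rfl⟩ := mk₀_surj x
      obtain ⟨b, rfl⟩ := mk₀_surj y
      rw [map_mk₀, map_mk₀] at hxy
      rw [h0.1 (mk₀_inj hxy)]
    · intro x
      obtain ⟨a, rfl⟩ := mk₀_surj x
      obtain ⟨b, rfl⟩ := h0.2 a
      exact ⟨Ext.mk₀ b, map_mk₀ H b⟩
  | succ n =>
    exact ⟨fun x y _ => (h1 n x).trans (h1 n y).symm,
      fun y => ⟨0, (h2 n _).trans (h2 n y).symm⟩⟩

/-- Comparison along resolutions inside a class. -/
lemma pi_of_class {Y : C} {ι : Sort*} (X : ι → C)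
    (h : ∀ i, ∃ (j : ι) (P : C) (f : X j ⟶ P) (g : P ⟶ X i), SES f g ∧ Pi H P Y) (i : ι) :
    Pi H (X i) Y := by
  have key : ∀ n, (∀ i, PiInj H (X i) Y n) ∧ ∀ i, PiSurj H (X i) Y n := by
    intro n
    induction n with
    | zero =>
      have h1 : ∀ i, PiInj H (X i) Y 0 := by
        intro i
        obtain ⟨j, P, f, g, hs, hP⟩ := h i
        exact PiInj.c3_zero hs.2 (hP 0).1
      refine ⟨h1, fun i => ?_⟩
      obtain ⟨j, P, f, g, hs, hP⟩ := h i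
      exact PiSurj.c3_zero hs.2 (hP 0).2 (h1 j)
    | succ n ih =>
      have h1 : ∀ i, PiInj H (X i) Y (n + 1) := by
        intro i
        obtain ⟨j, P, f, g, hs, hP⟩ := h i
        exact PiInj.c3 hs.2 (hP n).2 (ih.1 j) (hP _).1
      refine ⟨h1, fun i => ?_⟩
      obtain ⟨j, P, f, g, hs, hP⟩ := h i
      exact PiSurj.c3 hs.2 (ih.2 j) (hP _).2 (h1 j)
  exact fun n => ⟨(key n).1 i, (key n).2 i⟩

/-- Comparison along the three short exact sequences. -/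
lemma pi_of_three {M M' K X Z1 Z2 Y : C}
    {j1 : M ⟶ Z1} {q1 : Z1 ⟶ M'} {j2 : M' ⟶ Z2} {q2 : Z2 ⟶ K} {i : K ⟶ M} {π : M ⟶ X}
    (s1 : SES j1 q1) (s2 : SES j2 q2) (s3 : SES i π)
    (h1 : Pi H Z1 Y) (h2 : Pi H Z2 Y) (hX : Pi H X Y) : Pi H M' Y := by
  have key : ∀ n, (PiInj H K Y n ∧ PiInj H M' Y n ∧ PiInj H M Y n) ∧
      (PiSurj H K Y n ∧ PiSurj H M' Y n ∧ PiSurj H M Y n) := by
    intro n
    induction n with
    | zero =>
      have a : PiInj H K Y 0 := PiInj.c3_zero s2.2 (h2 0).1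
      have b : PiInj H M' Y 0 := PiInj.c3_zero s1.2 (h1 0).1
      have c : PiInj H M Y 0 := PiInj.c2_zero s3.2 (hX 0).1 a
      have d : PiSurj H K Y 0 := PiSurj.c3_zero s2.2 (h2 0).2 b
      exact ⟨⟨a, b, c⟩, d, PiSurj.c3_zero s1.2 (h1 0).2 c, PiSurj.c2 s3.2 (hX 0).2 d (hX _).1⟩
    | succ n ih =>
      obtain ⟨⟨a0, b0, c0⟩, d0, e0, f0⟩ := ih
      have a : PiInj H K Y (n + 1) := PiInj.c3 s2.2 (h2 n).2 b0 (h2 _).1
      have b : PiInj H M' Y (n + 1) := PiInj.c3 s1.2 (h1 n).2 c0 (h1 _).1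
      have c : PiInj H M Y (n + 1) := PiInj.c2 s3.2 d0 (hX _).1 a
      have d : PiSurj H K Y (n + 1) := PiSurj.c3 s2.2 e0 (h2 _).2 b
      exact ⟨⟨a, b, c⟩, d, PiSurj.c3 s1.2 f0 (h1 _).2 c, PiSurj.c2 s3.2 (hX _).2 d (hX _).1⟩
  exact fun n => ⟨(key n).1.2.1, (key n).2.2.1⟩

end Pi

section Res2

variable {C : Type u} [Category.{v} C] [Abelian C]

/-- A projective resolution of length two, split into short exact sequences. -/
structure Res2 (N : C) where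
  P2 : C
  P1 : C
  P0 : C
  I : C
  d : P2 ⟶ P1
  q : P1 ⟶ I
  i : I ⟶ P0
  π : P0 ⟶ N
  s1 : SES d q
  s0 : SES i π
  p1 : Projective P1
  p0 : Projective P0
  p2 : Projective P2

namespace Res2

variable {N : C} (r : Res2 N)

lemma tt_N {Q : C → Prop} (hQ : TT Q) (h2 : Q r.P2) (h1 : Q r.P1) (h0 : Q r.P0) : Q N :=
  hQ.s3 r.s0 (hQ.s3 r.s1 h2 h1) h0

lemma tt_P0 {Q : C → Prop} (hQ : TT Q) (h2 : Q r.P2) (h1 : Q r.P1) (hN : Q N) : Q r.P0 :=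
  hQ.s2 r.s0 (hQ.s3 r.s1 h2 h1) hN

variable [HasExt.{w} C]

include r in
lemma van_high (U : C) (n : ℕ) : Van N U (n + 3) := by
  have := r.p0
  have := r.p1
  have := r.p2
  exact Van.c3 r.s0.2 (Van.c3 r.s1.2 (van_projective _ _ n) (van_projective _ _ _))
    (van_projective _ _ _)

lemma van_one {U : C} (h : ∀ ψ : r.I ⟶ U, ∃ χ : r.P0 ⟶ U, r.i ≫ χ = ψ) : Van N U 1 := by
  have := r.p0
  exact van_one_of_extend r.s0.2 (van_projective _ _ 0) h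

/-- The class in `Ext²` attached to a map out of the last term. -/
noncomputable def c {U : C} (φ : r.P2 ⟶ U) : Ext N U 2 :=
  del r.s0.2 U 1 (del r.s1.2 U 0 (Ext.mk₀ φ))

lemma c_surj {U : C} (x : Ext N U 2) : ∃ φ : r.P2 ⟶ U, r.c φ = x := by
  have := r.p0
  have := r.p1
  obtain ⟨y, rfl⟩ := (ex3 r.s0.2 U 1 x).1 (van_projective r.P0 U 1 _)
  obtain ⟨z, rfl⟩ := (ex3 r.s1.2 U 0 y).1 (van_projective r.P1 U 0 _)
  obtain ⟨φ, rfl⟩ := mk₀_surj z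
  exact ⟨φ, rfl⟩

lemma c_eq_zero_iff {U : C} (φ : r.P2 ⟶ U) : r.c φ = 0 ↔ ∃ χ : r.P1 ⟶ U, r.d ≫ χ = φ := by
  have := r.p0
  constructor
  · intro h
    obtain ⟨y, hy⟩ := (ex1 r.s0.2 U 1 _).1 h
    rw [van_projective r.P0 U 0 y, map_zero] at hy
    obtain ⟨z, hz⟩ := (ex1 r.s1.2 U 0 _).1 hy.symm
    obtain ⟨χ, rfl⟩ := mk₀_surj z
    exact ⟨χ, mk₀_inj ((pre_mk₀ _ _).symm.trans hz)⟩
  · rintro ⟨χ, rfl⟩
    have : del r.s1.2 U 0 (Ext.mk₀ (r.d ≫ χ)) = 0 :=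
      (ex1 r.s1.2 U 0 _).2 ⟨Ext.mk₀ χ, pre_mk₀ _ _⟩
    rw [c, this, map_zero]

lemma c_add {U : C} (φ ψ : r.P2 ⟶ U) : r.c (φ + ψ) = r.c φ + r.c ψ := by
  rw [c, Ext.mk₀_add, map_add, map_add]
  rfl

lemma van_two {U : C} (h : ∀ φ : r.P2 ⟶ U, ∃ χ : r.P1 ⟶ U, r.d ≫ χ = φ) : Van N U 2 := by
  intro x
  obtain ⟨φ, rfl⟩ := r.c_surj x
  exact (r.c_eq_zero_iff φ).2 (h φ)

lemma onto_of_van_two {U : C} (h : Van N U 2) (φ : r.P2 ⟶ U) :
    ∃ χ : r.P1 ⟶ U, r.d ≫ χ = φ :=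
  (r.c_eq_zero_iff φ).1 (h _)

include r in
lemma null {U : C} (h0 : Van N U 0) (h1 : Van N U 1) (h2 : Van N U 2) : Null N U
  | 0 => h0
  | 1 => h1
  | 2 => h2
  | n + 3 => r.van_high U n

end Res2

variable [HasExt.{w} C]

lemma del_natural {S₁ S₂ : ShortComplex C} (h₁ : S₁.ShortExact) (h₂ : S₂.ShortExact)
    (f : S₁ ⟶ S₂) (Y : C) (n : ℕ) (x : Ext S₂.X₁ Y n) :
    pre f.τ₃ Y (n + 1) (del h₂ Y n x) = del h₁ Y n (pre f.τ₁ Y n x) := by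
  rw [pre_apply, del_apply, del_apply, pre_apply,
    ← Ext.comp_assoc _ _ _ (zero_add 1) (add_comm 1 n) (by omega),
    ← ShortComplex.ShortExact.extClass_naturality h₁ h₂ f,
    Ext.comp_assoc _ _ _ (add_zero 1) (zero_add n) (by omega)]

/-- A chain map between two resolutions of length two. -/
structure Res2Map {A B : C} (rA : Res2 A) (rB : Res2 B) (f : A ⟶ B) where
  f2 : rA.P2 ⟶ rB.P2
  f1 : rA.P1 ⟶ rB.P1
  fI : rA.I ⟶ rB.I
  f0 : rA.P0 ⟶ rB.P0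
  c2 : f2 ≫ rB.d = rA.d ≫ f1
  c1 : f1 ≫ rB.q = rA.q ≫ fI
  cI : fI ≫ rB.i = rA.i ≫ f0
  c0 : f0 ≫ rB.π = rA.π ≫ f

lemma Res2Map.pre_c {A B : C} {rA : Res2 A} {rB : Res2 B} {f : A ⟶ B} (m : Res2Map rA rB f)
    {U : C} (φ : rB.P2 ⟶ U) : pre f U 2 (rB.c φ) = rA.c (m.f2 ≫ φ) := by
  have e0 := del_natural rA.s0.2 rB.s0.2 (ShortComplex.homMk m.fI m.f0 f m.cI m.c0) U 1
    (del rB.s1.2 U 0 (Ext.mk₀ φ))
  have e1 := del_natural rA.s1.2 rB.s1.2 (ShortComplex.homMk m.f2 m.f1 m.fI m.c2 m.c1) U 0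
    (Ext.mk₀ φ)
  refine e0.trans ?_
  refine (congrArg _ e1).trans ?_
  rw [Res2.c, ← pre_mk₀]
  rfl

lemma Res2Map.null {A B E : C} {rA : Res2 A} {rB : Res2 B} {f : A ⟶ B} (m : Res2Map rA rB f)
    {g : B ⟶ E} (s : SES f g) {U : C} (a0 : Van A U 0) (a1 : Van A U 1) (b0 : Van B U 0)
    (b1 : Van B U 1)
    (hinj : ∀ φ : rB.P2 ⟶ U, (∃ χ : rA.P1 ⟶ U, rA.d ≫ χ = m.f2 ≫ φ) →
      ∃ χ : rB.P1 ⟶ U, rB.d ≫ χ = φ)
    (hsurj : ∀ ψ : rA.P2 ⟶ U, ∃ (φ : rB.P2 ⟶ U) (χ : rA.P1 ⟶ U), ψ = m.f2 ≫ φ + rA.d ≫ χ) :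
    Null E U
  | 0 => Van.c3_zero s.2 b0
  | 1 => Van.c3 s.2 a0 b1
  | 2 => by
    intro x
    obtain ⟨φ, hφ⟩ := rB.c_surj (pre g U 2 x)
    have h1 : rA.c (m.f2 ≫ φ) = 0 := by
      rw [← m.pre_c, hφ, pre_pre, s.w, pre_zero]
    have h2 : rB.c φ = 0 := (rB.c_eq_zero_iff φ).2 (hinj φ ((rA.c_eq_zero_iff _).1 h1))
    obtain ⟨y, rfl⟩ := (ex3 s.2 U 1 x).1 (hφ.symm.trans h2)
    rw [a1 y, map_zero]
  | 3 => by
    intro x
    obtain ⟨y, rfl⟩ := (ex3 s.2 U 2 x).1 (rB.van_high U 0 _)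
    obtain ⟨ψ, rfl⟩ := rA.c_surj y
    obtain ⟨φ, χ, rfl⟩ := hsurj ψ
    refine (ex1 s.2 U 2 _).2 ⟨rB.c φ, ?_⟩
    rw [rA.c_add, (rA.c_eq_zero_iff _).2 ⟨χ, rfl⟩, add_zero]
    exact m.pre_c φ
  | n + 4 => Van.c3 s.2 (rA.van_high U n) (rB.van_high U (n + 1))

lemma Res2Map.onto_of_van {A B E : C} {rA : Res2 A} {rB : Res2 B} {f : A ⟶ B}
    (m : Res2Map rA rB f) {g : B ⟶ E} (s : SES f g) {U : C} (h : Van E U 3) (ψ : rA.P2 ⟶ U) :
    ∃ (φ : rB.P2 ⟶ U) (χ : rA.P1 ⟶ U), ψ = m.f2 ≫ φ + rA.d ≫ χ := by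
  obtain ⟨y, hy⟩ := (ex1 s.2 U 2 (rA.c ψ)).1 (h _)
  obtain ⟨φ, rfl⟩ := rB.c_surj y
  have h1 : rA.c (m.f2 ≫ φ) = rA.c ψ := (m.pre_c φ).symm.trans hy
  have h2 : rA.c (ψ - m.f2 ≫ φ) = 0 := by
    have := rA.c_add (ψ - m.f2 ≫ φ) (m.f2 ≫ φ)
    rw [sub_add_cancel, h1] at this
    exact (add_eq_right.1 this.symm)
  obtain ⟨χ, hχ⟩ := (rA.c_eq_zero_iff _).1 h2
  exact ⟨φ, χ, by rw [hχ]; abel⟩

end Res2

end Vale.Agent.P195
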