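import Vale.Agent.P195.Hom2

/-!
Yoneda-type lemmas for the functors `Hom(V, -)`, finite sums, approximations.
-/

namespace Vale.Agent.P195

open CategoryTheory Limits Abelian Function ZeroObject

universe w v u v' u'

section Coy

variable {C : Type u} [Category.{v} C] [Abelian C]

/-- The functor `Hom(V, -)` to modules over the opposite endomorphism ring. -/
noncomputable def coy (V : C) : C ⥤ ModuleCat.{v} (End V)ᵐᵒᵖ := preadditiveCoyonedaObj V

instance (V : C) : (coy V).Additive := additive_coyonedaObj V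

instance (V : C) : PreservesFiniteLimits (coy V) :=
  have : PreservesLimits (coy V) := preservesLimits_preadditiveCoyonedaObj V
  PreservesLimits.preservesFiniteLimits _

instance (V : C) [Projective V] : PreservesFiniteColimits (coy V) :=
  preservesFiniteColimits_preadditiveCoyonedaObj_of_projective V

lemma coy_map_apply (V : C) {A B : C} (f : A ⟶ B) (g : V ⟶ A) :
    ((coy V).map f).hom g = g ≫ f := rfl

lemma coy_smul {V A B : C} (Φ : (coy V).obj A ⟶ (coy V).obj B) (r : V ⟶ V) (g : V ⟶ A) :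
    Φ.hom (r ≫ g : V ⟶ A) = r ≫ (Φ.hom g : V ⟶ B) :=
  Φ.hom.map_smul (MulOpposite.op (End.of r)) g

lemma coy_bij {U V : C} (h : Retract U V) (Y : C) :
    Bijective (fun f : U ⟶ Y => (coy V).map f) := by
  constructor
  · intro f g hfg
    have h1 : h.r ≫ f = h.r ≫ g := congrArg (fun Φ => Φ.hom h.r) hfg
    exact (cancel_epi h.r).1 h1
  · intro Φ
    refine ⟨h.i ≫ (Φ.hom h.r : V ⟶ Y), ?_⟩
    apply ModuleCat.hom_ext
    refine LinearMap.ext fun (g : V ⟶ U) => ?_
    have h1 := coy_smul Φ (g ≫ h.i) h.r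
    rw [Category.assoc, h.retract, Category.comp_id] at h1
    exact (h1.trans (Category.assoc _ _ _)).symm

/-- `Hom(V, V)` is the free module of rank one. -/
noncomputable def coyIso (V : C) :
    ModuleCat.of (End V)ᵐᵒᵖ (End V)ᵐᵒᵖ ≅ (coy V).obj V :=
  LinearEquiv.toModuleIso
    { toFun := fun r => (r.unop : V ⟶ V)
      invFun := fun f => MulOpposite.op (End.of (f : V ⟶ V))
      map_add' := fun _ _ => rfl
      map_smul' := fun _ _ => rfl
      left_inv := fun _ => rfl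
      right_inv := fun _ => rfl }

lemma coy_projective {U V : C} (h : Retract U V) : Projective ((coy V).obj U) := by
  have : Projective ((coy V).obj V) := Projective.of_iso (coyIso V) inferInstance
  exact (h.map (coy V)).projective

lemma coy_ses (V : C) {A B E : C} {f : A ⟶ B} {g : B ⟶ E} [Mono f] (w : f ≫ g = 0)
    (hex : (ShortComplex.mk f g w).Exact) (hs : ∀ ψ : V ⟶ E, ∃ φ : V ⟶ B, φ ≫ g = ψ) :
    SES ((coy V).map f) ((coy V).map g) := by
  refine ⟨by rw [← Functor.map_comp, w, Functor.map_zero], ?_⟩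
  have : Epi ((coy V).map g) := (ModuleCat.epi_iff_surjective _).2 hs
  have h2 : Mono ((coy V).map f) :=
    (ModuleCat.mono_iff_injective _).2 fun a b hab => (cancel_mono f).1 hab
  refine { exact := ?_, mono_f := h2, epi_g := this }
  rw [ShortComplex.moduleCat_exact_iff]
  intro φ hφ
  exact hex.lift' φ hφ

lemma coy_isIso (V : C) {A B : C} (f : A ⟶ B) (h : Bijective (fun φ : V ⟶ A => φ ≫ f)) :
    IsIso ((coy V).map f) :=
  (ConcreteCategory.isIso_iff_bijective _).2 h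

lemma coy_isZero (V : C) {A : C} (h : ∀ φ : V ⟶ A, φ = 0) : IsZero ((coy V).obj A) := by
  have : Subsingleton ((coy V).obj A) := ⟨fun a b => (h a).trans (h b).symm⟩
  exact ModuleCat.isZero_of_subsingleton _

lemma coy_post_surj {U V : C} (h : Retract U V) {A B : C} (f : A ⟶ B)
    (hf : ∀ ψ : U ⟶ B, ∃ φ : U ⟶ A, φ ≫ f = ψ) (Ψ : (coy V).obj U ⟶ (coy V).obj B) :
    ∃ Φ : (coy V).obj U ⟶ (coy V).obj A, Φ ≫ (coy V).map f = Ψ := by
  obtain ⟨ψ, rfl⟩ := (coy_bij h B).2 Ψ
  obtain ⟨φ, rfl⟩ := hf ψ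
  exact ⟨(coy V).map φ, (Functor.map_comp _ _ _).symm⟩

lemma coy_post_inj {U V : C} (h : Retract U V) {A B : C} (f : A ⟶ B)
    (hf : ∀ φ : U ⟶ A, φ ≫ f = 0 → φ = 0) (Φ : (coy V).obj U ⟶ (coy V).obj A)
    (hΦ : Φ ≫ (coy V).map f = 0) : Φ = 0 := by
  obtain ⟨φ, rfl⟩ := (coy_bij h A).2 Φ
  have h1 : φ ≫ f = 0 := (coy_bij h B).1 (by
    dsimp only at hΦ ⊢
    rw [Functor.map_comp, hΦ, Functor.map_zero])
  dsimp only
  rw [hf φ h1, Functor.map_zero]

lemma bijective_post {D : Type u'} [Category.{v'} D] [Preadditive D] {U A B : D} {f : A ⟶ B}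
    (h1 : ∀ φ : U ⟶ A, φ ≫ f = 0 → φ = 0) (h2 : ∀ ψ : U ⟶ B, ∃ φ : U ⟶ A, φ ≫ f = ψ) :
    Bijective (fun φ : U ⟶ A => φ ≫ f) :=
  ⟨fun a b hab => sub_eq_zero.1 (h1 _ (by
    dsimp only at hab
    rw [Preadditive.sub_comp, hab, sub_self])), h2⟩

/-- The composite functor `Hom(Hom(V,U), Hom(V,-))`. -/
noncomputable abbrev coy2 (V U : C) : C ⥤ ModuleCat.{v} (End ((coy V).obj U))ᵐᵒᵖ :=
  coy V ⋙ coy ((coy V).obj U)

lemma coy2_isIso {U V : C} (h : Retract U V) {A B : C} (f : A ⟶ B)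
    (h1 : ∀ φ : U ⟶ A, φ ≫ f = 0 → φ = 0) (h2 : ∀ ψ : U ⟶ B, ∃ φ : U ⟶ A, φ ≫ f = ψ) :
    IsIso ((coy2 V U).map f) :=
  coy_isIso _ _ (bijective_post (coy_post_inj h f h1) (coy_post_surj h f h2))

lemma coy2_isZero {U V : C} (h : Retract U V) {A : C} (h1 : ∀ φ : U ⟶ A, φ = 0) :
    IsZero ((coy2 V U).obj A) := by
  refine coy_isZero _ fun Φ => ?_
  obtain ⟨φ, rfl⟩ := (coy_bij h A).2 Φ
  dsimp only
  rw [h1 φ, Functor.map_zero]

lemma coy2_preservesFiniteColimits {U V : C} (h : Retract U V) [Projective U] :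
    PreservesFiniteColimits (coy2 V U) := by
  have : (coy2 V U).PreservesEpimorphisms := ⟨fun {A B} f _ => by
    refine (ModuleCat.epi_iff_surjective _).2 fun Ψ => ?_
    exact coy_post_surj h f (fun ψ => ⟨Projective.factorThru ψ f, by simp⟩) Ψ⟩
  have := Functor.preservesHomology_of_preservesEpis_and_kernels (coy2 V U)
  exact Functor.preservesFiniteColimits_of_preservesHomology _

lemma coy2_bij {U U' V : C} (h : Retract U V) (h' : Retract U' U) (Y : C) :
    Bijective (fun f : U' ⟶ Y => (coy2 V U).map f) :=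
  (coy_bij (h'.map (coy V)) ((coy V).obj Y)).comp (coy_bij (h'.trans h) Y)

lemma pi_coy [HasExt.{v} C] {P U : C} [Projective P] (h : Retract U P) (Y : C) :
    Pi (coy P) U Y := by
  have := h.projective
  have := coy_projective h
  exact pi_of_map_bij (coy_bij h Y) (nullPos_projective _ _) (nullPos_projective _ _)

end Coy

section Sums

variable {C : Type u} [Category.{v} C] [Abelian C]

/-- Properties closed under finite direct sums. -/
structure BP (Q : C → Prop) : Prop where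
  zero : ∀ Z, IsZero Z → Q Z
  add : ∀ A B, Q A → Q B → Q (A ⊞ B)

lemma TT.bp {Q : C → Prop} (h : TT Q) : BP Q := ⟨h.zero, fun _ _ => h.biprod⟩

lemma TT.bp_comp {D : Type u'} [Category.{v'} D] [Abelian D] (H : C ⥤ D) [H.Additive]
    {Q : D → Prop} (h : TT Q) : BP (fun U => Q (H.obj U)) :=
  ⟨fun _ hZ => h.zero _ (H.map_isZero hZ), fun A B hA hB => h.s2 (ses_biprod_map H A B) hA hB⟩

/-- Direct sum of a list of objects. -/
noncomputable def sumL : List C → C
  | [] => 0
  | A :: l => A ⊞ sumL l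

lemma BP.sumL {Q : C → Prop} (h : BP Q) : ∀ l : List C, (∀ A ∈ l, Q A) → Q (sumL l)
  | [], _ => h.zero _ (isZero_zero C)
  | A :: l, hl => h.add _ _ (hl A (by simp)) (h.sumL l fun B hB => hl B (by simp [hB]))

/-- The left summand is a retract. -/
noncomputable def retrL (A B : C) : Retract A (A ⊞ B) := ⟨biprod.inl, biprod.fst, by simp⟩

/-- The right summand is a retract. -/
noncomputable def retrR (A B : C) : Retract B (A ⊞ B) := ⟨biprod.inr, biprod.snd, by simp⟩

lemma retract_sumL {A : C} : ∀ l : List C, A ∈ l → Nonempty (Retract A (sumL l))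
  | [], h => by simp at h
  | B :: l, h => by
    rcases List.mem_cons.1 h with rfl | h
    · exact ⟨retrL _ _⟩
    · obtain ⟨r⟩ := retract_sumL l h
      exact ⟨r.trans (retrR _ _)⟩

lemma bp_homSurj {A B : C} (f : A ⟶ B) :
    BP (fun V : C => ∀ ψ : V ⟶ B, ∃ φ : V ⟶ A, φ ≫ f = ψ) where
  zero Z hZ ψ := ⟨0, hZ.eq_of_src _ _⟩
  add U V hU hV ψ := by
    obtain ⟨a, ha⟩ := hU (biprod.inl ≫ ψ)
    obtain ⟨b, hb⟩ := hV (biprod.inr ≫ ψ)
    exact ⟨biprod.desc a b, by ext <;> simp [ha, hb]⟩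

omit [Abelian C] in
lemma homSurj_retract {A B : C} {f : A ⟶ B} {U V : C} (h : Retract U V)
    (hV : ∀ ψ : V ⟶ B, ∃ φ : V ⟶ A, φ ≫ f = ψ) (ψ : U ⟶ B) : ∃ φ : U ⟶ A, φ ≫ f = ψ := by
  obtain ⟨φ, hφ⟩ := hV (h.r ≫ ψ)
  exact ⟨h.i ≫ φ, by rw [Category.assoc, hφ, h.retract_assoc]⟩

lemma bp_homInj {A B : C} (f : A ⟶ B) :
    BP (fun V : C => ∀ φ : V ⟶ A, φ ≫ f = 0 → φ = 0) where
  zero Z hZ φ _ := hZ.eq_of_src _ _
  add U V hU hV φ hφ := by
    ext
    · rw [comp_zero]
      exact hU _ (by rw [Category.assoc, hφ, comp_zero])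
    · rw [comp_zero]
      exact hV _ (by rw [Category.assoc, hφ, comp_zero])

lemma bp_homZero (A : C) : BP (fun V : C => ∀ φ : V ⟶ A, φ = 0) where
  zero Z hZ φ := hZ.eq_of_src _ _
  add U V hU hV φ := by
    ext
    · rw [comp_zero]
      exact hU _
    · rw [comp_zero]
      exact hV _

lemma bp_projective : BP (fun V : C => Projective V) where
  zero _ hZ := hZ.projective
  add _ _ _ _ := inferInstance

lemma bp_nullPos_left [HasExt.{w} C] (Y : C) : BP (fun V : C => NullPos V Y) where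
  zero _ hZ _ := van_of_isZero hZ Y _
  add A B hA hB n := Van.c2 (biprodSplitting A B).shortExact (hA n) (hB n)

/-- Finite direct sums of copies of `T`. -/
inductive AddC (T : C) : C → Prop
  | zero : AddC T 0
  | add {U : C} : AddC T U → AddC T (T ⊞ U)

lemma BP.addC {Q : C → Prop} (h : BP Q) {T U : C} (hT : Q T) (hU : AddC T U) : Q U := by
  induction hU with
  | zero => exact h.zero _ (isZero_zero C)
  | add _ ih => exact h.add _ _ hT ih

lemma exists_approx_list {T U : C} (l : List (T ⟶ U)) :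
    ∃ (T' : C) (φ : T' ⟶ U), AddC T T' ∧ ∀ ψ ∈ l, ∃ χ : T ⟶ T', χ ≫ φ = ψ := by
  induction l with
  | nil => exact ⟨0, 0, AddC.zero, by simp⟩
  | cons a l ih =>
    obtain ⟨T', φ, h1, h2⟩ := ih
    refine ⟨T ⊞ T', biprod.desc a φ, h1.add, fun ψ hψ => ?_⟩
    rcases List.mem_cons.1 hψ with rfl | hψ
    · exact ⟨biprod.inl, by simp⟩
    · obtain ⟨χ, rfl⟩ := h2 ψ hψ
      exact ⟨χ ≫ biprod.inr, by simp⟩

lemma exists_approx [Linear ℚ C] (T U : C) [h : Module.Finite ℚ (T ⟶ U)] :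
    ∃ (T' : C) (φ : T' ⟶ U), AddC T T' ∧ ∀ ψ : T ⟶ U, ∃ χ : T ⟶ T', χ ≫ φ = ψ := by
  obtain ⟨s, hs⟩ := h.fg_top
  obtain ⟨T', φ, h1, h2⟩ := exists_approx_list s.toList
  refine ⟨T', φ, h1, fun ψ => ?_⟩
  have : (⊤ : Submodule ℚ (T ⟶ U)) ≤ LinearMap.range (Linear.rightComp ℚ T φ) := by
    rw [← hs, Submodule.span_le]
    intro a ha
    exact h2 a (Finset.mem_toList.2 ha)
  exact this Submodule.mem_top

end Sums

section Fin

lemma finite_of_inj {A B : Type*} [AddCommGroup A] [AddCommGroup B] [Module ℚ A] [Module ℚ B]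
    [Module.Finite ℚ B] (f : A →+ B) (hf : Injective f) : Module.Finite ℚ A :=
  Module.Finite.of_injective f.toRatLinearMap hf

lemma finite_of_surj {A B : Type*} [AddCommGroup A] [AddCommGroup B] [Module ℚ A] [Module ℚ B]
    [Module.Finite ℚ A] (f : A →+ B) (hf : Surjective f) : Module.Finite ℚ B :=
  Module.Finite.of_surjective f.toRatLinearMap hf

variable {C : Type u} [Category.{v} C] [Abelian C] [Linear ℚ C]

lemma bp_finite_left (U : C) : BP (fun V : C => Module.Finite ℚ (V ⟶ U)) where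
  zero Z hZ := by
    have : Subsingleton (Z ⟶ U) := ⟨fun a b => hZ.eq_of_src a b⟩
    infer_instance
  add A B hA hB := by
    refine finite_of_inj ((Preadditive.leftComp U (biprod.inl : A ⟶ A ⊞ B)).prod
      (Preadditive.leftComp U (biprod.inr : B ⟶ A ⊞ B))) fun f g h => ?_
    exact biprod.hom_ext' _ _ (congrArg Prod.fst h) (congrArg Prod.snd h)

lemma bp_finite_right (V : C) : BP (fun U : C => Module.Finite ℚ (V ⟶ U)) where
  zero Z hZ := by
    have : Subsingleton (V ⟶ Z) := ⟨fun a b => hZ.eq_of_tgt a b⟩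
    infer_instance
  add A B hA hB := by
    refine finite_of_inj ((Preadditive.rightComp V (biprod.fst : A ⊞ B ⟶ A)).prod
      (Preadditive.rightComp V (biprod.snd : A ⊞ B ⟶ B))) fun f g h => ?_
    exact biprod.hom_ext _ _ (congrArg Prod.fst h) (congrArg Prod.snd h)

lemma finite_of_mono (V : C) {A B : C} (f : A ⟶ B) [Mono f] [Module.Finite ℚ (V ⟶ B)] :
    Module.Finite ℚ (V ⟶ A) :=
  finite_of_inj (Preadditive.rightComp V f) fun _ _ h => (cancel_mono f).1 h

lemma finite_of_epi_left (U : C) {A B : C} (f : A ⟶ B) [Epi f] [Module.Finite ℚ (A ⟶ U)] :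
    Module.Finite ℚ (B ⟶ U) :=
  finite_of_inj (Preadditive.leftComp U f) fun _ _ h => (cancel_epi f).1 h

lemma finite_of_epi (V : C) [Projective V] {A B : C} (f : A ⟶ B) [Epi f]
    [Module.Finite ℚ (V ⟶ A)] : Module.Finite ℚ (V ⟶ B) :=
  finite_of_surj (Preadditive.rightComp V f) fun ψ => ⟨Projective.factorThru ψ f, by
    exact Projective.factorThru_comp ψ f⟩

lemma coy_finite (V U : C) [Module.Finite ℚ (V ⟶ U)] :
    Module.Finite (End V)ᵐᵒᵖ ((coy V).obj U) := by
  have : IsScalarTower ℚ (End V)ᵐᵒᵖ (V ⟶ U) := ⟨fun q r f => Linear.smul_comp _ _ _ q r.unop f⟩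
  exact Module.Finite.of_restrictScalars_finite ℚ (End V)ᵐᵒᵖ (V ⟶ U)

lemma coy_hom_finite {U V : C} (h : Retract U V) (Y : C) [Module.Finite ℚ (U ⟶ Y)] :
    Module.Finite ℚ ((coy V).obj U ⟶ (coy V).obj Y) :=
  finite_of_surj (coy V).mapAddHom (coy_bij h Y).2

lemma end_op_finite (V : C) [h : Module.Finite ℚ (V ⟶ V)] : Module.Finite ℚ (End V)ᵐᵒᵖ :=
  have : Module.Finite ℚ (End V) := h
  inferInstance

lemma end_op_noetherian (V : C) [Module.Finite ℚ (V ⟶ V)] : IsNoetherianRing (End V)ᵐᵒᵖ :=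
  have := end_op_finite V
  isNoetherian_of_tower ℚ inferInstance

end Fin

section FG

variable {R : Type v} [Ring R] [IsNoetherianRing R]
variable {D : Type u'} [Category.{v'} D] [Abelian D] [HasExt.{v} D]
variable {H : ModuleCat.{v} R ⥤ D} [H.Additive] [PreservesFiniteLimits H]
  [PreservesFiniteColimits H]

omit [IsNoetherianRing R] in
lemma bp_fg : BP (fun U : ModuleCat.{v} R => Module.Finite R U) where
  zero Z hZ := by
    have := ModuleCat.subsingleton_of_isZero hZ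
    infer_instance
  add A B hA hB :=
    Module.Finite.equiv (ModuleCat.biprodIsoProd A B).toLinearEquiv.symm

lemma pi_of_fg {Y : ModuleCat.{v} R} (h : Pi H (ModuleCat.of R R) Y) (U : ModuleCat.{v} R)
    (hU : Module.Finite R U) : Pi H U Y := by
  refine pi_of_class (ι := {U : ModuleCat.{v} R // Module.Finite R U}) (fun i => i.1) ?_ ⟨U, hU⟩
  rintro ⟨U, hU⟩
  obtain ⟨s, hs⟩ := hU.fg_top
  obtain ⟨T', φ, h1, h2⟩ := exists_approx_list (T := ModuleCat.of R R) (U := U)
    (s.toList.map fun u => ModuleCat.ofHom (LinearMap.toSpanSingleton R U u))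
  have hφ : Epi φ := by
    rw [ModuleCat.epi_iff_range_eq_top, eq_top_iff, ← hs, Submodule.span_le]
    intro u hu
    obtain ⟨χ, hχ⟩ := h2 _ (List.mem_map.2 ⟨u, Finset.mem_toList.2 hu, rfl⟩)
    refine ⟨χ.hom 1, ?_⟩
    have := congrArg (fun f => f.hom (1 : R)) hχ
    simpa using this
  have hT : Module.Finite R T' := bp_fg.addC (Module.Finite.self R) h1
  have hK : Module.Finite R (kernel φ : ModuleCat.{v} R) :=
    Module.Finite.of_injective (kernel.ι φ).hom ((ModuleCat.mono_iff_injective _).1 inferInstance)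
  exact ⟨⟨kernel φ, hK⟩, T', kernel.ι φ, φ, ses_kernel φ, (tt_pi H Y).bp.addC h h1⟩

end FG

end Vale.Agent.P195
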