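import Vale.Agent.P195.Ring

/-!
Koszul modules and their Ext groups.
-/

namespace Vale.Agent.P195

open CategoryTheory Limits Abelian Function

variable {W : Type} [Ring W] [Algebra ℚ W]

/-- Degree of `h`. -/
abbrev hd : G := (0, 2)

/-- Degree of `e`. -/
abbrev ed : G := (-1, -1)

namespace WData

/-- A regular pair of homogeneous elements of the same degree. -/
structure Pair (D : WData W) where
  y0 : W
  y1 : W
  d : G
  h0 : D.pr d y0 = y0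
  h1 : D.pr d y1 = y1
  k : KPair D.h y0 y1

/-- The pair of the `x`. -/
def px (D : WData W) : D.Pair := ⟨D.x0, D.x1, (2, 0), D.pr_x0, D.pr_x1, D.kx⟩

/-- The pair of the `p`. -/
def pp (D : WData W) : D.Pair := ⟨D.p0, D.p1, (-2, 2), D.pr_p0, D.pr_p1, D.kp⟩

variable {D : WData W}

@[simp] lemma px_d : D.px.d = (2, 0) := rfl

@[simp] lemma pp_d : D.pp.d = (-2, 2) := rfl

lemma h_smul_comm {U : D.M} (w : W) (u : U) : D.h • w • u = w • D.h • u := by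
  rw [← mul_smul, ← mul_smul, D.h_comm]

lemma e_smul_comm {U : D.M} (w : W) (u : U) : D.e • w • u = w • D.e • u := by
  rw [← mul_smul, ← mul_smul, D.e_comm]

lemma mk2_el {μ μ' : G} (a b : W) :
    mk2 (D.el μ a) (D.el μ' b) = a • mk2 (D.el μ 1) 0 + b • mk2 0 (D.el μ' 1) := by
  rw [mk2_smul, mk2_smul, mk2_add, smul_el, smul_el, smul_zero, smul_zero, mul_one, mul_one,
    add_zero, zero_add]

lemma hom2_ap {μ μ' : G} {U : D.M} (f : pr2 (D.P μ) (D.P μ') ⟶ U) (a b : W) :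
    f.hom (mk2 (D.el μ a) (D.el μ' b)) =
      a • f.hom (mk2 (D.el μ 1) 0) + b • f.hom (mk2 0 (D.el μ' 1)) := by
  rw [mk2_el, map_add, map_act, map_act]

lemma hom2_ext {μ μ' : G} {U : D.M} {f g : pr2 (D.P μ) (D.P μ') ⟶ U}
    (h1 : f.hom (mk2 (D.el μ 1) 0) = g.hom (mk2 (D.el μ 1) 0))
    (h2 : f.hom (mk2 0 (D.el μ' 1)) = g.hom (mk2 0 (D.el μ' 1))) : f = g :=
  pr2_hom_ext (P_ext h1) (P_ext h2)

lemma at_hom2_l {μ μ' : G} {U : D.M} (f : pr2 (D.P μ) (D.P μ') ⟶ U) :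
    At μ (f.hom (mk2 (D.el μ 1) 0)) := ((at_one μ).pair (At.zero μ)).map f

lemma at_hom2_r {μ μ' : G} {U : D.M} (f : pr2 (D.P μ) (D.P μ') ⟶ U) :
    At μ' (f.hom (mk2 0 (D.el μ' 1))) := ((At.zero μ').pair (at_one μ')).map f

/-- The map out of a free module of rank two given by two elements. -/
noncomputable def lift2 (μ μ' : G) {U : D.M} (a b : U) : pr2 (D.P μ) (D.P μ') ⟶ U :=
  pdesc (lift μ a) (lift μ' b)

lemma lift2_ap {μ μ' : G} {U : D.M} {a b : U} (ha : At μ a) (hb : At μ' b) (v w : W) :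
    (lift2 μ μ' a b).hom (mk2 (D.el μ v) (D.el μ' w)) = v • a + w • b := by
  rw [lift2, pdesc_ap, lift_el ha, lift_el hb]

lemma lift2_l {μ μ' : G} {U : D.M} {a : U} (ha : At μ a) (b : U) :
    (lift2 μ μ' a b).hom (mk2 (D.el μ 1) 0) = a := by
  rw [lift2, pdesc_ap, lift_one ha, map_zero, add_zero]

lemma lift2_r {μ μ' : G} {U : D.M} (a : U) {b : U} (hb : At μ' b) :
    (lift2 μ μ' a b).hom (mk2 0 (D.el μ' 1)) = b := by
  rw [lift2, pdesc_ap, lift_one hb, map_zero, zero_add]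

lemma el2_surj {μ μ' : G} (x : pr2 (D.P μ) (D.P μ')) :
    ∃ a b, mk2 (D.el μ a) (D.el μ' b) = x := ⟨x.1, x.2, rfl⟩

/-- Right multiplication by a homogeneous element. -/
noncomputable def rmul (D : WData W) (κ l : G) (c : W) : D.P κ ⟶ D.P l := lift κ (D.el l c)

lemma rmul_el {κ l d : G} {c : W} (hc : D.pr d c = c) (h : κ = l + d) (w : W) :
    (D.rmul κ l c).hom (D.el κ w) = D.el l (w * c) := by
  rw [rmul, lift_el (at_el_of hc h), smul_el]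

/-- Every element of degree `μ` is a combination `y0 a + y1 b`. -/
def Onto2 (y : D.Pair) (μ : G) (U : D.M) : Prop :=
  ∀ u : U, At μ u → ∃ a b : U, u = y.y0 • a + y.y1 • b

/-- Every element of degree `μ` is a combination `y0 a + y1 b + h c`. -/
def Onto3 (y : D.Pair) (μ : G) (U : D.M) : Prop :=
  ∀ u : U, At μ u → ∃ a b c : U, u = y.y0 • a + y.y1 • b + D.h • c

lemma Onto2.onto3 {y : D.Pair} {μ : G} {U : D.M} (h : Onto2 y μ U) : Onto3 y μ U := by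
  intro u hu
  obtain ⟨a, b, hab⟩ := h u hu
  exact ⟨a, b, 0, by rw [smul_zero, add_zero, hab]⟩

lemma at_two {y : D.Pair} {μ ν : G} {U : D.M} {u a b : U} (hu : At μ u) (e : μ = ν + y.d)
    (h : u = y.y0 • a + y.y1 • b) :
    ∃ a b : U, At ν a ∧ At ν b ∧ u = y.y0 • a + y.y1 • b := by
  refine ⟨cp ν a, cp ν b, at_cp _ _, at_cp _ _, ?_⟩
  rw [← cp_act y.h0 e, ← cp_act y.h1 e, ← cp_add, ← h, hu]

lemma at_three {y : D.Pair} {μ ν κ : G} {U : D.M} {u a b c : U} (hu : At μ u) (e : μ = ν + y.d)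
    (e' : μ = κ + hd) (h : u = y.y0 • a + y.y1 • b + D.h • c) :
    ∃ a b c : U, At ν a ∧ At ν b ∧ At κ c ∧ u = y.y0 • a + y.y1 • b + D.h • c := by
  refine ⟨cp ν a, cp ν b, cp κ c, at_cp _ _, at_cp _ _, at_cp _ _, ?_⟩
  rw [← cp_act y.h0 e, ← cp_act y.h1 e, ← cp_act D.pr_h e', ← cp_add, ← cp_add, ← h, hu]

lemma at_one' {μ ν c : G} {w : W} (hw : D.pr c w = w) {U : D.M} {u a : U} (hu : At μ u)
    (e : μ = ν + c) (h : u = w • a) : ∃ a : U, At ν a ∧ u = w • a := by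
  refine ⟨cp ν a, at_cp _ _, ?_⟩
  rw [← cp_act hw e, ← h, hu]

lemma Onto2.at {y : D.Pair} {μ ν : G} {U : D.M} (h : Onto2 y μ U) (e : μ = ν + y.d) {u : U}
    (hu : At μ u) : ∃ a b : U, At ν a ∧ At ν b ∧ u = y.y0 • a + y.y1 • b := by
  obtain ⟨a, b, hab⟩ := h u hu
  exact at_two hu e hab

lemma Onto3.at {y : D.Pair} {μ ν κ : G} {U : D.M} (h : Onto3 y μ U) (e : μ = ν + y.d)
    (e' : μ = κ + hd) {u : U} (hu : At μ u) :
    ∃ a b c : U, At ν a ∧ At ν b ∧ At κ c ∧ u = y.y0 • a + y.y1 • b + D.h • c := by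
  obtain ⟨a, b, c, hab⟩ := h u hu
  exact at_three hu e e' hab

lemma Onto2.of_surj {y : D.Pair} {μ : G} {U V : D.M} (h : Onto2 y μ U) (f : U ⟶ V)
    (hf : ∀ v, ∃ u, f.hom u = v) : Onto2 y μ V := by
  intro v hv
  obtain ⟨u, hu, rfl⟩ := hv.lift (hf v)
  obtain ⟨a, b, rfl⟩ := h u hu
  exact ⟨f.hom a, f.hom b, by rw [map_add, map_act, map_act]⟩

lemma Onto3.of_surj {y : D.Pair} {μ : G} {U V : D.M} (h : Onto3 y μ U) (f : U ⟶ V)
    (hf : ∀ v, ∃ u, f.hom u = v) : Onto3 y μ V := by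
  intro v hv
  obtain ⟨u, hu, rfl⟩ := hv.lift (hf v)
  obtain ⟨a, b, c, rfl⟩ := h u hu
  exact ⟨f.hom a, f.hom b, f.hom c, by rw [map_add, map_add, map_act, map_act, map_act]⟩

lemma Onto3.pr2 {y : D.Pair} {μ : G} {U V : D.M} (h : Onto3 y μ U) (h' : Onto3 y μ V) :
    Onto3 y μ (pr2 U V) := by
  intro x hx
  obtain ⟨u, v, rfl⟩ := mk2_surj x
  obtain ⟨a, b, c, rfl⟩ := h u hx.fst
  obtain ⟨a', b', c', rfl⟩ := h' v hx.snd
  exact ⟨mk2 a a', mk2 b b', mk2 c c', by simp only [mk2_smul, mk2_add]⟩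

namespace Pair

variable (y : D.Pair)

/-- First Koszul differential. -/
noncomputable def k1 (ν : G) : pr2 (D.P (ν + y.d)) (D.P (ν + y.d)) ⟶ D.P ν :=
  lift2 _ _ (D.el ν y.y0) (D.el ν y.y1)

/-- Second Koszul differential. -/
noncomputable def k2 (μ : G) : D.P (μ + y.d) ⟶ pr2 (D.P μ) (D.P μ) :=
  lift _ (mk2 (D.el μ y.y1) (D.el μ (-y.y0)))

lemma k1_ap (ν : G) (a b : W) :
    (y.k1 ν).hom (mk2 (D.el _ a) (D.el _ b)) = D.el ν (a * y.y0 + b * y.y1) := by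
  rw [k1, lift2_ap (at_el_of y.h0 rfl) (at_el_of y.h1 rfl), smul_el, smul_el, map_add]

lemma k2_ap (μ : G) (w : W) :
    (y.k2 μ).hom (D.el _ w) = mk2 (D.el μ (w * y.y1)) (D.el μ (-(w * y.y0))) := by
  rw [k2, lift_el ((at_el_of y.h1 rfl).pair (at_el_of (by rw [map_neg, y.h0]) rfl)), mk2_smul,
    smul_el, smul_el, mul_neg]

/-- The Koszul module `P(ν)/(y0, y1)`. -/
noncomputable def N (ν : G) : D.M := cokernel (y.k1 ν)

/-- The Koszul resolution. -/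
noncomputable def res (ν : G) : Res2 (y.N ν) :=
  resOfComplex (y.k2 (ν + y.d)) (y.k1 ν)
    (fun a ha => by
      obtain ⟨w, rfl⟩ := el_surj a
      rw [k2_ap] at ha
      rw [y.k.L1 w (neg_eq_zero.1 (el_eq_zero (mk2_eq_zero ha).2))
        (el_eq_zero (mk2_eq_zero ha).1), map_zero])
    (fun a => by
      obtain ⟨w, rfl⟩ := el_surj a
      rw [k2_ap, k1_ap, neg_mul, mul_assoc, mul_assoc, y.k.comm, add_neg_cancel, map_zero])
    (fun x hx => by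
      obtain ⟨a, b, rfl⟩ := el2_surj x
      rw [k1_ap] at hx
      obtain ⟨w, rfl, rfl⟩ := y.k.L2 a b (el_eq_zero hx)
      exact ⟨D.el _ w, y.k2_ap _ w⟩)

/-- The projection to the Koszul module. -/
noncomputable def π (ν : G) : D.P ν ⟶ y.N ν := cokernel.π (y.k1 ν)

/-- The class of an element. -/
noncomputable def cl (ν : G) (w : W) : y.N ν := (y.π ν).hom (D.el ν w)

lemma π_surj (ν : G) (u : y.N ν) : ∃ v, (y.π ν).hom v = u := cok_surj _ u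

lemma cl_surj {ν : G} (u : y.N ν) : ∃ w, y.cl ν w = u := cok_surj _ u

lemma cl_surj_at {ν μ : G} {u : y.N ν} (hu : At μ u) :
    ∃ w, D.pr (μ - ν) w = w ∧ y.cl ν w = u := hu.lift (y.π_surj ν u)

lemma cl_eq_zero_iff {ν : G} {w : W} : y.cl ν w = 0 ↔ ∃ a b, w = a * y.y0 + b * y.y1 := by
  constructor
  · intro h
    obtain ⟨x, hx⟩ := cok_ex _ _ h
    obtain ⟨a, b, rfl⟩ := el2_surj x
    rw [k1_ap] at hx
    exact ⟨a, b, (el_inj hx).symm⟩
  · rintro ⟨a, b, rfl⟩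
    rw [cl, ← k1_ap]
    exact cok_ap _ _

lemma smul_cl (ν : G) (v w : W) : v • y.cl ν w = y.cl ν (v * w) := by
  rw [cl, cl, ← map_act, smul_el]

lemma cl_add (ν : G) (v w : W) : y.cl ν (v + w) = y.cl ν v + y.cl ν w := by
  rw [cl, cl, cl, map_add, map_add]

lemma cl_sub (ν : G) (v w : W) : y.cl ν (v - w) = y.cl ν v - y.cl ν w := by
  rw [cl, cl, cl, map_sub, map_sub]

lemma at_cl {ν μ c : G} {w : W} (hw : D.pr c w = w) (h : μ = ν + c) : At μ (y.cl ν w) :=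
  (at_el_of hw h).map _

lemma N_ext {ν : G} {U : D.M} {f g : y.N ν ⟶ U} (h : f.hom (y.cl ν 1) = g.hom (y.cl ν 1)) :
    f = g := by
  have : Epi (y.π ν) := (y.res ν).s0.epi
  rw [← cancel_epi (y.π ν)]
  exact P_ext h

lemma N_h_inj {ν : G} (u : y.N ν) (hu : D.h • u = 0) : u = 0 := by
  obtain ⟨w, rfl⟩ := y.cl_surj u
  rw [smul_cl, cl_eq_zero_iff] at hu
  obtain ⟨a, b, hab⟩ := hu
  rw [cl_eq_zero_iff]
  exact y.k.L3 w a b (by rw [← D.h_comm, hab])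

/-- The map of Koszul modules given by a central homogeneous element. -/
noncomputable def cN (κ ν : G) (c : W) (hc : ∀ w, c * w = w * c) (hκ : D.pr (κ - ν) c = c) :
    y.N κ ⟶ y.N ν :=
  cokernel.desc (y.k1 κ) (D.rmul κ ν c ≫ y.π ν) (by
    refine hom_ext_ap fun x => ?_
    obtain ⟨a, b, rfl⟩ := el2_surj x
    rw [comp_ap, comp_ap, k1_ap, rmul_el hκ (by abel)]
    refine y.cl_eq_zero_iff.2 ⟨a * c, b * c, ?_⟩
    rw [add_mul, mul_assoc, mul_assoc, mul_assoc, mul_assoc, hc, hc])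

lemma cN_cl {κ ν : G} {c : W} (hc : ∀ w, c * w = w * c) (hκ : D.pr (κ - ν) c = c) (w : W) :
    (y.cN κ ν c hc hκ).hom (y.cl κ w) = y.cl ν (w * c) := by
  refine (cok_desc_ap _ _ _ _).trans ?_
  rw [comp_ap, rmul_el hκ (by abel)]
  rfl

/-- The submodule generated by `y0, y1`. -/
noncomputable def I (ν : G) : D.M := (y.res ν).I

/-- The projection onto the submodule generated by `y0, y1`. -/
noncomputable def q (ν : G) : pr2 (D.P (ν + y.d)) (D.P (ν + y.d)) ⟶ y.I ν := (y.res ν).q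

/-- The inclusion of the submodule generated by `y0, y1`. -/
noncomputable def i (ν : G) : y.I ν ⟶ D.P ν := (y.res ν).i

lemma ses1 (ν : G) : SES (y.k2 (ν + y.d)) (y.q ν) := (y.res ν).s1

lemma ses0 (ν : G) : SES (y.i ν) (y.π ν) := (y.res ν).s0

lemma q_i (ν : G) : y.q ν ≫ y.i ν = y.k1 ν := kernel.lift_ι _ _ _

lemma van0 {ν : G} {U : D.M}
    (h : ∀ u : U, At ν u → y.y0 • u = 0 → y.y1 • u = 0 → u = 0) : Van (y.N ν) U 0 := by
  refine van_zero_iff.2 fun f => y.N_ext (h _ ((y.at_cl D.pr_one (add_zero ν).symm).map f) ?_ ?_)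
  · rw [← map_act, smul_cl, y.cl_eq_zero_iff.2 ⟨1, 0, by simp⟩, map_zero]
  · rw [← map_act, smul_cl, y.cl_eq_zero_iff.2 ⟨0, 1, by simp⟩, map_zero]

lemma van1 {ν : G} {U : D.M}
    (h : ∀ a b : U, At (ν + y.d) a → At (ν + y.d) b → y.y1 • a = y.y0 • b →
      ∃ u : U, a = y.y0 • u ∧ b = y.y1 • u) : Van (y.N ν) U 1 := by
  refine (y.res ν).van_one fun (ψ : y.I ν ⟶ U) => ?_
  let φ : pr2 (D.P (ν + y.d)) (D.P (ν + y.d)) ⟶ U := y.q ν ≫ ψ
  have h1 : φ.hom ((y.k2 (ν + y.d)).hom (D.el _ 1)) = 0 := by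
    have : y.k2 (ν + y.d) ≫ φ = 0 := by
      rw [reassoc_of% (y.ses1 ν).w, zero_comp]
    exact hom_ap this _
  rw [k2_ap, hom2_ap, one_mul, one_mul, neg_smul, add_neg_eq_zero] at h1
  obtain ⟨u, ha, hb⟩ := h _ _ (at_hom2_l φ) (at_hom2_r φ) h1
  have := (y.ses1 ν).epi
  refine ⟨lift ν u, (?_ : y.i ν ≫ lift ν u = ψ)⟩
  rw [← cancel_epi (y.q ν), ← Category.assoc, q_i]
  refine hom2_ext ?_ ?_
  · rw [comp_ap, ← map_zero (D.el (ν + y.d)), k1_ap, lift_el', map_zero, zero_mul, add_zero,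
      one_mul, ← cp_act y.h0 rfl, ← ha]
    exact at_hom2_l φ
  · rw [comp_ap, ← map_zero (D.el (ν + y.d)), k1_ap, lift_el', map_zero, zero_mul, zero_add,
      one_mul, ← cp_act y.h1 rfl, ← hb]
    exact at_hom2_r φ

lemma k2_lift2 {μ : G} {U : D.M} {a b : U} (ha : At μ a) (hb : At μ b) :
    (y.k2 μ ≫ lift2 μ μ b (-a)).hom (D.el _ 1) = y.y0 • a + y.y1 • b := by
  rw [comp_ap, k2_ap, lift2_ap hb ha.neg, one_mul, one_mul, neg_smul_neg, add_comm]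

lemma k2_comp {μ : G} {U : D.M} (χ : pr2 (D.P μ) (D.P μ) ⟶ U) :
    (y.k2 μ ≫ χ).hom (D.el _ 1) =
      y.y0 • (-χ.hom (mk2 0 (D.el μ 1))) + y.y1 • χ.hom (mk2 (D.el μ 1) 0) := by
  rw [comp_ap, k2_ap, hom2_ap, one_mul, one_mul, neg_smul, smul_neg, add_comm]

lemma van2 {ν : G} {U : D.M} (h : Onto2 y (ν + y.d + y.d) U) : Van (y.N ν) U 2 := by
  refine (y.res ν).van_two fun φ => ?_
  obtain ⟨a, b, ha, hb, hab⟩ := h.at rfl (at_hom φ)
  exact ⟨lift2 _ _ b (-a), P_ext ((y.k2_lift2 ha hb).trans hab.symm)⟩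

lemma onto2_of_van {ν μ : G} {U : D.M} (h : Van (y.N ν) U 2) (e : μ = ν + y.d + y.d) :
    Onto2 y μ U := by
  subst e
  intro u hu
  obtain ⟨χ, hχ⟩ := (y.res ν).onto_of_van_two h (lift _ u)
  exact ⟨_, _, (lift_one hu).symm.trans ((hom_ap hχ _).symm.trans (y.k2_comp χ))⟩

lemma tt_N {Q : D.M → Prop} (hQ : TT Q) {ν μ κ : G} (e1 : μ = ν + y.d) (e2 : κ = μ + y.d)
    (h2 : Q (D.P κ)) (h1 : Q (D.P μ)) (h0 : Q (D.P ν)) : Q (y.N ν) := by
  subst e1 e2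
  exact (y.res ν).tt_N hQ h2 (hQ.pr2 h1 h1) h0

lemma tt_P {Q : D.M → Prop} (hQ : TT Q) {ν μ κ : G} (e1 : μ = ν + y.d) (e2 : κ = μ + y.d)
    (h2 : Q (D.P κ)) (h1 : Q (D.P μ)) (h0 : Q (y.N ν)) : Q (D.P ν) := by
  subst e1 e2
  exact (y.res ν).tt_P0 hQ h2 (hQ.pr2 h1 h1) h0

/-- Multiplication by `h` between Koszul modules. -/
noncomputable def hN (ν : G) : y.N (ν + hd) ⟶ y.N ν :=
  y.cN (ν + hd) ν D.h D.h_comm (by rw [add_sub_cancel_left, D.pr_h])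

lemma hN_cl (ν : G) (w : W) : (y.hN ν).hom (y.cl _ w) = y.cl ν (w * D.h) := y.cN_cl _ _ w

instance (ν : G) : Mono (y.hN ν) := by
  refine (ModuleCat.mono_iff_injective _).2 ((injective_iff_map_eq_zero _).2 fun u hu => ?_)
  obtain ⟨w, rfl⟩ := y.cl_surj u
  have hu' : y.cl ν (w * D.h) = 0 := (y.hN_cl ν w).symm.trans hu
  obtain ⟨a, b, hab⟩ := y.cl_eq_zero_iff.1 hu'
  exact y.cl_eq_zero_iff.2 (y.k.L3 w a b hab)

/-- The Koszul module `P(ν)/(y0, y1, h)`. -/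
noncomputable def N3 (ν : G) : D.M := cokernel (y.hN ν)

lemma ses_N3 (ν : G) : SES (y.hN ν) (cokernel.π (y.hN ν) : y.N ν ⟶ y.N3 ν) := ses_cokernel _

/-- Multiplication by `h` on the submodules. -/
noncomputable def hI (ν : G) : y.I (ν + hd) ⟶ y.I ν :=
  kernel.lift (y.π ν) (y.i (ν + hd) ≫ D.rmul (ν + hd) ν D.h) (by
    have : D.rmul (ν + hd) ν D.h ≫ y.π ν = y.π _ ≫ y.hN ν := (cokernel.π_desc _ _ _).symm
    rw [Category.assoc, this, ← Category.assoc, (y.ses0 _).w, zero_comp])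

lemma hI_i (ν : G) : y.hI ν ≫ y.i ν = y.i (ν + hd) ≫ D.rmul (ν + hd) ν D.h :=
  kernel.lift_ι _ _ _

/-- The chain map given by `h`. -/
noncomputable def hMap (ν : G) : Res2Map (y.res (ν + hd)) (y.res ν) (y.hN ν) where
  f2 := D.rmul (ν + hd + y.d + y.d) (ν + y.d + y.d) D.h
  f1 := pmap (D.rmul (ν + hd + y.d) (ν + y.d) D.h) (D.rmul (ν + hd + y.d) (ν + y.d) D.h)
  fI := y.hI ν
  f0 := D.rmul (ν + hd) ν D.h
  c2 := by
    refine P_ext ?_
    change (y.k2 _).hom ((D.rmul _ _ _).hom _) = (pmap _ _).hom ((y.k2 _).hom _)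
    rw [rmul_el D.pr_h (by abel), k2_ap, k2_ap, pmap_ap, rmul_el D.pr_h (by abel),
      rmul_el D.pr_h (by abel)]
    simp only [one_mul, neg_mul, D.h_comm]
  c1 := by
    have := (y.ses0 ν).mono
    change pmap _ _ ≫ y.q ν = y.q (ν + hd) ≫ y.hI ν
    rw [← cancel_mono (y.i ν), Category.assoc, q_i, Category.assoc, hI_i, ← Category.assoc, q_i]
    refine hom_ext_ap fun x => ?_
    obtain ⟨a, b, rfl⟩ := el2_surj x
    rw [comp_ap, comp_ap, pmap_ap, rmul_el D.pr_h (by abel), rmul_el D.pr_h (by abel), k1_ap,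
      k1_ap, rmul_el D.pr_h rfl, add_mul]
    simp only [mul_assoc, D.h_comm]
  cI := y.hI_i ν
  c0 := (cokernel.π_desc _ _ _).symm

lemma hMap_f2 (ν : G) {U : D.M} (φ : D.P (ν + y.d + y.d) ⟶ U) :
    ((y.hMap ν).f2 ≫ φ).hom (D.el (ν + hd + y.d + y.d) 1) = D.h • φ.hom (D.el _ 1) := by
  change φ.hom ((D.rmul _ _ _).hom _) = _
  rw [rmul_el D.pr_h (by abel), one_mul, hom_el]

lemma null_N3 {ν : G} {U : D.M} (a0 : Van (y.N (ν + hd)) U 0) (a1 : Van (y.N (ν + hd)) U 1)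
    (b0 : Van (y.N ν) U 0) (b1 : Van (y.N ν) U 1)
    (hinj : ∀ u a b : U, D.h • u = y.y0 • a + y.y1 • b → ∃ a b : U, u = y.y0 • a + y.y1 • b)
    (hsurj : Onto3 y (ν + hd + y.d + y.d) U) : Null (y.N3 ν) U := by
  refine (y.hMap ν).null (y.ses_N3 ν) a0 a1 b0 b1 ?_ ?_
  · rintro φ ⟨χ, hχ⟩
    have h1 := (y.hMap_f2 ν φ).symm.trans ((hom_ap hχ _).symm.trans (y.k2_comp χ))
    obtain ⟨a, b, hab⟩ := hinj _ _ _ h1
    obtain ⟨a, b, ha, hb, hab⟩ := at_two (at_hom φ) rfl hab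
    exact ⟨lift2 _ _ b (-a), P_ext ((y.k2_lift2 ha hb).trans hab.symm)⟩
  · intro ψ
    obtain ⟨a, b, c, ha, hb, hc, h⟩ := hsurj.at (κ := ν + y.d + y.d) rfl (by abel) (at_hom ψ)
    refine ⟨lift _ c, lift2 _ _ b (-a), P_ext (h.trans ?_)⟩
    have h2 := y.hMap_f2 ν (lift _ c)
    rw [lift_one hc] at h2
    rw [← y.k2_lift2 ha hb, ← h2, add_comm]
    rfl

lemma onto3_of_van {ν μ : G} {U : D.M} (h : Van (y.N3 ν) U 3) (e : μ = ν + hd + y.d + y.d) :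
    Onto3 y μ U := by
  subst e
  intro u hu
  obtain ⟨φ, χ, h1⟩ := (y.hMap ν).onto_of_van (y.ses_N3 ν) h (lift _ u)
  exact ⟨_, _, _, (lift_one hu).symm.trans ((hom_ap h1 _).trans ((add_comm _ _).trans
    (congrArg₂ (· + ·) (y.k2_comp χ) (y.hMap_f2 ν φ))))⟩

lemma tt_N3 {Q : D.M → Prop} (hQ : TT Q) {ν μ : G} (e : μ = ν + hd) (h1 : Q (y.N μ))
    (h0 : Q (y.N ν)) : Q (y.N3 ν) := by
  subst e
  exact hQ.s3 (y.ses_N3 ν) h1 h0

lemma tt_N_of_N3 {Q : D.M → Prop} (hQ : TT Q) {ν μ : G} (e : μ = ν + hd) (h1 : Q (y.N μ))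
    (h0 : Q (y.N3 ν)) : Q (y.N ν) := by
  subst e
  exact hQ.s2 (y.ses_N3 ν) h1 h0

end Pair

end WData

end Vale.Agent.P195
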