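import Vale.Agent.P195.Spin

/-!
The generator `T l`, regular modules and their approximations.
-/

namespace Vale.Agent.P195

open CategoryTheory Limits Abelian Function

variable {W : Type} [Ring W] [Algebra ℚ W]

lemma ses_image {R : Type} [Ring R] {A B : ModuleCat.{0} R} (f : A ⟶ B) :
    SES (kernel.ι f) (kernel.lift (cokernel.π f) f (cokernel.condition f)) := by
  refine ses_of_fun (ker_inj f) (fun a => ker_inj _ _ ?_) (fun b hb => ker_ex f b ?_) fun c => ?_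
  · rw [ker_lift_ap, ker_ap]
  · rw [← ker_lift_ap (cokernel.π f) f (cokernel.condition f), hb, map_zero]
  · obtain ⟨b, hb⟩ := cok_ex f _ (ker_ap _ c)
    refine ⟨b, sub_eq_zero.1 (ker_inj _ _ ?_)⟩
    rw [map_sub, ker_lift_ap, hb, sub_self]

namespace WData

variable (D : WData W)

/-- The first rank two summand. -/
noncomputable def Sx (l : ℤ) : D.M := D.px.S (l, l + 2) (l + 2, l)

/-- The second rank two summand. -/
noncomputable def Sp (l : ℤ) : D.M := D.pp.S (l, l + 2) (l - 2, l + 2)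

/-- The list of summands. -/
noncomputable def TL (l : ℤ) : List D.M :=
  [D.P (l, l), D.P (l, l + 2), D.P (l, l + 4), D.Sx l, D.Sp l]

/-- The module `T l`. -/
noncomputable def T (l : ℤ) : D.M := sumL (D.TL l)

variable {D}

lemma ex (l : ℤ) : ((l + 2, l) : G) + hd = (l, l + 2) + D.px.d := by
  ext <;> simp

lemma ep (l : ℤ) : ((l - 2, l + 2) : G) + hd = (l, l + 2) + D.pp.d := by
  ext <;> simp
  all_goals omega

lemma bp_T {Q : D.M → Prop} (hQ : BP Q) {l : ℤ} (h0 : Q (D.P (l, l))) (h1 : Q (D.P (l, l + 2)))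
    (h2 : Q (D.P (l, l + 4))) (h3 : Q (D.Sx l)) (h4 : Q (D.Sp l)) : Q (D.T l) := by
  refine hQ.sumL _ fun A hA => ?_
  simp only [TL, List.mem_cons, List.not_mem_nil, or_false] at hA
  rcases hA with rfl | rfl | rfl | rfl | rfl <;> assumption

/-- Good degrees. -/
def Gd (l : ℤ) (μ : G) : Prop :=
  (μ.2 = l ∧ (μ.1 = l ∨ μ.1 = l + 2 ∨ μ.1 = l + 4)) ∨
  (μ.2 = l + 2 ∧ (μ.1 = l - 2 ∨ μ.1 = l ∨ μ.1 = l + 2 ∨ μ.1 = l + 4)) ∨
  (μ.2 = l + 4 ∧ (μ.1 = l - 2 ∨ μ.1 = l ∨ μ.1 = l + 2 ∨ μ.1 = l + 4)) ∨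
  (μ.2 = l + 6 ∧ (μ.1 = l - 2 ∨ μ.1 = l ∨ μ.1 = l + 2))

/-- Degrees of the Koszul modules for `x`. -/
def Kx (l : ℤ) (ν : G) : Prop :=
  (ν.1 = l - 2 ∧ (ν.2 = l + 2 ∨ ν.2 = l + 4 ∨ ν.2 = l + 6)) ∨
  (ν.1 = l ∧ (ν.2 = l ∨ ν.2 = l + 2 ∨ ν.2 = l + 4))

/-- Degrees of the Koszul modules for `p, h`. -/
def Kph (l : ℤ) (ν : G) : Prop := ν.2 = l ∧ (ν.1 = l + 2 ∨ ν.1 = l + 4)

/-- Koszul acyclicity, weak form. -/
def Nul0 (l : ℤ) (U : D.M) : Prop :=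
  (∀ ν, Kx l ν → Null (D.px.N ν) U) ∧ ∀ ν, Kph l ν → Null (D.pp.N3 ν) U

/-- Koszul acyclicity. -/
def Nul (l : ℤ) (U : D.M) : Prop := Nul0 l U ∧ Null (D.pp.N (l + 2, l)) U

/-- Bijectivity of `e` in the good degrees. -/
def EpsG (l : ℤ) (U : D.M) : Prop := ∀ μ, Gd l μ → Eps μ U

/-- Regular modules. -/
def Reg (l : ℤ) (U : D.M) : Prop := Nul l U ∧ EpsG l U ∧ LF U

lemma tt_nul0 (l : ℤ) : TT (fun U : D.M => Nul0 l U) :=
  (TT.forall fun _ => TT.forall fun _ => tt_null_right _).and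
    (TT.forall fun _ => TT.forall fun _ => tt_null_right _)

lemma tt_nul (l : ℤ) : TT (fun U : D.M => Nul l U) := (tt_nul0 l).and (tt_null_right _)

lemma tt_epsG (l : ℤ) : TT (fun U : D.M => EpsG l U) :=
  TT.forall fun μ => TT.forall fun _ => tt_eps μ

lemma bp_reg (l : ℤ) : BP (fun U : D.M => Reg l U) where
  zero Z hZ := ⟨(tt_nul l).zero Z hZ, (tt_epsG l).zero Z hZ, bp_lf.zero Z hZ⟩
  add A B hA hB := ⟨(tt_nul l).biprod hA.1 hB.1, (tt_epsG l).biprod hA.2.1 hB.2.1,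
    bp_lf.add A B hA.2.2 hB.2.2⟩

lemma nul_of_vanAt {l : ℤ} {U : D.M} (h : ∀ μ, Gd l μ → VanAt μ U) : Nul l U := by
  have hQ := tt_null_left U
  refine ⟨⟨fun ν hν => ?_, fun ν hν => ?_⟩, ?_⟩
  · refine D.px.tt_N hQ rfl rfl (h _ ?_).null (h _ ?_).null (h _ ?_).null <;>
      simp only [Gd, Kx, px_d, Prod.fst_add, Prod.snd_add] at hν ⊢ <;> omega
  · refine D.pp.tt_N3 hQ rfl (D.pp.tt_N hQ rfl rfl (h _ ?_).null (h _ ?_).null (h _ ?_).null)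
      (D.pp.tt_N hQ rfl rfl (h _ ?_).null (h _ ?_).null (h _ ?_).null) <;>
      simp only [Gd, Kph, pp_d, Prod.fst_add, Prod.snd_add] at hν ⊢ <;> omega
  · refine D.pp.tt_N hQ rfl rfl (h _ ?_).null (h _ ?_).null (h _ ?_).null <;>
      simp only [Gd, pp_d, Prod.fst_add, Prod.snd_add, true_and, true_or, or_true] <;> omega

lemma Nul0.onto_x {l : ℤ} {U : D.M} (h : Nul0 l U) {μ : G} (hμ : Kx l (μ.1 - 4, μ.2)) :
    Onto2 D.px μ U :=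
  D.px.onto2_of_van (h.1 _ hμ 2) (by ext <;> simp; omega)

lemma Nul0.onto_ph {l : ℤ} {U : D.M} (h : Nul0 l U) {μ : G} (hμ : Kph l (μ.1 + 4, μ.2 - 6)) :
    Onto3 D.pp μ U :=
  D.pp.onto3_of_van (h.2 _ hμ 3) (by ext <;> simp <;> omega)

lemma Nul.onto_p {l : ℤ} {U : D.M} (h : Nul l U) : Onto2 D.pp (l - 2, l + 4) U :=
  D.pp.onto2_of_van (h.2 2) (by ext <;> simp <;> omega)

lemma null_ph_P {l : ℤ} {κ ν : G} (hν : Kph l ν) (h2 : κ.2 ≤ l + 4) :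
    Null (D.pp.N3 ν) (D.P κ) := by
  refine D.pp.null_N3_P rfl (onto3_p_P (Or.inr ?_))
  simp only [Kph, pp_d, Prod.snd_add] at hν ⊢
  omega

lemma nul0_P {l : ℤ} {κ : G} (h1 : κ.1 ≤ l) (h2 : κ.2 ≤ l + 4) : Nul0 l (D.P κ) := by
  refine ⟨fun ν hν => D.px.null_P rfl (onto2_x_P ?_), fun ν hν => null_ph_P hν h2⟩
  simp only [Kx, px_d, Prod.fst_add] at hν ⊢
  omega

lemma null_p_P {l : ℤ} {κ : G} (h : l ≤ κ.1) : Null (D.pp.N (l + 2, l)) (D.P κ) := by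
  refine D.pp.null_P rfl (onto2_p_P ?_)
  simp only [pp_d, Prod.fst_add]
  omega

lemma epsG_P {l : ℤ} {κ : G} (h : (κ.1 - l) % 2 = 0) : EpsG l (D.P κ) := by
  refine fun μ hμ => eps_P ?_
  simp only [Gd] at hμ
  omega

lemma reg_P {l : ℤ} {b : ℤ} (h : b ≤ l + 4) : Reg l (D.P (l, b)) :=
  ⟨⟨nul0_P le_rfl h, null_p_P le_rfl⟩, epsG_P (by simp), lf_P _⟩

lemma reg_Sx (l : ℤ) : Reg l (D.Sx l) := by
  refine ⟨⟨D.px.tt_S_H (tt_nul0 l) (ex l) (nul0_P le_rfl (by simp)) ⟨fun ν hν => ?_, fun ν hν => ?_⟩,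
    D.px.tt_S (tt_null_right _) (ex l) rfl (null_p_P (by simp)) (null_p_P (by simp))
      (null_p_P (by simp))⟩,
    D.px.tt_S (tt_epsG l) (ex l) rfl (epsG_P (by simp)) (epsG_P (by simp)) (epsG_P (by simp)),
    D.px.lf_S⟩
  · refine D.px.null_H rfl (onto3_x_P ?_)
    simp only [Kx, px_d, Prod.fst_add, Prod.snd_add] at hν ⊢
    omega
  · exact tt_H (tt_null_right _) rfl (null_ph_P hν (by simp)) (null_ph_P hν (by simp))

lemma reg_Sp (l : ℤ) : Reg l (D.Sp l) := by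
  refine ⟨⟨D.pp.tt_S (tt_nul0 l) (ep l) rfl (nul0_P (by simp) (by simp; omega))
      (nul0_P (by simp) (by simp)) (nul0_P (by simp) (by simp)),
    D.pp.tt_S_H (tt_null_right _) (ep l) (null_p_P (by simp))
      (D.pp.null_H rfl (onto3_p_P (Or.inr (by simp))))⟩,
    D.pp.tt_S (tt_epsG l) (ep l) rfl (epsG_P (by simp)) (epsG_P (by simp)) (epsG_P (by simp)),
    D.pp.lf_S⟩

lemma reg_T (l : ℤ) : Reg l (D.T l) :=
  bp_T (bp_reg l) (reg_P (by omega)) (reg_P (by omega)) (reg_P (by omega)) (reg_Sx l) (reg_Sp l)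

lemma reg_C {l m : ℤ} (hm : 0 < m) {ν : G} (h1 : ν.1 = l + 2 - 2 * m) (h2 : ν.2 = l - 2 * m) :
    Reg l (D.pp.N ν) := by
  refine ⟨⟨D.pp.tt_N (tt_nul0 l) rfl rfl (nul0_P ?_ ?_) (nul0_P ?_ ?_) (nul0_P ?_ ?_),
    null_C hm (by ext <;> simp <;> omega)⟩,
    D.pp.tt_N (tt_epsG l) rfl rfl (epsG_P ?_) (epsG_P ?_) (epsG_P ?_), D.pp.lf_N ν⟩ <;>
    (try simp only [pp_d, Prod.fst_add, Prod.snd_add]) <;> omega

lemma finite_T (l : ℤ) {U : D.M} (h : LF U) : Module.Finite ℚ (D.T l ⟶ U) :=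
  bp_T (bp_finite_left U) (h _) (h _) (h _) (D.px.finite_S h) (D.pp.finite_S h)

lemma retract_T {l : ℤ} {A : D.M} (h : A ∈ D.TL l) : Nonempty (Retract A (D.T l)) :=
  retract_sumL _ h

lemma Reg.surjAt {l : ℤ} {A U : D.M} (hU : Reg l U) {φ : A ⟶ U}
    (h : ∀ ψ : D.T l ⟶ U, ∃ χ : D.T l ⟶ A, χ ≫ φ = ψ) (μ : G) (hμ : Gd l μ) : SurjAt μ φ := by
  have hn := hU.1.1
  have r : ∀ B ∈ D.TL l, ∀ ψ : B ⟶ U, ∃ χ : B ⟶ A, χ ≫ φ = ψ := fun B hB => by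
    obtain ⟨r⟩ := retract_T hB
    exact homSurj_retract r h
  have s00 : SurjAt (l, l) φ := surjAt_of_homSurj (r _ (by simp [TL]))
  have s02 : SurjAt (l, l + 2) φ := surjAt_of_homSurj (r _ (by simp [TL]))
  have s04 : SurjAt (l, l + 4) φ := surjAt_of_homSurj (r _ (by simp [TL]))
  have s20 : SurjAt (l + 2, l) φ :=
    D.px.surjAt_of_S (ex l) rfl (hn.onto_x (by simp [Kx]; omega)) (r (D.Sx l) (by simp [TL]))
  have sm2 : SurjAt (l - 2, l + 2) φ :=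
    D.pp.surjAt_of_S (ep l) (by ext <;> simp; omega) hU.1.onto_p (r (D.Sp l) (by simp [TL]))
  have s22 : SurjAt (l + 2, l + 2) φ :=
    s02.of_onto2 (hn.onto_x (by simp [Kx]; omega)) (by ext <;> simp)
  have sm4 : SurjAt (l - 2, l + 4) φ :=
    s02.of_onto2 hU.1.onto_p (by ext <;> simp <;> omega)
  have s40 : SurjAt (l + 4, l) φ :=
    s20.of_onto2 (hn.onto_x (by simp [Kx])) (by ext <;> simp; omega)
  have s42 : SurjAt (l + 4, l + 2) φ :=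
    s22.of_onto2 (hn.onto_x (by simp [Kx])) (by ext <;> simp; omega)
  have s24 : SurjAt (l + 2, l + 4) φ :=
    s04.of_onto2 (hn.onto_x (by simp [Kx]; omega)) (by ext <;> simp)
  have s44 : SurjAt (l + 4, l + 4) φ :=
    s24.of_onto2 (hn.onto_x (by simp [Kx])) (by ext <;> simp; omega)
  have sm6 : SurjAt (l - 2, l + 6) φ :=
    s04.of_onto3 sm4 (hn.onto_ph (by simp [Kph]; omega)) (by ext <;> simp <;> omega)
      (by ext <;> simp; omega)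
  have s06 : SurjAt (l, l + 6) φ :=
    s24.of_onto3 s04 (hn.onto_ph (by simp [Kph])) (by ext <;> simp; omega)
      (by ext <;> simp; omega)
  have s26 : SurjAt (l + 2, l + 6) φ :=
    s06.of_onto2 (hn.onto_x (by simp [Kx]; omega)) (by ext <;> simp)
  obtain ⟨a, b⟩ := μ
  simp only [Gd] at hμ
  rcases hμ with ⟨rfl, rfl | rfl | rfl⟩ | ⟨rfl, rfl | rfl | rfl | rfl⟩ |
    ⟨rfl, rfl | rfl | rfl | rfl⟩ | ⟨rfl, rfl | rfl | rfl⟩ <;> assumption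

lemma Reg.kernel {l : ℤ} {A U : D.M} (hU : Reg l U) (hA : Reg l A) {φ : A ⟶ U}
    (h : ∀ μ, Gd l μ → SurjAt μ φ) : Reg l (kernel φ) := by
  refine ⟨?_, fun μ hμ => Eps.ker (ker_inj φ) (ker_ap φ) (ker_ex φ) (hA.2.1 μ hμ) (hU.2.1 μ hμ).1,
    hA.2.2.of_mono (kernel.ι φ)⟩
  have hQ : Nul l (cokernel φ) := by
    refine nul_of_vanAt fun μ hμ u hu => ?_
    obtain ⟨v, hv, rfl⟩ := hu.lift (cok_surj φ u)
    obtain ⟨a, rfl⟩ := h μ hμ v hv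
    exact cok_ap φ a
  exact (tt_nul l).s1 (ses_image φ) hA.1 ((tt_nul l).s1 (ses_kernel (cokernel.π φ)) hU.1 hQ)

lemma homSurj_T (l : ℤ) {K A B : D.M} {k : K ⟶ A} {f : A ⟶ B} (hw : ∀ x, f.hom (k.hom x) = 0)
    (hex : ∀ a, f.hom a = 0 → ∃ x, k.hom x = a) (s0 : SurjAt (l, l) f) (s1 : SurjAt (l, l + 2) f)
    (s2 : SurjAt (l, l + 4) f) (s3 : SurjAt (l + 2, l) f) (s4 : SurjAt (l - 2, l + 2) f)
    (o1 : Onto3 D.px (l + 2, l + 2) K) (o2 : Onto3 D.pp (l - 2, l + 4) K) :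
    ∀ ψ : D.T l ⟶ B, ∃ χ : D.T l ⟶ A, χ ≫ f = ψ :=
  bp_T (bp_homSurj f) s0.homSurj s1.homSurj s2.homSurj
    (D.px.S_homSurj (ex l) (by ext <;> simp) hw hex o1 s1 s3)
    (D.pp.S_homSurj (ep l) (by ext <;> simp; omega) hw hex o2 s1 s4)

lemma homBij_T (l : ℤ) {A B : D.M} {f : A ⟶ B}
    (h : ∀ ν : G, (ν.1 - l) % 2 = 0 → InjAt ν f ∧ SurjAt ν f) :
    (∀ φ : D.T l ⟶ A, φ ≫ f = 0 → φ = 0) ∧ ∀ ψ : D.T l ⟶ B, ∃ χ : D.T l ⟶ A, χ ≫ f = ψ :=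
  ⟨bp_T (bp_homInj f) (h _ (by simp)).1.homInj (h _ (by simp)).1.homInj (h _ (by simp)).1.homInj
    (D.px.S_homInj (h _ (by simp)).1 (h _ (by simp)).1)
    (D.pp.S_homInj (h _ (by simp)).1 (h _ (by simp)).1),
  bp_T (bp_homSurj f) (h _ (by simp)).2.homSurj (h _ (by simp)).2.homSurj
    (h _ (by simp)).2.homSurj
    (D.px.S_homSurj_of_inj (ex l) rfl (h _ (by simp)).1 (h _ (by simp)).2 (h _ (by simp)).2)
    (D.pp.S_homSurj_of_inj (ep l) rfl (h _ (by simp)).1 (h _ (by simp)).2 (h _ (by simp)).2)⟩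

lemma nullPos_T (l : ℤ) {U : D.M} (o1 : Onto3 D.px (l + 2, l + 2) U)
    (o2 : Onto3 D.pp (l - 2, l + 4) U) : NullPos (D.T l) U :=
  bp_T (bp_nullPos_left U) (nullPos_projective _ _) (nullPos_projective _ _)
    (nullPos_projective _ _) (D.px.nullPos_S (ex l) (by ext <;> simp) o1)
    (D.pp.nullPos_S (ep l) (by ext <;> simp; omega) o2)

end WData

end Vale.Agent.P195
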