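import Mathlib

/-!
Interface for the graded ring used in the counterexample: the homogenised second Weyl algebra
with a central square-zero element adjoined.
-/

namespace Vale.Agent.P195

/-- The grading group. -/
abbrev G := ℤ × ℤ

/-- Left and right Koszul regularity of the pair `y0, y1` and of the triple `y0, y1, h`. -/
structure KPair {W : Type} [Ring W] (h y0 y1 : W) : Prop where
  comm : y0 * y1 = y1 * y0
  L1 : ∀ w, w * y0 = 0 → w * y1 = 0 → w = 0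
  L2 : ∀ a b, a * y0 + b * y1 = 0 → ∃ w, a = w * y1 ∧ b = -(w * y0)
  L3 : ∀ w a b, w * h = a * y0 + b * y1 → ∃ a' b', w = a' * y0 + b' * y1
  R1 : ∀ w, y0 * w = 0 → y1 * w = 0 → w = 0
  R2 : ∀ a b, y0 * a + y1 * b = 0 → ∃ w, a = y1 * w ∧ b = -(y0 * w)
  R3 : ∀ w a b, h * w = y0 * a + y1 * b → ∃ a' b', w = y0 * a' + y1 * b'

/-- All that is used about the ring `W = A₂^h[e]/(e²)`; `pr d` is the projection onto the
homogeneous component of degree `d`. Degrees: `x ↦ (2,0)`, `p ↦ (-2,2)`, `h ↦ (0,2)`,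
`e ↦ (-1,-1)`. -/
structure WData (W : Type) [Ring W] [Algebra ℚ W] where
  pr : G → W →ₗ[ℚ] W
  x0 : W
  x1 : W
  p0 : W
  p1 : W
  h : W
  e : W
  pr_pr : ∀ d w, pr d (pr d w) = pr d w
  pr_mul_right : ∀ c d a w, pr c w = w → pr (d + c) (a * w) = pr d a * w
  pr_mul_left : ∀ c d a w, pr c w = w → pr (c + d) (w * a) = w * pr d a
  pr_one : pr 0 1 = 1
  pr_x0 : pr (2, 0) x0 = x0
  pr_x1 : pr (2, 0) x1 = x1
  pr_p0 : pr (-2, 2) p0 = p0
  pr_p1 : pr (-2, 2) p1 = p1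
  pr_h : pr (0, 2) h = h
  pr_e : pr (-1, -1) e = e
  fin : ∀ d, Module.Finite ℚ (LinearMap.range (pr d))
  h_comm : ∀ w, h * w = w * h
  e_comm : ∀ w, e * w = w * e
  e_sq : e * e = 0
  h_reg : ∀ w, h * w = 0 → w = 0
  kx : KPair h x0 x1
  kp : KPair h p0 p1
  p0x0 : p0 * x0 = x0 * p0 + h
  p1x1 : p1 * x1 = x1 * p1 + h
  p0x1 : p0 * x1 = x1 * p0
  p1x0 : p1 * x0 = x0 * p1
  suppx : ∀ (d : G) w, 0 < d.1 → pr d w = w →
    (∃ a b, w = a * x0 + b * x1) ∧ (∃ a b, w = x0 * a + x1 * b)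
  suppp : ∀ (d : G) w, d.1 < -1 → pr d w = w →
    (∃ a b, w = a * p0 + b * p1) ∧ (∃ a b, w = p0 * a + p1 * b)
  suppxh : ∀ (d : G) w, (0 < d.1 + d.2 ∨ (d.1 + d.2 = 0 ∧ d.1 % 2 = 1)) → pr d w = w →
    (∃ a b c, w = a * x0 + b * x1 + c * h) ∧ (∃ a b c, w = x0 * a + x1 * b + h * c)
  suppph : ∀ (d : G) w, 0 < d.2 → pr d w = w →
    (∃ a b c, w = a * p0 + b * p1 + c * h) ∧ (∃ a b c, w = p0 * a + p1 * b + h * c)
  eps_inj : ∀ (d : G) w, d.1 % 2 = 0 → pr d w = w → e * w = 0 → w = 0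
  eps_surj : ∀ (d : G) w, d.1 % 2 = 1 → pr d w = w → ∃ v, w = e * v
  euler : ∀ (a b : ℤ) w, pr (2 * a, 2 * b) w = w →
    (x0 * p0 + x1 * p1) * w - w * (x0 * p0 + x1 * p1) = (a : ℚ) • (h * w)
  one_notMem : ∀ a b, a * x0 + b * x1 ≠ 1
  e_notMem : ∀ a b, a * p0 + b * p1 ≠ e

end Vale.Agent.P195
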