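import Vale.Agent.P195.Hom3
import Vale.Agent.P195.WData

/-!
The ring whose modules are the graded modules, free graded modules, products and cokernels.
-/

namespace Vale.Agent.P195

open CategoryTheory Limits Abelian Function

section Mod

variable {R : Type} [Ring R]

lemma ses_of_fun {A B E : ModuleCat.{0} R} {f : A ⟶ B} {g : B ⟶ E}
    (h1 : ∀ a, f.hom a = 0 → a = 0) (h2 : ∀ a, g.hom (f.hom a) = 0)
    (h3 : ∀ b, g.hom b = 0 → ∃ a, f.hom a = b) (h4 : ∀ c, ∃ b, g.hom b = c) : SES f g := by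
  have w : f ≫ g = 0 := ModuleCat.hom_ext (LinearMap.ext h2)
  refine ⟨w, ?_⟩
  exact { exact := (ShortComplex.moduleCat_exact_iff _).2 h3
          mono_f := (ModuleCat.mono_iff_injective _).2 ((injective_iff_map_eq_zero f.hom).2 h1)
          epi_g := (ModuleCat.epi_iff_surjective _).2 h4 }

lemma comp_ap {A B E : ModuleCat.{0} R} (f : A ⟶ B) (g : B ⟶ E) (a : A) :
    (f ≫ g).hom a = g.hom (f.hom a) := rfl

lemma hom_ap {A B : ModuleCat.{0} R} {f g : A ⟶ B} (h : f = g) (a : A) : f.hom a = g.hom a := by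
  rw [h]

lemma hom_ext_ap {A B : ModuleCat.{0} R} {f g : A ⟶ B} (h : ∀ a, f.hom a = g.hom a) : f = g :=
  ModuleCat.hom_ext (LinearMap.ext h)

lemma SES.inj {A B E : ModuleCat.{0} R} {f : A ⟶ B} {g : B ⟶ E} (h : SES f g) (a : A)
    (ha : f.hom a = 0) : a = 0 :=
  (injective_iff_map_eq_zero f.hom).1 ((ModuleCat.mono_iff_injective _).1 h.mono) a ha

lemma SES.ap {A B E : ModuleCat.{0} R} {f : A ⟶ B} {g : B ⟶ E} (h : SES f g) (a : A) :
    g.hom (f.hom a) = 0 := hom_ap h.w a

lemma SES.ex {A B E : ModuleCat.{0} R} {f : A ⟶ B} {g : B ⟶ E} (h : SES f g) (b : B)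
    (hb : g.hom b = 0) : ∃ a, f.hom a = b :=
  (ShortComplex.moduleCat_exact_iff _).1 h.2.exact b hb

lemma SES.surj {A B E : ModuleCat.{0} R} {f : A ⟶ B} {g : B ⟶ E} (h : SES f g) (c : E) :
    ∃ b, g.hom b = c :=
  (ModuleCat.epi_iff_surjective _).1 h.epi c

lemma cok_surj {A B : ModuleCat.{0} R} (f : A ⟶ B) (c : (cokernel f : ModuleCat.{0} R)) :
    ∃ b, (cokernel.π f).hom b = c :=
  (ModuleCat.epi_iff_surjective _).1 inferInstance c

lemma cok_ap {A B : ModuleCat.{0} R} (f : A ⟶ B) (a : A) : (cokernel.π f).hom (f.hom a) = 0 :=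
  hom_ap (cokernel.condition f) a

lemma cok_ex {A B : ModuleCat.{0} R} (f : A ⟶ B) (b : B) (hb : (cokernel.π f).hom b = 0) :
    ∃ a, f.hom a = b :=
  (ShortComplex.moduleCat_exact_iff _).1 (ShortComplex.exact_cokernel f) b hb

lemma cok_desc_ap {A B E : ModuleCat.{0} R} (f : A ⟶ B) (g : B ⟶ E) (h : f ≫ g = 0) (b : B) :
    (cokernel.desc f g h).hom ((cokernel.π f).hom b) = g.hom b :=
  hom_ap (cokernel.π_desc f g h) b

lemma ker_inj {A B : ModuleCat.{0} R} (f : A ⟶ B) (a : (kernel f : ModuleCat.{0} R))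
    (ha : (kernel.ι f).hom a = 0) : a = 0 :=
  (injective_iff_map_eq_zero (kernel.ι f).hom).1
    ((ModuleCat.mono_iff_injective _).1 inferInstance) a ha

lemma ker_ap {A B : ModuleCat.{0} R} (f : A ⟶ B) (a : (kernel f : ModuleCat.{0} R)) :
    f.hom ((kernel.ι f).hom a) = 0 :=
  hom_ap (kernel.condition f) a

lemma ker_ex {A B : ModuleCat.{0} R} (f : A ⟶ B) (a : A) (ha : f.hom a = 0) :
    ∃ x, (kernel.ι f).hom x = a :=
  (ShortComplex.moduleCat_exact_iff _).1 (ShortComplex.exact_kernel f) a ha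

lemma ker_lift_ap {A B E : ModuleCat.{0} R} (f : A ⟶ B) (g : E ⟶ A) (h : g ≫ f = 0) (x : E) :
    (kernel.ι f).hom ((kernel.lift f g h).hom x) = g.hom x :=
  hom_ap (kernel.lift_ι f g h) x

/-- Product of two modules. -/
def pr2 (A B : ModuleCat.{0} R) : ModuleCat.{0} R := ModuleCat.of R (A × B)

/-- An element of the product. -/
def mk2 {A B : ModuleCat.{0} R} (a : A) (b : B) : pr2 A B := (a, b)

lemma mk2_surj {A B : ModuleCat.{0} R} (x : pr2 A B) : ∃ a b, mk2 a b = x := ⟨x.1, x.2, rfl⟩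

lemma mk2_inj {A B : ModuleCat.{0} R} {a a' : A} {b b' : B} (h : mk2 a b = mk2 a' b') :
    a = a' ∧ b = b' := ⟨congrArg Prod.fst h, congrArg Prod.snd h⟩

lemma mk2_eq_zero {A B : ModuleCat.{0} R} {a : A} {b : B} (h : mk2 a b = 0) :
    a = 0 ∧ b = 0 := ⟨congrArg Prod.fst h, congrArg Prod.snd h⟩

lemma mk2_zero {A B : ModuleCat.{0} R} : mk2 (0 : A) (0 : B) = 0 := rfl

lemma mk2_add {A B : ModuleCat.{0} R} (a a' : A) (b b' : B) :
    mk2 a b + mk2 a' b' = mk2 (a + a') (b + b') := rfl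

lemma mk2_sub {A B : ModuleCat.{0} R} (a a' : A) (b b' : B) :
    mk2 a b - mk2 a' b' = mk2 (a - a') (b - b') := rfl

lemma mk2_neg {A B : ModuleCat.{0} R} (a : A) (b : B) : -mk2 a b = mk2 (-a) (-b) := rfl

/-- Map out of a product. -/
def pdesc {A B E : ModuleCat.{0} R} (f : A ⟶ E) (g : B ⟶ E) : pr2 A B ⟶ E :=
  ModuleCat.ofHom (X := A × B) (f.hom.coprod g.hom)

/-- Map between products. -/
def pmap {A B A' B' : ModuleCat.{0} R} (f : A ⟶ A') (g : B ⟶ B') : pr2 A B ⟶ pr2 A' B' :=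
  ModuleCat.ofHom (X := A × B) (Y := A' × B') (f.hom.prodMap g.hom)

/-- First inclusion. -/
def pinl (A B : ModuleCat.{0} R) : A ⟶ pr2 A B :=
  ModuleCat.ofHom (Y := A × B) (LinearMap.inl R A B)

/-- Second inclusion. -/
def pinr (A B : ModuleCat.{0} R) : B ⟶ pr2 A B :=
  ModuleCat.ofHom (Y := A × B) (LinearMap.inr R A B)

/-- Second projection. -/
def psnd (A B : ModuleCat.{0} R) : pr2 A B ⟶ B :=
  ModuleCat.ofHom (X := A × B) (LinearMap.snd R A B)

lemma pdesc_ap {A B E : ModuleCat.{0} R} (f : A ⟶ E) (g : B ⟶ E) (a : A) (b : B) :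
    (pdesc f g).hom (mk2 a b) = f.hom a + g.hom b := rfl

lemma pmap_ap {A B A' B' : ModuleCat.{0} R} (f : A ⟶ A') (g : B ⟶ B') (a : A) (b : B) :
    (pmap f g).hom (mk2 a b) = mk2 (f.hom a) (g.hom b) := rfl

lemma pinl_ap (A B : ModuleCat.{0} R) (a : A) : (pinl A B).hom a = mk2 a 0 := rfl

lemma pinr_ap (A B : ModuleCat.{0} R) (b : B) : (pinr A B).hom b = mk2 0 b := rfl

lemma psnd_ap (A B : ModuleCat.{0} R) (a : A) (b : B) : (psnd A B).hom (mk2 a b) = b := rfl

lemma pr2_hom_ext {A B E : ModuleCat.{0} R} {f g : pr2 A B ⟶ E}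
    (h1 : pinl A B ≫ f = pinl A B ≫ g) (h2 : pinr A B ≫ f = pinr A B ≫ g) : f = g := by
  refine hom_ext_ap fun x => ?_
  obtain ⟨a, b, rfl⟩ := mk2_surj x
  have e : mk2 a b = (pinl A B).hom a + (pinr A B).hom b := by
    rw [pinl_ap, pinr_ap, mk2_add, add_zero, zero_add]
  rw [e, map_add, map_add]
  exact congrArg₂ (· + ·) (hom_ap h1 a) (hom_ap h2 b)

lemma ses_pr2 (A B : ModuleCat.{0} R) : SES (pinl A B) (psnd A B) :=
  ses_of_fun (fun _ h => congrArg Prod.fst h) (fun _ => rfl)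
    (fun ⟨a, _⟩ h => ⟨a, Prod.ext rfl h.symm⟩) (fun c => ⟨(0, c), rfl⟩)

lemma TT.pr2 {Q : ModuleCat.{0} R → Prop} (hQ : TT Q) {A B : ModuleCat.{0} R} (hA : Q A)
    (hB : Q B) : Q (pr2 A B) := hQ.s2 (ses_pr2 A B) hA hB

instance (A B : ModuleCat.{0} R) [Projective A] [Projective B] : Projective (pr2 A B) :=
  Projective.of_iso (ModuleCat.biprodIsoProd A B) (inferInstance : Projective (A ⊞ B))

/-- The resolution of a cokernel by a complex of length two. -/
noncomputable def resOfComplex {P2 P1 P0 : ModuleCat.{0} R} [Projective P2] [Projective P1]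
    [Projective P0] (d2 : P2 ⟶ P1) (d1 : P1 ⟶ P0) (h1 : ∀ a, d2.hom a = 0 → a = 0)
    (h2 : ∀ a, d1.hom (d2.hom a) = 0) (h3 : ∀ b, d1.hom b = 0 → ∃ a, d2.hom a = b) :
    Res2 (cokernel d1) where
  P2 := P2
  P1 := P1
  P0 := P0
  I := kernel (cokernel.π d1)
  d := d2
  q := kernel.lift _ d1 (cokernel.condition d1)
  i := kernel.ι _
  π := cokernel.π d1
  s1 := by
    refine ses_of_fun h1 (fun a => ker_inj _ _ ?_) (fun b hb => h3 b ?_) fun c => ?_
    · rw [ker_lift_ap, h2]
    · rw [← ker_lift_ap (cokernel.π d1) d1 (cokernel.condition d1), hb, map_zero]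
    · obtain ⟨b, hb⟩ := cok_ex d1 _ (ker_ap _ c)
      refine ⟨b, sub_eq_zero.1 (ker_inj _ _ ?_)⟩
      rw [map_sub, ker_lift_ap, hb, sub_self]
  s0 := ses_kernel _
  p1 := inferInstance
  p0 := inferInstance
  p2 := inferInstance

end Mod

variable {W : Type} [Ring W] [Algebra ℚ W]

namespace WData

variable (D : WData W)

/-- Families of operators commuting with homogeneous right multiplications. -/
def Alg : Subalgebra ℚ (G → Module.End ℚ W) where
  carrier := {t | ∀ κ l a w, D.pr (l - κ) w = w → t κ (a * w) = t l a * w}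
  mul_mem' := by
    intro s t hs ht κ l a w hw
    simp only [Pi.mul_apply, Module.End.mul_apply]
    rw [ht κ l a w hw, hs κ l _ w hw]
  add_mem' := by
    intro s t hs ht κ l a w hw
    simp only [Pi.add_apply, LinearMap.add_apply]
    rw [ht κ l a w hw, hs κ l _ w hw, add_mul]
  algebraMap_mem' := by
    intro q κ l a w _
    simp [Algebra.algebraMap_eq_smul_one]

/-- The ring whose modules are the graded modules. -/
def A : Type := D.Alg

noncomputable instance : Ring D.A := inferInstanceAs (Ring D.Alg)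

noncomputable instance : Algebra ℚ D.A := inferInstanceAs (Algebra ℚ D.Alg)

/-- The operator family underlying an element. -/
def A.val {D : WData W} (t : D.A) : G → Module.End ℚ W := Subtype.val t

lemma A.ext {D : WData W} {s t : D.A} (h : ∀ l a, s.val l a = t.val l a) : s = t :=
  Subtype.ext (funext fun l => LinearMap.ext (h l))

lemma A.mul_val {D : WData W} (s t : D.A) (l : G) (a : W) :
    (s * t).val l a = s.val l (t.val l a) := rfl

lemma A.prop {D : WData W} (t : D.A) (κ l : G) (a w : W) (h : D.pr (l - κ) w = w) :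
    t.val κ (a * w) = t.val l a * w := Subtype.property t κ l a w h

/-- Left multiplications. -/
noncomputable def ι : W →+* D.A where
  toFun w := ⟨fun _ => LinearMap.mulLeft ℚ w, fun _ _ a v _ => (mul_assoc w a v).symm⟩
  map_one' := A.ext fun _ a => one_mul a
  map_mul' v w := A.ext fun _ a => mul_assoc v w a
  map_zero' := A.ext fun _ a => zero_mul a
  map_add' v w := A.ext fun _ a => add_mul v w a

lemma ι_val (w : W) (l : G) (a : W) : (D.ι w).val l a = w * a := rfl

/-- The idempotent of the degree `μ`. -/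
def id (μ : G) : D.A :=
  ⟨fun l => D.pr (μ - l), fun κ l a w hw => by
    have := D.pr_mul_right (l - κ) (μ - l) a w hw
    rwa [sub_add_sub_cancel] at this⟩

lemma id_val (μ l : G) (a : W) : (D.id μ).val l a = D.pr (μ - l) a := rfl

lemma id_mul_id (μ : G) : D.id μ * D.id μ = D.id μ :=
  A.ext fun _ a => D.pr_pr _ a

lemma id_mul_ι {c : G} {w : W} (hw : D.pr c w = w) (μ : G) :
    D.id (μ + c) * D.ι w = D.ι w * D.id μ :=
  A.ext fun l a => by
    rw [A.mul_val, A.mul_val, id_val, id_val, ι_val, ι_val, ← D.pr_mul_left c (μ - l) a w hw]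
    congr 2
    abel

lemma ι_val_mul_id (t : D.A) (l : G) (w : W) :
    D.ι (t.val l w) * D.id l = t * D.ι w * D.id l :=
  A.ext fun κ a => by
    rw [A.mul_val, A.mul_val, A.mul_val, id_val, ι_val, ι_val,
      t.prop κ l w _ (D.pr_pr _ a)]

/-- The category of graded modules. -/
abbrev M : Type 1 := ModuleCat.{0} D.A

noncomputable instance (U : D.M) : Module W U := Module.compHom U D.ι

variable {D}

lemma smul_def {U : D.M} (w : W) (u : U) : w • u = D.ι w • u := rfl

lemma map_act {U V : D.M} (f : U ⟶ V) (w : W) (u : U) : f.hom (w • u) = w • f.hom u :=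
  f.hom.map_smul (D.ι w) u

lemma mk2_smul {U V : D.M} (w : W) (u : U) (v : V) :
    w • mk2 u v = mk2 (w • u) (w • v) := rfl

/-- The component of degree `μ`. -/
noncomputable def cp {U : D.M} (μ : G) (u : U) : U := D.id μ • u

/-- `u` is homogeneous of degree `μ`. -/
def At {U : D.M} (μ : G) (u : U) : Prop := cp μ u = u

lemma at_cp {U : D.M} (μ : G) (u : U) : At μ (cp μ u) := by
  rw [At, cp, cp, ← mul_smul, id_mul_id]

lemma cp_add {U : D.M} (μ : G) (u v : U) : cp μ (u + v) = cp μ u + cp μ v := smul_add _ _ _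

lemma cp_sub {U : D.M} (μ : G) (u v : U) : cp μ (u - v) = cp μ u - cp μ v := smul_sub _ _ _

lemma cp_neg {U : D.M} (μ : G) (u : U) : cp μ (-u) = -cp μ u := smul_neg _ _

lemma cp_zero {U : D.M} (μ : G) : cp μ (0 : U) = 0 := smul_zero _

lemma map_cp {U V : D.M} (f : U ⟶ V) (μ : G) (u : U) : f.hom (cp μ u) = cp μ (f.hom u) :=
  f.hom.map_smul _ u

lemma cp_act {U : D.M} {c μ ν : G} {w : W} (hw : D.pr c w = w) (h : ν = μ + c) (u : U) :
    cp ν (w • u) = w • cp μ u := by
  rw [h, cp, cp, smul_def, smul_def, ← mul_smul, ← mul_smul, D.id_mul_ι hw]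

lemma cp_mk2 {U V : D.M} (μ : G) (u : U) (v : V) :
    cp μ (mk2 u v) = mk2 (cp μ u) (cp μ v) := rfl

lemma At.zero {U : D.M} (μ : G) : At μ (0 : U) := cp_zero μ

lemma At.add {U : D.M} {μ : G} {u v : U} (hu : At μ u) (hv : At μ v) : At μ (u + v) := by
  rw [At, cp_add, hu, hv]

lemma At.sub {U : D.M} {μ : G} {u v : U} (hu : At μ u) (hv : At μ v) : At μ (u - v) := by
  rw [At, cp_sub, hu, hv]

lemma At.neg {U : D.M} {μ : G} {u : U} (hu : At μ u) : At μ (-u) := by
  rw [At, cp_neg, hu]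

lemma At.act {U : D.M} {c μ ν : G} {w : W} {u : U} (hu : At μ u) (hw : D.pr c w = w)
    (h : ν = μ + c) : At ν (w • u) := by
  rw [At, cp_act hw h, hu]

lemma At.map {U V : D.M} {μ : G} {u : U} (hu : At μ u) (f : U ⟶ V) : At μ (f.hom u) := by
  rw [At, ← map_cp, hu]

lemma At.pair {U V : D.M} {μ : G} {u : U} {v : V} (hu : At μ u) (hv : At μ v) :
    At μ (mk2 u v) := by
  rw [At, cp_mk2, hu, hv]

lemma At.fst {U V : D.M} {μ : G} {u : U} {v : V} (h : At μ (mk2 u v)) : At μ u :=
  congrArg Prod.fst h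

lemma At.snd {U V : D.M} {μ : G} {u : U} {v : V} (h : At μ (mk2 u v)) : At μ v :=
  congrArg Prod.snd h

lemma At.of_inj {U V : D.M} {μ : G} {u : U} (f : U ⟶ V) (hf : ∀ a, f.hom a = 0 → a = 0)
    (hu : At μ (f.hom u)) : At μ u :=
  sub_eq_zero.1 (hf _ (by rw [map_sub, map_cp, hu, sub_self]))

lemma At.lift {U V : D.M} {μ : G} {v : V} (hv : At μ v) {f : U ⟶ V} (h : ∃ u, f.hom u = v) :
    ∃ u, At μ u ∧ f.hom u = v := by
  obtain ⟨u, rfl⟩ := h
  exact ⟨cp μ u, at_cp _ _, by rw [map_cp, hv]⟩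

variable (D)

/-- Underlying type of the free module. -/
def PT (_ : WData W) (_ : G) : Type := W

instance (l : G) : AddCommGroup (D.PT l) := inferInstanceAs (AddCommGroup W)

noncomputable instance (l : G) : Module D.A (D.PT l) where
  smul t a := t.val l a
  one_smul _ := rfl
  mul_smul _ _ _ := rfl
  smul_zero t := map_zero (t.val l)
  smul_add t := map_add (t.val l)
  add_smul _ _ _ := rfl
  zero_smul _ := rfl

/-- The free graded module on a generator of degree `l`. -/
noncomputable def P (l : G) : D.M := ModuleCat.of D.A (D.PT l)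

/-- An element of the free module. -/
def el (l : G) : W ≃+ D.P l := AddEquiv.refl W

variable {D}

lemma el_surj {l : G} (u : D.P l) : ∃ w, D.el l w = u := ⟨u, rfl⟩

lemma el_inj {l : G} {v w : W} (h : D.el l v = D.el l w) : v = w := h

lemma el_eq_zero {l : G} {w : W} (h : D.el l w = 0) : w = 0 := h

lemma smul_el (l : G) (v w : W) : v • D.el l w = D.el l (v * w) := rfl

lemma cp_el (μ l : G) (w : W) : cp μ (D.el l w) = D.el l (D.pr (μ - l) w) := rfl

lemma at_el {μ l : G} {w : W} : At μ (D.el l w) ↔ D.pr (μ - l) w = w := Iff.rfl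

lemma at_el_of {μ l c : G} {w : W} (hw : D.pr c w = w) (h : μ = l + c) : At μ (D.el l w) := by
  rw [at_el, h, add_sub_cancel_left, hw]

lemma at_one (l : G) : At l (D.el l 1) := at_el_of D.pr_one (add_zero l).symm

/-- The map out of a free module given by an element. -/
noncomputable def lift (l : G) {U : D.M} (u : U) : D.P l ⟶ U :=
  ModuleCat.ofHom (X := D.PT l)
    { toFun := fun w => (show W from w) • cp l u
      map_add' := fun v w => add_smul (show W from v) (show W from w) _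
      map_smul' := fun t w => by
        change D.ι (t.val l w) • D.id l • u = t • D.ι w • D.id l • u
        rw [← mul_smul, D.ι_val_mul_id t l w, mul_smul, mul_smul] }

lemma lift_el' (l : G) {U : D.M} (u : U) (w : W) : (lift l u).hom (D.el l w) = w • cp l u := rfl

lemma lift_el {l : G} {U : D.M} {u : U} (hu : At l u) (w : W) :
    (lift l u).hom (D.el l w) = w • u := by
  rw [lift_el', hu]

lemma hom_el {l : G} {U : D.M} (f : D.P l ⟶ U) (w : W) :
    f.hom (D.el l w) = w • f.hom (D.el l 1) := by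
  rw [← map_act, smul_el, mul_one]

lemma P_ext {l : G} {U : D.M} {f g : D.P l ⟶ U} (h : f.hom (D.el l 1) = g.hom (D.el l 1)) :
    f = g :=
  hom_ext_ap fun u => by
    obtain ⟨w, rfl⟩ := el_surj u
    rw [hom_el f, hom_el g, h]

lemma at_hom {l : G} {U : D.M} (f : D.P l ⟶ U) : At l (f.hom (D.el l 1)) := (at_one l).map f

lemma lift_one {l : G} {U : D.M} {u : U} (hu : At l u) : (lift l u).hom (D.el l 1) = u := by
  rw [lift_el hu, one_smul]

instance (l : G) : Projective (D.P l) where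
  factors f g _ := by
    obtain ⟨a, ha, hb⟩ := (at_hom f).lift ((ModuleCat.epi_iff_surjective g).1 inferInstance _)
    exact ⟨lift l a, P_ext (by rw [comp_ap, lift_one ha, hb])⟩

lemma P_finite (l κ : G) : Module.Finite ℚ (D.P l ⟶ D.P κ) := by
  have := D.fin (l - κ)
  refine finite_of_inj (B := LinearMap.range (D.pr (l - κ)))
    { toFun := fun f => ⟨(D.el κ).symm (f.hom (D.el l 1)), ⟨_, at_hom f⟩⟩
      map_zero' := rfl
      map_add' := fun _ _ => rfl } fun f g h => ?_
  exact P_ext (congrArg Subtype.val h)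

end WData

end Vale.Agent.P195
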