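import Vale.Agent.P195.Free

/-!
The modules with three generators and one relation, and the Euler operator computation.
-/

namespace Vale.Agent.P195

open CategoryTheory Limits Abelian Function

variable {W : Type} [Ring W] [Algebra ℚ W]

namespace WData

variable {D : WData W}

/-- Free module of rank three. -/
noncomputable abbrev P3 (D : WData W) (μ γ : G) : D.M := pr2 (pr2 (D.P μ) (D.P μ)) (D.P γ)

/-- An element of the free module of rank three. -/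
noncomputable def el3 (D : WData W) (μ γ : G) (a b c : W) : D.P3 μ γ :=
  mk2 (mk2 (D.el μ a) (D.el μ b)) (D.el γ c)

lemma el3_surj {μ γ : G} (x : D.P3 μ γ) : ∃ a b c, D.el3 μ γ a b c = x :=
  ⟨x.1.1, x.1.2, x.2, rfl⟩

lemma el3_surj_at {μ γ ν : G} {x : D.P3 μ γ} (hx : At ν x) : ∃ a b c, D.pr (ν - μ) a = a ∧
    D.pr (ν - μ) b = b ∧ D.pr (ν - γ) c = c ∧ D.el3 μ γ a b c = x := by
  obtain ⟨a, b, c, rfl⟩ := el3_surj x
  exact ⟨a, b, c, hx.fst.fst, hx.fst.snd, hx.snd, rfl⟩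

lemma el3_inj {μ γ : G} {a b c a' b' c' : W} (h : D.el3 μ γ a b c = D.el3 μ γ a' b' c') :
    a = a' ∧ b = b' ∧ c = c' :=
  ⟨(mk2_inj (mk2_inj h).1).1, (mk2_inj (mk2_inj h).1).2, (mk2_inj h).2⟩

lemma el3_smul {μ γ : G} (w a b c : W) :
    w • D.el3 μ γ a b c = D.el3 μ γ (w * a) (w * b) (w * c) := rfl

lemma el3_add {μ γ : G} (a b c a' b' c' : W) :
    D.el3 μ γ a b c + D.el3 μ γ a' b' c' = D.el3 μ γ (a + a') (b + b') (c + c') := rfl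

lemma el3_zero {μ γ : G} : D.el3 μ γ 0 0 0 = 0 := rfl

namespace Pair

variable (y : D.Pair)

/-- The relation. -/
noncomputable def rel (μ γ : G) : D.P (γ + hd) ⟶ D.P3 μ γ :=
  lift _ (D.el3 μ γ y.y0 y.y1 D.h)

lemma rel_ap {μ γ : G} (e : γ + hd = μ + y.d) (w : W) :
    (y.rel μ γ).hom (D.el _ w) = D.el3 μ γ (w * y.y0) (w * y.y1) (w * D.h) := by
  exact (lift_el (((at_el_of y.h0 e).pair (at_el_of y.h1 e)).pair (at_el_of D.pr_h rfl))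
    w).trans (el3_smul _ _ _ _)

/-- The module with generators `z0, z1, g` and relation `y0 z0 + y1 z1 + h g = 0`. -/
noncomputable def S (μ γ : G) : D.M := cokernel (y.rel μ γ)

/-- The projection onto `S`. -/
noncomputable def πS (μ γ : G) : D.P3 μ γ ⟶ y.S μ γ := cokernel.π _

/-- The element `a z0 + b z1 + c g`. -/
noncomputable def cS (μ γ : G) (a b c : W) : y.S μ γ := (y.πS μ γ).hom (D.el3 μ γ a b c)

variable {μ γ : G}

lemma πS_surj (u : y.S μ γ) : ∃ v, (y.πS μ γ).hom v = u := cok_surj _ u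

lemma cS_surj (u : y.S μ γ) : ∃ a b c, y.cS μ γ a b c = u := by
  obtain ⟨x, rfl⟩ := y.πS_surj u
  obtain ⟨a, b, c, rfl⟩ := el3_surj x
  exact ⟨a, b, c, rfl⟩

lemma cS_eq_zero_iff (e : γ + hd = μ + y.d) {a b c : W} :
    y.cS μ γ a b c = 0 ↔ ∃ w, a = w * y.y0 ∧ b = w * y.y1 ∧ c = w * D.h := by
  constructor
  · intro h
    obtain ⟨x, hx⟩ := cok_ex _ _ h
    obtain ⟨w, rfl⟩ := el_surj x
    rw [y.rel_ap e] at hx
    exact ⟨w, el3_inj hx.symm⟩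
  · rintro ⟨w, rfl, rfl, rfl⟩
    rw [cS, ← y.rel_ap e]
    exact cok_ap _ _

lemma smul_cS (w a b c : W) : w • y.cS μ γ a b c = y.cS μ γ (w * a) (w * b) (w * c) := by
  rw [cS, cS, ← map_act, el3_smul]

lemma cS_add (a b c a' b' c' : W) :
    y.cS μ γ a b c + y.cS μ γ a' b' c' = y.cS μ γ (a + a') (b + b') (c + c') := by
  rw [cS, cS, cS, ← map_add, el3_add]

lemma cS_eq (a b c : W) :
    y.cS μ γ a b c = a • y.cS μ γ 1 0 0 + b • y.cS μ γ 0 1 0 + c • y.cS μ γ 0 0 1 := by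
  simp only [smul_cS, cS_add, mul_one, mul_zero, add_zero, zero_add]

lemma at_z0 : At μ (y.cS μ γ 1 0 0) :=
  (((at_one μ).pair (At.zero μ)).pair (At.zero μ)).map (y.πS μ γ)

lemma at_z1 : At μ (y.cS μ γ 0 1 0) :=
  (((At.zero μ).pair (at_one μ)).pair (At.zero μ)).map (y.πS μ γ)

lemma at_g : At γ (y.cS μ γ 0 0 1) :=
  (((At.zero γ).pair (At.zero γ)).pair (at_one γ)).map (y.πS μ γ)

lemma S_rel (e : γ + hd = μ + y.d) {U : D.M} (f : y.S μ γ ⟶ U) :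
    y.y0 • f.hom (y.cS μ γ 1 0 0) + y.y1 • f.hom (y.cS μ γ 0 1 0) +
      D.h • f.hom (y.cS μ γ 0 0 1) = 0 := by
  rw [← map_act, ← map_act, ← map_act, ← map_add, ← map_add, ← cS_eq,
    (y.cS_eq_zero_iff e).2 ⟨1, by simp⟩, map_zero]

lemma S_hom_ap {U : D.M} (f : y.S μ γ ⟶ U) (a b c : W) :
    f.hom (y.cS μ γ a b c) = a • f.hom (y.cS μ γ 1 0 0) + b • f.hom (y.cS μ γ 0 1 0) +
      c • f.hom (y.cS μ γ 0 0 1) := by
  rw [cS_eq, map_add, map_add, map_act, map_act, map_act]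

lemma S_ext {U : D.M} {f g : y.S μ γ ⟶ U}
    (h0 : f.hom (y.cS μ γ 1 0 0) = g.hom (y.cS μ γ 1 0 0))
    (h1 : f.hom (y.cS μ γ 0 1 0) = g.hom (y.cS μ γ 0 1 0))
    (h2 : f.hom (y.cS μ γ 0 0 1) = g.hom (y.cS μ γ 0 0 1)) : f = g := by
  refine hom_ext_ap fun u => ?_
  obtain ⟨a, b, c, rfl⟩ := y.cS_surj u
  rw [y.S_hom_ap f, y.S_hom_ap g, h0, h1, h2]

lemma lift3_ap {U : D.M} {u0 u1 u2 : U} (h0 : At μ u0) (h1 : At μ u1) (h2 : At γ u2)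
    (a b c : W) : (pdesc (lift2 μ μ u0 u1) (lift γ u2)).hom (D.el3 μ γ a b c) =
      a • u0 + b • u1 + c • u2 := by
  rw [el3, pdesc_ap, lift2_ap h0 h1, lift_el h2]

lemma exists_liftS (e : γ + hd = μ + y.d) {U : D.M} {u0 u1 u2 : U} (h0 : At μ u0) (h1 : At μ u1)
    (h2 : At γ u2) (hr : y.y0 • u0 + y.y1 • u1 + D.h • u2 = 0) :
    ∃ f : y.S μ γ ⟶ U, ∀ a b c, f.hom (y.cS μ γ a b c) = a • u0 + b • u1 + c • u2 := by
  refine ⟨cokernel.desc _ (pdesc (lift2 μ μ u0 u1) (lift γ u2)) (P_ext ?_), fun a b c => ?_⟩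
  · rw [comp_ap, y.rel_ap e, lift3_ap h0 h1 h2, one_mul, one_mul, one_mul, hr]
    rfl
  · exact (cok_desc_ap _ _ _ _).trans (lift3_ap h0 h1 h2 a b c)

lemma exists_liftS' (e : γ + hd = μ + y.d) {U : D.M} {u0 u1 u2 : U} (h0 : At μ u0)
    (h1 : At μ u1) (h2 : At γ u2) (hr : y.y0 • u0 + y.y1 • u1 + D.h • u2 = 0) :
    ∃ f : y.S μ γ ⟶ U, f.hom (y.cS μ γ 1 0 0) = u0 ∧ f.hom (y.cS μ γ 0 1 0) = u1 ∧
      f.hom (y.cS μ γ 0 0 1) = u2 := by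
  obtain ⟨f, hf⟩ := y.exists_liftS e h0 h1 h2 hr
  exact ⟨f, by simp [hf], by simp [hf], by simp [hf]⟩

lemma ses_rel (e : γ + hd = μ + y.d) : SES (y.rel μ γ) (y.πS μ γ) := by
  have : Mono (y.rel μ γ) := by
    refine (ModuleCat.mono_iff_injective _).2 ((injective_iff_map_eq_zero _).2 fun u hu => ?_)
    obtain ⟨w, rfl⟩ := el_surj u
    have h1 := el3_inj ((y.rel_ap e w).symm.trans (hu.trans el3_zero.symm))
    rw [y.k.L1 w h1.1 h1.2.1, map_zero]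
  exact ses_cokernel _

lemma tt_S {Q : D.M → Prop} (hQ : TT Q) {ρ : G} (e : γ + hd = μ + y.d) (e' : ρ = γ + hd)
    (h2 : Q (D.P ρ)) (h0 : Q (D.P μ)) (h1 : Q (D.P γ)) : Q (y.S μ γ) := by
  subst e'
  exact hQ.s3 (y.ses_rel e) h2 (hQ.pr2 (hQ.pr2 h0 h0) h1)

lemma tt_S_H {Q : D.M → Prop} (hQ : TT Q) (e : γ + hd = μ + y.d)
    (h0 : Q (D.P μ)) (h1 : Q (D.H γ)) : Q (y.S μ γ) := by
  obtain ⟨f, hf⟩ := y.exists_liftS e (At.zero μ) (At.zero μ) ((at_one γ).map (D.πH γ))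
    (by rw [smul_zero, smul_zero, add_zero, zero_add, ← map_act, smul_el]
        exact πH_eq_zero_iff.2 ⟨1, rfl⟩)
  have hf' : ∀ a b c, f.hom (y.cS μ γ a b c) = (D.πH γ).hom (D.el γ c) := fun a b c => by
    rw [hf, smul_zero, smul_zero, add_zero, zero_add, ← map_act, smul_el, mul_one]
  have hi : ∀ a b, (pinl _ _ ≫ y.πS μ γ).hom (mk2 (D.el μ a) (D.el μ b)) = y.cS μ γ a b 0 :=
    fun a b => rfl
  refine hQ.s2 (f := pinl _ _ ≫ y.πS μ γ) (g := f) (ses_of_fun ?_ ?_ ?_ ?_) (hQ.pr2 h0 h0) h1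
  · intro x hx
    obtain ⟨a, b, rfl⟩ := el2_surj x
    rw [hi, y.cS_eq_zero_iff e] at hx
    obtain ⟨w, rfl, rfl, h⟩ := hx
    rw [D.h_reg w ((D.h_comm w).trans h.symm), zero_mul, zero_mul, map_zero, mk2_zero]
  · intro x
    obtain ⟨a, b, rfl⟩ := el2_surj x
    rw [hi, hf', map_zero, map_zero]
  · intro u hu
    obtain ⟨a, b, c, rfl⟩ := y.cS_surj u
    rw [hf', πH_eq_zero_iff] at hu
    obtain ⟨w, rfl⟩ := hu
    refine ⟨mk2 (D.el μ (a - w * y.y0)) (D.el μ (b - w * y.y1)), ?_⟩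
    rw [hi, ← add_zero (y.cS μ γ _ _ 0), ← (y.cS_eq_zero_iff e).2 ⟨w, rfl, rfl, rfl⟩, cS_add,
      sub_add_cancel, sub_add_cancel, zero_add, D.h_comm]
  · intro v
    obtain ⟨c, rfl⟩ := πH_surj' v
    exact ⟨_, hf' 0 0 c⟩

lemma nullPos_S (e : γ + hd = μ + y.d) {ρ : G} (e' : ρ = γ + hd) {U : D.M} (h : Onto3 y ρ U) :
    NullPos (y.S μ γ) U := by
  subst e'
  intro n
  cases n with
  | zero =>
    refine van_one_of_extend (y.ses_rel e).2 (van_projective _ _ 0) fun φ => ?_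
    obtain ⟨a, b, c, ha, hb, hc, h1⟩ := h.at e rfl (at_hom φ)
    refine ⟨pdesc (lift2 μ μ a b) (lift γ c), P_ext ?_⟩
    refine Eq.trans ?_ h1.symm
    change (pdesc (lift2 μ μ a b) (lift γ c)).hom ((y.rel μ γ).hom _) = _
    rw [y.rel_ap e, lift3_ap ha hb hc, one_mul, one_mul, one_mul]
  | succ n => exact Van.c3 (y.ses_rel e).2 (van_projective _ _ n) (van_projective _ _ _)

lemma S_lift (e : γ + hd = μ + y.d) {ρ : G} (e' : ρ = γ + hd) {K A B : D.M} {k : K ⟶ A}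
    {f : A ⟶ B} (hw : ∀ x, f.hom (k.hom x) = 0) (hex : ∀ a, f.hom a = 0 → ∃ x, k.hom x = a)
    (hK : Onto3 y ρ K) (ψ : y.S μ γ ⟶ B) (h0 : ∃ a, f.hom a = ψ.hom (y.cS μ γ 1 0 0))
    (h1 : ∃ a, f.hom a = ψ.hom (y.cS μ γ 0 1 0)) (h2 : ∃ a, f.hom a = ψ.hom (y.cS μ γ 0 0 1)) :
    ∃ χ : y.S μ γ ⟶ A, χ ≫ f = ψ := by
  subst e'
  obtain ⟨a0, ha0, h0⟩ := (y.at_z0.map ψ).lift h0
  obtain ⟨a1, ha1, h1⟩ := (y.at_z1.map ψ).lift h1
  obtain ⟨a2, ha2, h2⟩ := (y.at_g.map ψ).lift h2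
  have hr : At (γ + hd) (y.y0 • a0 + y.y1 • a1 + D.h • a2) :=
    ((ha0.act y.h0 e).add (ha1.act y.h1 e)).add (ha2.act D.pr_h rfl)
  obtain ⟨x, hx, h3⟩ := hr.lift (hex _ (by
    rw [map_add, map_add, map_act, map_act, map_act, h0, h1, h2, y.S_rel e]))
  obtain ⟨b0, b1, b2, hb0, hb1, hb2, rfl⟩ := hK.at e rfl hx
  rw [map_add, map_add, map_act, map_act, map_act] at h3
  obtain ⟨χ, c0, c1, c2⟩ := y.exists_liftS' e (ha0.sub (hb0.map k)) (ha1.sub (hb1.map k))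
    (ha2.sub (hb2.map k)) (by
      rw [smul_sub, smul_sub, smul_sub, ← sub_eq_zero.2 h3.symm]
      abel)
  refine ⟨χ, y.S_ext ?_ ?_ ?_⟩
  · rw [comp_ap, c0, map_sub, hw, sub_zero, h0]
  · rw [comp_ap, c1, map_sub, hw, sub_zero, h1]
  · rw [comp_ap, c2, map_sub, hw, sub_zero, h2]

lemma S_homSurj (e : γ + hd = μ + y.d) {ρ : G} (e' : ρ = γ + hd) {K A B : D.M} {k : K ⟶ A}
    {f : A ⟶ B} (hw : ∀ x, f.hom (k.hom x) = 0) (hex : ∀ a, f.hom a = 0 → ∃ x, k.hom x = a)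
    (hK : Onto3 y ρ K) (h0 : SurjAt μ f) (h2 : SurjAt γ f) (ψ : y.S μ γ ⟶ B) :
    ∃ χ : y.S μ γ ⟶ A, χ ≫ f = ψ :=
  y.S_lift e e' hw hex hK ψ (h0 _ (y.at_z0.map ψ)) (h0 _ (y.at_z1.map ψ)) (h2 _ (y.at_g.map ψ))

lemma S_homSurj_of_inj (e : γ + hd = μ + y.d) {ρ : G} (e' : ρ = γ + hd) {A B : D.M}
    {f : A ⟶ B} (hρ : InjAt ρ f) (h0 : SurjAt μ f) (h2 : SurjAt γ f) (ψ : y.S μ γ ⟶ B) :
    ∃ χ : y.S μ γ ⟶ A, χ ≫ f = ψ := by
  refine y.S_homSurj e e' (ker_ap f) (ker_ex f) (fun u hu => ⟨0, 0, 0, ?_⟩) h0 h2 ψ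
  rw [ker_inj f u (hρ _ (hu.map _) (ker_ap f u))]
  simp

lemma S_homInj {A B : D.M} {f : A ⟶ B} (h0 : InjAt μ f) (h2 : InjAt γ f) (φ : y.S μ γ ⟶ A)
    (hφ : φ ≫ f = 0) : φ = 0 :=
  y.S_ext (h0 _ (y.at_z0.map φ) (hom_ap hφ _)) (h0 _ (y.at_z1.map φ) (hom_ap hφ _))
    (h2 _ (y.at_g.map φ) (hom_ap hφ _))

lemma S_homZero (e : γ + hd = μ + y.d) {A : D.M} (h0 : VanAt μ A)
    (hA : ∀ u : A, D.h • u = 0 → u = 0) (φ : y.S μ γ ⟶ A) : φ = 0 := by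
  have a0 := h0 _ (y.at_z0.map φ)
  have a1 := h0 _ (y.at_z1.map φ)
  have hr := y.S_rel e φ
  rw [a0, a1, smul_zero, smul_zero, add_zero, zero_add] at hr
  exact y.S_ext a0 a1 (hA _ hr)

/-- If `y` maps onto degree `γ + deg h` and maps from `S` lift, then degree `γ` is hit. -/
lemma surjAt_of_S (e : γ + hd = μ + y.d) {ρ : G} (e' : ρ = γ + hd) {A B : D.M} {f : A ⟶ B}
    (hB : Onto2 y ρ B) (h : ∀ ψ : y.S μ γ ⟶ B, ∃ χ : y.S μ γ ⟶ A, χ ≫ f = ψ) :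
    SurjAt γ f := by
  subst e'
  intro u hu
  obtain ⟨a, b, ha, hb, hab⟩ := hB.at e (hu.act D.pr_h rfl)
  obtain ⟨ψ, -, -, c2⟩ := y.exists_liftS' e ha.neg hb.neg hu (by
    rw [hab, smul_neg, smul_neg]
    abel)
  obtain ⟨χ, rfl⟩ := h ψ
  exact ⟨_, c2⟩

lemma lf_S : LF (y.S μ γ) :=
  have : Epi (y.πS μ γ) := (inferInstance : Epi (cokernel.π _))
  (((lf_P μ).pr2 (lf_P μ)).pr2 (lf_P γ)).of_epi (y.πS μ γ)

lemma finite_S {U : D.M} (h : LF U) : Module.Finite ℚ (y.S μ γ ⟶ U) :=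
  have : Epi (y.πS μ γ) := (inferInstance : Epi (cokernel.π _))
  have := finite_pr2_left (finite_pr2_left (h μ) (h μ)) (h γ)
  finite_of_epi_left U (y.πS μ γ)

/-- The inclusion of the third generator. -/
noncomputable def jS (μ γ : G) : D.P γ ⟶ y.S μ γ := lift γ (y.cS μ γ 0 0 1)

lemma jS_ap (c : W) : (y.jS μ γ).hom (D.el γ c) = y.cS μ γ 0 0 c := by
  rw [jS, lift_el y.at_g, smul_cS, mul_zero, mul_one]

lemma exists_qS (e : γ + hd = μ + y.d) {ν : G} (e' : μ = ν + y.d) :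
    ∃ q : y.S μ γ ⟶ y.I ν, SES (y.jS μ γ) q := by
  obtain ⟨f, hf⟩ := y.exists_liftS e (U := D.P ν) (at_el_of y.h1 e')
    (at_el_of (w := -y.y0) (by rw [map_neg, y.h0]) e') (At.zero γ)
    (by rw [smul_zero, add_zero, smul_el, smul_el, ← map_add, mul_neg, y.k.comm, add_neg_cancel,
      map_zero])
  have hf' : ∀ a b c, f.hom (y.cS μ γ a b c) = D.el ν ((-b) * y.y0 + a * y.y1) := fun a b c => by
    rw [hf, smul_zero, add_zero, smul_el, smul_el, ← map_add, mul_neg, neg_mul, add_comm]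
  obtain ⟨q, hq⟩ := (y.ses0 ν).lift f (hom_ext_ap fun u => by
    obtain ⟨a, b, c, rfl⟩ := y.cS_surj u
    rw [comp_ap, hf']
    exact y.cl_eq_zero_iff.2 ⟨_, _, rfl⟩)
  have hq' : ∀ u, (y.i ν).hom (q.hom u) = f.hom u := hom_ap hq
  refine ⟨q, ses_of_fun ?_ ?_ ?_ ?_⟩
  · intro x hx
    obtain ⟨c, rfl⟩ := el_surj x
    rw [jS_ap, y.cS_eq_zero_iff e] at hx
    obtain ⟨w, h0, h1, rfl⟩ := hx
    rw [y.k.L1 w h0.symm h1.symm, zero_mul, map_zero]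
  · intro x
    obtain ⟨c, rfl⟩ := el_surj x
    refine (y.ses0 ν).inj _ ?_
    rw [hq', jS_ap, hf', neg_zero, zero_mul, zero_mul, add_zero, map_zero]
  · intro u hu
    obtain ⟨a, b, c, rfl⟩ := y.cS_surj u
    have h1 := hq' (y.cS μ γ a b c)
    rw [hu, map_zero, hf'] at h1
    obtain ⟨w, h2, rfl⟩ := y.k.L2 _ _ (el_eq_zero h1.symm)
    obtain rfl : b = -(w * y.y1) := by rw [← h2, neg_neg]
    refine ⟨D.el γ (c + w * D.h), ?_⟩
    rw [jS_ap, ← add_zero (y.cS μ γ _ _ c), ← (y.cS_eq_zero_iff e).2 ⟨w, rfl, rfl, rfl⟩, cS_add,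
      neg_add_cancel, neg_add_cancel]
  · intro x
    obtain ⟨w, hw⟩ := el_surj ((y.i ν).hom x)
    have h1 : y.cl ν w = 0 := by
      rw [cl, hw]
      exact (y.ses0 ν).ap x
    obtain ⟨a, b, rfl⟩ := y.cl_eq_zero_iff.1 h1
    refine ⟨y.cS μ γ b (-a) 0, sub_eq_zero.1 ((y.ses0 ν).inj _ ?_)⟩
    rw [map_sub, hq', hf', neg_neg, hw, sub_self]

lemma exists_eS (e : γ + hd = μ + y.d) {μ' γ' : G} (e1 : μ' = μ + ed) (e2 : γ' = γ + ed) :
    ∃ f : y.S μ' γ' ⟶ y.S μ γ,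
      (∀ ν : G, (ν.1 - μ'.1) % 2 = 0 → (ν.1 - γ'.1) % 2 = 0 → InjAt ν f ∧ SurjAt ν f) ∧
      ∀ U : D.M, Eps μ U → Eps γ U → EpsInj (γ + hd) U →
        Bijective (fun φ : y.S μ γ ⟶ U => f ≫ φ) := by
  have e' : γ' + hd = μ' + y.d := by rw [e1, e2, add_right_comm, e, add_right_comm]
  have e3 : γ' + hd = γ + hd + ed := by rw [e2, add_right_comm]
  let φ : D.P3 μ' γ' ⟶ D.P3 μ γ :=
    pmap (pmap (D.rmul μ' μ D.e) (D.rmul μ' μ D.e)) (D.rmul γ' γ D.e)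
  have hφ : ∀ a b c, φ.hom (D.el3 μ' γ' a b c) = D.el3 μ γ (a * D.e) (b * D.e) (c * D.e) := by
    intro a b c
    rw [el3, pmap_ap, pmap_ap, rmul_el D.pr_e e1, rmul_el D.pr_e e1, rmul_el D.pr_e e2]
    rfl
  have c1 : D.rmul (γ' + hd) (γ + hd) D.e ≫ y.rel μ γ = y.rel μ' γ' ≫ φ := by
    refine P_ext ?_
    rw [comp_ap, comp_ap, rmul_el D.pr_e e3, y.rel_ap e, y.rel_ap e', hφ]
    simp only [one_mul, D.e_comm]
  let f : y.S μ' γ' ⟶ y.S μ γ := cokernel.desc _ (φ ≫ y.πS μ γ) (by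
    rw [← Category.assoc, ← c1, Category.assoc, (y.ses_rel e).w, comp_zero])
  have hf : ∀ a b c, f.hom (y.cS μ' γ' a b c) = y.cS μ γ (a * D.e) (b * D.e) (c * D.e) := by
    intro a b c
    refine (cok_desc_ap _ _ _ _).trans ?_
    rw [comp_ap, hφ]
    rfl
  refine ⟨f, fun ν h1 h2 => ⟨?_, ?_⟩, fun U hμ hγ hρ => ?_⟩
  · refine injAt_cok c1 (cokernel.π_desc _ _ _).symm (surjAt_e e3 ?_)
      (((injAt_e e1 h1).pmap (injAt_e e1 h1)).pmap (injAt_e e2 h2))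
    simpa using h2
  · exact surjAt_cok (φB := φ) (cokernel.π_desc _ _ _).symm
      (((surjAt_e e1 h1).pmap (surjAt_e e1 h1)).pmap (surjAt_e e2 h2))
  · have k0 : ∀ ψ : y.S μ γ ⟶ U, (f ≫ ψ).hom (y.cS μ' γ' 1 0 0) =
        D.e • ψ.hom (y.cS μ γ 1 0 0) := fun ψ => by
      rw [comp_ap, hf, ← map_act, smul_cS]
      simp only [one_mul, mul_one, zero_mul, mul_zero]
    have k1 : ∀ ψ : y.S μ γ ⟶ U, (f ≫ ψ).hom (y.cS μ' γ' 0 1 0) =
        D.e • ψ.hom (y.cS μ γ 0 1 0) := fun ψ => by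
      rw [comp_ap, hf, ← map_act, smul_cS]
      simp only [one_mul, mul_one, zero_mul, mul_zero]
    have k2 : ∀ ψ : y.S μ γ ⟶ U, (f ≫ ψ).hom (y.cS μ' γ' 0 0 1) =
        D.e • ψ.hom (y.cS μ γ 0 0 1) := fun ψ => by
      rw [comp_ap, hf, ← map_act, smul_cS]
      simp only [one_mul, mul_one, zero_mul, mul_zero]
    constructor
    · intro ψ ψ' h
      refine y.S_ext (sub_eq_zero.1 (hμ.1 _ ((y.at_z0.map ψ).sub (y.at_z0.map ψ')) ?_))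
        (sub_eq_zero.1 (hμ.1 _ ((y.at_z1.map ψ).sub (y.at_z1.map ψ')) ?_))
        (sub_eq_zero.1 (hγ.1 _ ((y.at_g.map ψ).sub (y.at_g.map ψ')) ?_))
      · rw [smul_sub, ← k0, ← k0, sub_eq_zero]
        exact hom_ap h _
      · rw [smul_sub, ← k1, ← k1, sub_eq_zero]
        exact hom_ap h _
      · rw [smul_sub, ← k2, ← k2, sub_eq_zero]
        exact hom_ap h _
    · intro χ
      obtain ⟨u0, a0, b0⟩ := hμ.2.at e1 (y.at_z0.map χ)
      obtain ⟨u1, a1, b1⟩ := hμ.2.at e1 (y.at_z1.map χ)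
      obtain ⟨u2, a2, b2⟩ := hγ.2.at e2 (y.at_g.map χ)
      obtain ⟨ψ, d0, d1, d2⟩ := y.exists_liftS' e a0 a1 a2 (hρ _
        (((a0.act y.h0 e).add (a1.act y.h1 e)).add (a2.act D.pr_h rfl)) (by
          rw [smul_add, smul_add, e_smul_comm, e_smul_comm y.y1, e_smul_comm D.h, ← b0, ← b1,
            ← b2, y.S_rel e']))
      exact ⟨ψ, y.S_ext (by rw [k0, d0, b0]) (by rw [k1, d1, b1]) (by rw [k2, d2, b2])⟩

end Pair

section Euler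

lemma euler_C {ν μ : G} {a b : ℤ} (e : μ = ν + (2 * a, 2 * b)) {u : D.pp.N ν} (hu : At μ u) :
    D.x0 • D.p0 • u + D.x1 • D.p1 • u = D.h • (algebraMap ℚ W a) • u := by
  obtain ⟨w, hw, rfl⟩ := D.pp.cl_surj_at hu
  rw [e, add_sub_cancel_left] at hw
  have h1 := D.euler a b w hw
  simp only [D.pp.smul_cl]
  rw [← D.pp.cl_add, ← sub_eq_zero, ← D.pp.cl_sub, D.pp.cl_eq_zero_iff]
  refine ⟨w * D.x0, w * D.x1, ?_⟩
  rw [← mul_assoc, ← mul_assoc, ← add_mul, sub_eq_iff_eq_add.1 h1, ← Algebra.smul_def,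
    mul_smul_comm, mul_add, mul_assoc, mul_assoc, add_sub_cancel_left]
  rfl

lemma h_surj_C {ν μ : G} (h : 0 < μ.2 - ν.2) {u : D.pp.N ν} (hu : At μ u) :
    ∃ v, u = D.h • v := by
  obtain ⟨w, hw, rfl⟩ := D.pp.cl_surj_at hu
  obtain ⟨a, b, c, rfl⟩ := (D.suppph (μ - ν) w h hw).1
  refine ⟨D.pp.cl ν c, ?_⟩
  rw [D.pp.cl_add, (D.pp.cl_eq_zero_iff (w := a * D.p0 + b * D.p1)).2 ⟨a, b, rfl⟩, zero_add,
    D.pp.smul_cl, D.h_comm]

lemma alg_smul_comm {U : D.M} (q : ℚ) (w : W) (u : U) :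
    w • algebraMap ℚ W q • u = algebraMap ℚ W q • w • u := by
  rw [← mul_smul, ← mul_smul, Algebra.commutes]

lemma alg_inv_smul {U : D.M} {q : ℚ} (hq : q ≠ 0) (u : U) :
    algebraMap ℚ W q⁻¹ • algebraMap ℚ W q • u = u := by
  rw [← mul_smul, ← map_mul, inv_mul_cancel₀ hq, map_one, one_smul]

lemma null_C {ν μ : G} {m : ℤ} (hm : 0 < m) (e : μ = ν + (2 * m, 2 * m)) :
    Null (D.pp.N μ) (D.pp.N ν) := by
  have hm' : (m : ℚ) ≠ 0 := by exact_mod_cast hm.ne'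
  have c00 : ∀ u : D.pp.N ν, D.p0 • D.x0 • u = D.x0 • D.p0 • u + D.h • u := fun u => by
    rw [← mul_smul, D.p0x0, add_smul, mul_smul]
  have c11 : ∀ u : D.pp.N ν, D.p1 • D.x1 • u = D.x1 • D.p1 • u + D.h • u := fun u => by
    rw [← mul_smul, D.p1x1, add_smul, mul_smul]
  have c01 : ∀ u : D.pp.N ν, D.p0 • D.x1 • u = D.x1 • D.p0 • u := fun u => by
    rw [← mul_smul, D.p0x1, mul_smul]
  have c10 : ∀ u : D.pp.N ν, D.p1 • D.x0 • u = D.x0 • D.p1 • u := fun u => by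
    rw [← mul_smul, D.p1x0, mul_smul]
  have succ : ∀ (a : ℤ) (u : D.pp.N ν), D.h • (algebraMap ℚ W ((a - 1 : ℤ) : ℚ)) • u + D.h • u =
      D.h • (algebraMap ℚ W a) • u := fun a u => by
    rw [← smul_add, Int.cast_sub, map_sub, sub_smul, Int.cast_one, map_one, one_smul,
      sub_add_cancel]
  refine (D.pp.res μ).null (D.pp.van0 fun u hu h0 h1 => ?_) (D.pp.van1 fun a b ha hb hab => ?_)
    (D.pp.van2 fun u hu => ?_)
  · have h2 := euler_C e hu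
    change D.p0 • u = 0 at h0
    change D.p1 • u = 0 at h1
    rw [h0, h1, smul_zero, smul_zero, add_zero] at h2
    rw [← alg_inv_smul hm' u, D.pp.N_h_inj _ h2.symm, smul_zero]
  · change D.p1 • a = D.p0 • b at hab
    have e1 : μ + D.pp.d = ν + (2 * (m - 1), 2 * (m + 1)) := by
      rw [e]
      ext <;> simp <;> omega
    have h2 := euler_C e1 ha
    have h3 := euler_C e1 hb
    have ht : At (μ + D.pp.d + (2, 0)) (D.x0 • a + D.x1 • b) :=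
      (ha.act D.pr_x0 rfl).add (hb.act D.pr_x1 rfl)
    obtain ⟨v, hv⟩ := h_surj_C (by rw [e1]; simp; omega) ht
    refine ⟨algebraMap ℚ W (m : ℚ)⁻¹ • v, ?_, ?_⟩
    · change a = D.p0 • _
      rw [alg_smul_comm, ← alg_inv_smul hm' a]
      congr 1
      refine sub_eq_zero.1 (D.pp.N_h_inj _ ?_)
      rw [smul_sub, h_smul_comm D.p0, ← hv, smul_add, c00, c01, ← hab, ← succ, ← h2]
      abel
    · change b = D.p1 • _
      rw [alg_smul_comm, ← alg_inv_smul hm' b]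
      congr 1
      refine sub_eq_zero.1 (D.pp.N_h_inj _ ?_)
      rw [smul_sub, h_smul_comm D.p1, ← hv, smul_add, c11, c10, hab, ← succ, ← h3]
      abel
  · have e1 : μ + D.pp.d + D.pp.d = ν + (2 * (m - 1 - 1), 2 * (m + 2)) := by
      rw [e]
      ext <;> simp <;> omega
    have h2 := euler_C e1 hu
    obtain ⟨v0, h0⟩ := h_surj_C (by rw [e1]; simp; omega) (hu.act D.pr_x0 rfl)
    obtain ⟨v1, h1⟩ := h_surj_C (by rw [e1]; simp; omega) (hu.act D.pr_x1 rfl)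
    refine ⟨algebraMap ℚ W (m : ℚ)⁻¹ • v0, algebraMap ℚ W (m : ℚ)⁻¹ • v1, ?_⟩
    change u = D.p0 • _ + D.p1 • _
    rw [alg_smul_comm, alg_smul_comm _ D.p1, ← smul_add, ← alg_inv_smul hm' u]
    congr 1
    refine sub_eq_zero.1 (D.pp.N_h_inj _ ?_)
    rw [smul_sub, smul_add, h_smul_comm D.p0, h_smul_comm D.p1, ← h0, ← h1, c00, c11, ← succ,
      ← succ, ← h2]
    abel

end Euler

end WData

end Vale.Agent.P195
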