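import Mathlib
import Vale.Agent.P195.WData

/-!
The homogenised second Weyl algebra with a central square-zero element, by generators and
relations; its universal property, its grading and its Fourier automorphism.
-/

namespace Vale.Agent.P195

noncomputable section

/-- Structure constants. Generators: `0,1 = x0,x1`; `2,3 = p0,p1`; `4 = h`; `5 = e`. -/
def cc (i j : Fin 6) : ℚ :=
  if (i = 2 ∧ j = 0) ∨ (i = 3 ∧ j = 1) then 1
  else if (i = 0 ∧ j = 2) ∨ (i = 1 ∧ j = 3) then -1 else 0

/-- The defining relations. -/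
def WRel (a b : FreeAlgebra ℚ (Fin 6)) : Prop :=
  (∃ i j, a = FreeAlgebra.ι ℚ i * FreeAlgebra.ι ℚ j ∧
    b = FreeAlgebra.ι ℚ j * FreeAlgebra.ι ℚ i + cc i j • FreeAlgebra.ι ℚ (4 : Fin 6)) ∨
  (a = FreeAlgebra.ι ℚ (5 : Fin 6) * FreeAlgebra.ι ℚ (5 : Fin 6) ∧ b = 0)

/-- An algebra with the universal property given by the relations. -/
structure Pack where
  W : Type
  [ring : Ring W]
  [alg : Algebra ℚ W]
  g : Fin 6 → W
  comm : ∀ i j, g i * g j = g j * g i + cc i j • g 4
  sq : g 5 * g 5 = 0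
  lift : ∀ (A : Type) [Ring A] [Algebra ℚ A] (f : Fin 6 → A),
    (∀ i j, f i * f j = f j * f i + cc i j • f 4) → f 5 * f 5 = 0 →
    ∃ φ : W →ₐ[ℚ] A, ∀ i, φ (g i) = f i
  ind : ∀ (P : W → Prop), (∀ r : ℚ, P (algebraMap ℚ W r)) → (∀ i, P (g i)) →
    (∀ a b, P a → P b → P (a + b)) → (∀ a b, P a → P b → P (a * b)) → ∀ w, P w

theorem nonempty_pack : Nonempty Pack := by
  refine ⟨{ W := RingQuot WRel
            g := fun i => RingQuot.mkAlgHom ℚ WRel (FreeAlgebra.ι ℚ i)
            comm := ?_, sq := ?_, lift := ?_, ind := ?_ }⟩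
  · intro i j
    have h := RingQuot.mkAlgHom_rel ℚ (s := WRel) (Or.inl ⟨i, j, rfl, rfl⟩)
    simpa only [map_mul, map_add, map_smul] using h
  · have h := RingQuot.mkAlgHom_rel ℚ (s := WRel) (Or.inr ⟨rfl, rfl⟩)
    simpa only [map_mul, map_zero] using h
  · intro A _ _ f h1 h2
    refine ⟨RingQuot.liftAlgHom ℚ ⟨FreeAlgebra.lift ℚ f, ?_⟩, ?_⟩
    · rintro a b (⟨i, j, rfl, rfl⟩ | ⟨rfl, rfl⟩)
      · simpa only [map_mul, map_add, map_smul, FreeAlgebra.lift_ι_apply] using h1 i j
      · simpa only [map_mul, map_zero, FreeAlgebra.lift_ι_apply] using h2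
    · intro i
      exact (RingQuot.liftAlgHom_mkAlgHom_apply ℚ _ _ _).trans (FreeAlgebra.lift_ι_apply f i)
  · intro P h0 h1 h2 h3 w
    obtain ⟨a, rfl⟩ := RingQuot.mkAlgHom_surjective ℚ WRel w
    induction a using FreeAlgebra.induction with
    | grade0 r => rw [AlgHom.commutes]; exact h0 r
    | grade1 i => exact h1 i
    | mul a b ha hb => rw [map_mul]; exact h3 _ _ ha hb
    | add a b ha hb => rw [map_add]; exact h2 _ _ ha hb

/-- A chosen model. -/
def pk : Pack := Classical.choice nonempty_pack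

/-- The algebra. -/
def WA : Type := pk.W

instance instRingWA : Ring WA := pk.ring

instance instAlgebraWA : Algebra ℚ WA := pk.alg

/-- The generators. -/
def g (i : Fin 6) : WA := pk.g i

theorem g_comm (i j : Fin 6) : g i * g j = g j * g i + cc i j • g 4 := pk.comm i j

theorem g_sq : g 5 * g 5 = 0 := pk.sq

theorem exists_lift {A : Type} [Ring A] [Algebra ℚ A] (f : Fin 6 → A)
    (h1 : ∀ i j, f i * f j = f j * f i + cc i j • f 4) (h2 : f 5 * f 5 = 0) :
    ∃ φ : WA →ₐ[ℚ] A, ∀ i, φ (g i) = f i := pk.lift A f h1 h2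

theorem WA_ind (P : WA → Prop) (h0 : ∀ r : ℚ, P (algebraMap ℚ WA r)) (h1 : ∀ i, P (g i))
    (h2 : ∀ a b, P a → P b → P (a + b)) (h3 : ∀ a b, P a → P b → P (a * b)) (w : WA) : P w :=
  pk.ind P h0 h1 h2 h3 w

theorem left_ind (M : Submodule ℚ WA) (h1 : (1 : WA) ∈ M) (hg : ∀ i, ∀ w ∈ M, g i * w ∈ M)
    (w : WA) : w ∈ M := by
  have key : ∀ a : WA, ∀ w ∈ M, a * w ∈ M := by
    intro a
    induction a using WA_ind with
    | h0 r => intro w hw; rw [← Algebra.smul_def]; exact M.smul_mem r hw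
    | h1 i => exact hg i
    | h2 a b ha hb => intro w hw; rw [add_mul]; exact M.add_mem (ha w hw) (hb w hw)
    | h3 a b ha hb => intro w hw; rw [mul_assoc]; exact ha _ (hb w hw)
  simpa using key w 1 h1

theorem central_of (z : WA) (hz : ∀ i, z * g i = g i * z) (w : WA) : z * w = w * z := by
  induction w using WA_ind with
  | h0 r => exact (Algebra.commutes r z).symm
  | h1 i => exact hz i
  | h2 a b ha hb => rw [mul_add, add_mul, ha, hb]
  | h3 a b ha hb => rw [← mul_assoc, ha, mul_assoc, hb, mul_assoc]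

theorem comm_of_cc {i j : Fin 6} (h : cc i j = 0) : g i * g j = g j * g i := by
  rw [g_comm, h, zero_smul, add_zero]

theorem h_central (w : WA) : g 4 * w = w * g 4 :=
  central_of _ (fun i => comm_of_cc (by fin_cases i <;> simp [cc])) w

theorem e_central (w : WA) : g 5 * w = w * g 5 :=
  central_of _ (fun i => comm_of_cc (by fin_cases i <;> simp [cc])) w

theorem g01 : g 0 * g 1 = g 1 * g 0 := comm_of_cc (by simp [cc])
theorem g23 : g 2 * g 3 = g 3 * g 2 := comm_of_cc (by simp [cc])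
theorem g21 : g 2 * g 1 = g 1 * g 2 := comm_of_cc (by simp [cc])
theorem g30 : g 3 * g 0 = g 0 * g 3 := comm_of_cc (by simp [cc])
theorem g20 : g 2 * g 0 = g 0 * g 2 + g 4 := by
  have h := g_comm 2 0
  have hc : cc 2 0 = 1 := by simp [cc]
  rwa [hc, one_smul] at h
theorem g31 : g 3 * g 1 = g 1 * g 3 + g 4 := by
  have h := g_comm 3 1
  have hc : cc 3 1 = 1 := by simp [cc]
  rwa [hc, one_smul] at h

/-! ### Signed permutations of the generators -/

theorem exists_perm (s : Fin 6 → ℚ) (π : Fin 6 → Fin 6) (h4 : π 4 = 4) (s4 : s 4 = 1)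
    (h5 : π 5 = 5) (hc : ∀ i j, s i * s j * cc (π i) (π j) = cc i j) :
    ∃ φ : WA →ₐ[ℚ] WA, ∀ i, φ (g i) = s i • g (π i) := by
  refine exists_lift _ (fun i j => ?_) ?_
  · rw [smul_mul_smul_comm, smul_mul_smul_comm, g_comm, smul_add, mul_comm (s j), h4, s4,
      one_smul, smul_smul, hc]
  · rw [h5, smul_mul_smul_comm, g_sq, smul_zero]

/-- The Fourier automorphism `x ↦ p`, `p ↦ -x`, and its inverse. -/
theorem exists_fourier : ∃ F : WA ≃ₐ[ℚ] WA, F (g 0) = g 2 ∧ F (g 1) = g 3 ∧ F (g 2) = -g 0 ∧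
    F (g 3) = -g 1 ∧ F (g 4) = g 4 ∧ F (g 5) = g 5 := by
  obtain ⟨φ, hφ⟩ := exists_perm ![1, 1, -1, -1, 1, 1] ![2, 3, 0, 1, 4, 5] rfl rfl rfl (by
    intro i j
    fin_cases i <;> fin_cases j <;> simp [cc])
  obtain ⟨ψ, hψ⟩ := exists_perm ![-1, -1, 1, 1, 1, 1] ![2, 3, 0, 1, 4, 5] rfl rfl rfl (by
    intro i j
    fin_cases i <;> fin_cases j <;> simp [cc])
  have h1 : ∀ w, φ (ψ w) = w := by
    intro w
    induction w using WA_ind with
    | h0 r => rw [AlgHom.commutes, AlgHom.commutes]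
    | h1 i => rw [hψ, map_smul, hφ]; fin_cases i <;> simp
    | h2 a b ha hb => rw [map_add, map_add, ha, hb]
    | h3 a b ha hb => rw [map_mul, map_mul, ha, hb]
  have h2 : ∀ w, ψ (φ w) = w := by
    intro w
    induction w using WA_ind with
    | h0 r => rw [AlgHom.commutes, AlgHom.commutes]
    | h1 i => rw [hφ, map_smul, hψ]; fin_cases i <;> simp
    | h2 a b ha hb => rw [map_add, map_add, ha, hb]
    | h3 a b ha hb => rw [map_mul, map_mul, ha, hb]
  refine ⟨AlgEquiv.ofAlgHom φ ψ (AlgHom.ext h1) (AlgHom.ext h2), ?_, ?_, ?_, ?_, ?_, ?_⟩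
  · change φ (g 0) = _; rw [hφ]; simp
  · change φ (g 1) = _; rw [hφ]; simp
  · change φ (g 2) = _; rw [hφ]; simp
  · change φ (g 3) = _; rw [hφ]; simp
  · change φ (g 4) = _; rw [hφ]; simp
  · change φ (g 5) = _; rw [hφ]; simp

/-! ### The grading -/

/-- Degrees of the generators. -/
def dg : Fin 6 → G := ![(2, 0), (2, 0), (-2, 2), (-2, 2), (0, 2), (-1, -1)]

theorem exists_coact : ∃ δ : WA →ₐ[ℚ] AddMonoidAlgebra WA G,
    ∀ i, δ (g i) = AddMonoidAlgebra.single (dg i) (g i) := by
  refine exists_lift (fun i => AddMonoidAlgebra.single (dg i) (g i)) (fun i j => ?_) ?_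
  · rw [AddMonoidAlgebra.single_mul_single, AddMonoidAlgebra.single_mul_single, g_comm,
      AddMonoidAlgebra.single_add, add_comm (dg j), AddMonoidAlgebra.smul_single]
    by_cases h : cc i j = 0
    · simp [h]
    · have : dg i + dg j = dg 4 := by
        revert h
        fin_cases i <;> fin_cases j <;> simp [cc, dg]
      rw [this]
  · rw [AddMonoidAlgebra.single_mul_single, g_sq, AddMonoidAlgebra.single_zero]

/-- The coaction giving the grading. -/
def δ : WA →ₐ[ℚ] AddMonoidAlgebra WA G := exists_coact.choose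

theorem δ_g (i : Fin 6) : δ (g i) = AddMonoidAlgebra.single (dg i) (g i) :=
  exists_coact.choose_spec i

/-- Projection onto the component of degree `d`. -/
def pr (d : G) : WA →ₗ[ℚ] WA where
  toFun w := (δ w).coeff d
  map_add' a b := by simp
  map_smul' r a := by simp

theorem pr_def (d : G) (w : WA) : pr d w = (δ w).coeff d := rfl

/-- Homogeneous of degree `d`. -/
def Hom (d : G) (w : WA) : Prop := δ w = AddMonoidAlgebra.single d w

theorem Hom.mul {c d : G} {a b : WA} (ha : Hom c a) (hb : Hom d b) : Hom (c + d) (a * b) := by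
  unfold Hom at *
  rw [map_mul, ha, hb, AddMonoidAlgebra.single_mul_single]

theorem Hom.one : Hom 0 1 := by
  unfold Hom
  rw [map_one, AddMonoidAlgebra.one_def]

theorem Hom.pow {c : G} {a : WA} (ha : Hom c a) (n : ℕ) : Hom (n • c) (a ^ n) := by
  induction n with
  | zero => simpa using Hom.one
  | succ n ih => rw [pow_succ, succ_nsmul]; exact ih.mul ha

theorem Hom.gen (i : Fin 6) : Hom (dg i) (g i) := δ_g i

theorem Hom.pr_eq {c : G} {a : WA} (ha : Hom c a) (d : G) :
    pr d a = if c = d then a else 0 := by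
  rw [pr_def, ha, AddMonoidAlgebra.coeff_single, Finsupp.single_apply]

theorem Hom.pr_self {c : G} {a : WA} (ha : Hom c a) : pr c a = a := by
  rw [ha.pr_eq, if_pos rfl]

theorem pr_hom_mul {c : G} {w : WA} (hw : Hom c w) (d : G) (a : WA) :
    pr (c + d) (w * a) = w * pr d a := by
  rw [pr_def, map_mul, hw, AddMonoidAlgebra.coeff_single_mul_add, pr_def]

theorem pr_mul_hom {c : G} {w : WA} (hw : Hom c w) (d : G) (a : WA) :
    pr (d + c) (a * w) = pr d a * w := by
  rw [pr_def, map_mul, hw, AddMonoidAlgebra.coeff_mul_single_add, pr_def]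

theorem hom_pr (d : G) (w : WA) : Hom d (pr d w) := by
  let M : Submodule ℚ WA :=
    { carrier := {w | ∀ d, Hom d (pr d w)}
      add_mem' := by
        intro a b ha hb d
        have h1 := ha d
        have h2 := hb d
        unfold Hom at *
        rw [map_add, map_add, h1, h2, AddMonoidAlgebra.single_add]
      zero_mem' := by
        intro d
        unfold Hom
        simp
      smul_mem' := by
        intro r a ha d
        have h1 := ha d
        unfold Hom at *
        rw [map_smul, map_smul, h1, AddMonoidAlgebra.smul_single] }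
  refine left_ind M ?_ ?_ w d
  · intro d
    rw [Hom.one.pr_eq]
    split_ifs with h
    · rw [← h]; exact Hom.one
    · unfold Hom; simp
  · intro i w hw d
    have h : d = dg i + (d - dg i) := by abel
    rw [h, pr_hom_mul (Hom.gen i)]
    exact (Hom.gen i).mul (hw _)

theorem hom_of_pr {d : G} {w : WA} (h : pr d w = w) : Hom d w := by
  rw [← h]; exact hom_pr d w

end

end Vale.Agent.P195
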