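import Mathlib
import Vale.Agent.P195.Weyl1

/-!
Ordered monomials span; the polynomial representation; the normal form map is bijective.
-/

namespace Vale.Agent.P195

noncomputable section

open MvPolynomial

/-! ### Ordered monomials -/

/-- The ordered monomial `x0^a0 x1^a1 h^c p0^b0 p1^b1`. -/
def mon (a0 a1 c b0 b1 : ℕ) : WA := g 0 ^ a0 * (g 1 ^ a1 * (g 4 ^ c * (g 2 ^ b0 * g 3 ^ b1)))

/-- The same, indexed by exponent vectors. -/
def monI (a : Fin 5 →₀ ℕ) : WA := mon (a 0) (a 1) (a 4) (a 2) (a 3)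

/-- The span of the ordered monomials. -/
def M0 : Submodule ℚ WA := Submodule.span ℚ (Set.range monI)

theorem mon_mem (a0 a1 c b0 b1 : ℕ) : mon a0 a1 c b0 b1 ∈ M0 :=
  Submodule.subset_span ⟨Finsupp.equivFunOnFinite.symm ![a0, a1, b0, b1, c], rfl⟩

theorem mul_mem_M0 (z : WA) (hz : ∀ a0 a1 c b0 b1, z * mon a0 a1 c b0 b1 ∈ M0) :
    ∀ w ∈ M0, z * w ∈ M0 := by
  intro w hw
  induction hw using Submodule.span_induction with
  | mem x hx => obtain ⟨a, rfl⟩ := hx; exact hz _ _ _ _ _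
  | zero => rw [mul_zero]; exact M0.zero_mem
  | add x y _ _ hx hy => rw [mul_add]; exact M0.add_mem hx hy
  | smul r x _ hx => rw [mul_smul_comm]; exact M0.smul_mem r hx

theorem c4 (w : WA) : Commute (g 4) w := h_central w
theorem c5 (w : WA) : Commute (g 5) w := e_central w
theorem c10 : Commute (g 1) (g 0) := g01.symm
theorem c32 : Commute (g 3) (g 2) := g23.symm
theorem c21 : Commute (g 2) (g 1) := g21
theorem c30 : Commute (g 3) (g 0) := g30

theorem x0_mon (a0 a1 c b0 b1 : ℕ) : g 0 * mon a0 a1 c b0 b1 = mon (a0 + 1) a1 c b0 b1 := by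
  unfold mon
  rw [pow_succ', mul_assoc]

theorem x1_mon (a0 a1 c b0 b1 : ℕ) : g 1 * mon a0 a1 c b0 b1 = mon a0 (a1 + 1) c b0 b1 := by
  unfold mon
  rw [pow_succ', mul_assoc, (c10.pow_right a0).left_comm]

theorem h_mon (a0 a1 c b0 b1 : ℕ) : g 4 * mon a0 a1 c b0 b1 = mon a0 a1 (c + 1) b0 b1 := by
  unfold mon
  rw [pow_succ', mul_assoc, (c4 _).left_comm, (c4 _).left_comm]

theorem p0_mon (a1 c b0 b1 : ℕ) : g 2 * mon 0 a1 c b0 b1 = mon 0 a1 c (b0 + 1) b1 := by
  unfold mon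
  rw [pow_succ', mul_assoc, pow_zero, one_mul, one_mul, (c21.pow_right a1).left_comm,
    ((c4 (g 2)).symm.pow_right c).left_comm]

theorem p1_mon (a0 c b0 b1 : ℕ) : g 3 * mon a0 0 c b0 b1 = mon a0 0 c b0 (b1 + 1) := by
  unfold mon
  rw [pow_succ', pow_zero, one_mul, one_mul, (c30.pow_right a0).left_comm,
    ((c4 (g 3)).symm.pow_right c).left_comm, (c32.pow_right b0).left_comm]

theorem x0_M0 : ∀ w ∈ M0, g 0 * w ∈ M0 :=
  mul_mem_M0 _ fun _ _ _ _ _ => by rw [x0_mon]; exact mon_mem _ _ _ _ _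

theorem x1_M0 : ∀ w ∈ M0, g 1 * w ∈ M0 :=
  mul_mem_M0 _ fun _ _ _ _ _ => by rw [x1_mon]; exact mon_mem _ _ _ _ _

theorem h_M0 : ∀ w ∈ M0, g 4 * w ∈ M0 :=
  mul_mem_M0 _ fun _ _ _ _ _ => by rw [h_mon]; exact mon_mem _ _ _ _ _

theorem p0_M0 : ∀ w ∈ M0, g 2 * w ∈ M0 := by
  refine mul_mem_M0 _ fun a0 a1 c b0 b1 => ?_
  induction a0 with
  | zero => rw [p0_mon]; exact mon_mem _ _ _ _ _
  | succ n ih =>
    rw [← x0_mon, ← mul_assoc, g20, add_mul, mul_assoc]
    exact M0.add_mem (x0_M0 _ ih) (h_M0 _ (mon_mem _ _ _ _ _))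

theorem p1_M0 : ∀ w ∈ M0, g 3 * w ∈ M0 := by
  refine mul_mem_M0 _ fun a0 a1 c b0 b1 => ?_
  induction a1 with
  | zero => rw [p1_mon]; exact mon_mem _ _ _ _ _
  | succ n ih =>
    rw [← x1_mon, ← mul_assoc, g31, add_mul, mul_assoc]
    exact M0.add_mem (x1_M0 _ ih) (h_M0 _ (mon_mem _ _ _ _ _))

theorem span_dec (w : WA) : ∃ u ∈ M0, ∃ v ∈ M0, w = u + g 5 * v := by
  let M : Submodule ℚ WA :=
    { carrier := {w | ∃ u ∈ M0, ∃ v ∈ M0, w = u + g 5 * v}
      add_mem' := by
        rintro a b ⟨u, hu, v, hv, rfl⟩ ⟨u', hu', v', hv', rfl⟩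
        exact ⟨u + u', M0.add_mem hu hu', v + v', M0.add_mem hv hv', by
          rw [mul_add]; abel⟩
      zero_mem' := ⟨0, M0.zero_mem, 0, M0.zero_mem, by simp⟩
      smul_mem' := by
        rintro r a ⟨u, hu, v, hv, rfl⟩
        exact ⟨r • u, M0.smul_mem r hu, r • v, M0.smul_mem r hv, by
          rw [smul_add, mul_smul_comm]⟩ }
  have aux : ∀ z : WA, (∀ w ∈ M0, z * w ∈ M0) → ∀ w ∈ M, z * w ∈ M := by
    rintro z hz w ⟨u, hu, v, hv, rfl⟩
    exact ⟨z * u, hz u hu, z * v, hz v hv, by rw [mul_add, (c5 z).left_comm]⟩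
  refine left_ind M ⟨1, ?_, 0, M0.zero_mem, by simp⟩ ?_ w
  · have := mon_mem 0 0 0 0 0
    simpa [mon] using this
  · intro i
    fin_cases i
    · exact aux _ x0_M0
    · exact aux _ x1_M0
    · exact aux _ p0_M0
    · exact aux _ p1_M0
    · exact aux _ h_M0
    · rintro w ⟨u, hu, v, hv, rfl⟩
      refine ⟨0, M0.zero_mem, u, hu, ?_⟩
      change g 5 * (u + g 5 * v) = _
      rw [mul_add, ← mul_assoc, g_sq, zero_mul, add_zero, zero_add]

/-! ### The polynomial representation -/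

/-- The polynomial module. -/
abbrev QQ : Type := MvPolynomial (Fin 5) (DualNumber ℚ)

/-- Multiplication parts. -/
def vv : Fin 6 → QQ := ![X 0, X 1, X 2, X 3, X 4, C DualNumber.eps]

/-- Derivation parts. -/
def DD : Fin 6 → Derivation (DualNumber ℚ) QQ QQ := ![0, 0, pderiv 0, pderiv 1, 0, 0]

/-- The operators. -/
def op (i : Fin 6) : Module.End ℚ QQ where
  toFun q := vv i * q + X 4 * DD i q
  map_add' a b := by rw [map_add]; ring
  map_smul' r a := by
    rw [Derivation.map_smul_of_tower, RingHom.id_apply, smul_add, mul_smul_comm, mul_smul_comm]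

theorem op_apply (i : Fin 6) (q : QQ) : op i q = vv i * q + X 4 * DD i q := rfl

theorem pderiv_swap (i j : Fin 5) (q : QQ) : pderiv i (pderiv j q) = pderiv j (pderiv i q) := by
  induction q using MvPolynomial.induction_on with
  | C a => simp
  | add p q hp hq => simp only [map_add, hp, hq]
  | mul_X p n hp =>
    have h1 : ∀ k l : Fin 5, pderiv k (pderiv l (X n : QQ)) = 0 := by
      intro k l
      by_cases h : n = l
      · subst h; simp
      · rw [pderiv_X_of_ne h, map_zero]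
    simp only [pderiv_mul, map_add, hp, h1]
    ring

theorem DD_swap (i j : Fin 6) (q : QQ) : DD i (DD j q) = DD j (DD i q) := by
  fin_cases i <;> fin_cases j <;> simp [DD, pderiv_swap]

theorem DD_X4 (i : Fin 6) : DD i (X 4) = 0 := by
  fin_cases i <;> simp [DD]

theorem DD_vv (i j : Fin 6) : DD i (vv j) = DD j (vv i) + cc i j • (1 : QQ) := by
  fin_cases i <;> fin_cases j <;> simp [DD, vv, cc]

theorem exists_rep : ∃ ρ : WA →ₐ[ℚ] Module.End ℚ QQ, ∀ i, ρ (g i) = op i := by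
  refine exists_lift op (fun i j => ?_) ?_
  · refine LinearMap.ext fun q => ?_
    have h4 : op 4 q = X 4 * q := by simp [op_apply, vv, DD]
    rw [LinearMap.add_apply, LinearMap.smul_apply, Module.End.mul_apply, Module.End.mul_apply, h4]
    simp only [op_apply, map_add, Derivation.leibniz, smul_eq_mul, DD_X4, DD_swap i j,
      DD_vv i j]
    rw [Algebra.smul_def, Algebra.smul_def]
    ring
  · refine LinearMap.ext fun q => ?_
    have h5 : ∀ q, op 5 q = C DualNumber.eps * q := by intro q; simp [op_apply, vv, DD]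
    rw [Module.End.mul_apply, h5, h5, ← mul_assoc, ← C_mul, DualNumber.eps_mul_eps]
    simp

/-- The representation. -/
def ρ : WA →ₐ[ℚ] Module.End ℚ QQ := exists_rep.choose

theorem ρ_g (i : Fin 6) : ρ (g i) = op i := exists_rep.choose_spec i

/-- The normal form map. -/
def ev : WA →ₗ[ℚ] QQ where
  toFun w := ρ w 1
  map_add' a b := by simp
  map_smul' r a := by simp

theorem ev_def (w : WA) : ev w = ρ w 1 := rfl

theorem ev_one : ev 1 = 1 := by simp [ev_def]

theorem ev_left (i : Fin 6) (w : WA) : ev (g i * w) = vv i * ev w + X 4 * DD i (ev w) := by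
  rw [ev_def, map_mul, Module.End.mul_apply, ρ_g, op_apply, ev_def]

theorem ev_x0 (w : WA) : ev (g 0 * w) = X 0 * ev w := by simp [ev_left, vv, DD]
theorem ev_x1 (w : WA) : ev (g 1 * w) = X 1 * ev w := by simp [ev_left, vv, DD]
theorem ev_h (w : WA) : ev (g 4 * w) = X 4 * ev w := by simp [ev_left, vv, DD]
theorem ev_e (w : WA) : ev (g 5 * w) = C DualNumber.eps * ev w := by simp [ev_left, vv, DD]

theorem ρ_comm (z : QQ) (hz : ∀ i, DD i z = 0) (w : WA) : ∀ q, ρ w (z * q) = z * ρ w q := by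
  induction w using WA_ind with
  | h0 r => intro q; simp [Module.algebraMap_end_apply]
  | h1 i =>
    intro q
    rw [ρ_g, op_apply, op_apply, Derivation.leibniz, hz]
    simp only [smul_eq_mul]
    ring
  | h2 a b ha hb =>
    intro q
    rw [map_add ρ, LinearMap.add_apply, LinearMap.add_apply, ha, hb, mul_add]
  | h3 a b ha hb =>
    intro q
    rw [map_mul ρ, Module.End.mul_apply, Module.End.mul_apply, hb, ha]

theorem ev_p0 (w : WA) : ev (w * g 2) = X 2 * ev w := by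
  have h : op 2 1 = X 2 * 1 := by simp [op_apply, vv, DD]
  rw [ev_def, map_mul, Module.End.mul_apply, ρ_g, h, ρ_comm, ev_def]
  intro i
  fin_cases i <;> simp [DD]

theorem ev_p1 (w : WA) : ev (w * g 3) = X 3 * ev w := by
  have h : op 3 1 = X 3 * 1 := by simp [op_apply, vv, DD]
  rw [ev_def, map_mul, Module.End.mul_apply, ρ_g, h, ρ_comm, ev_def]
  intro i
  fin_cases i <;> simp [DD]

theorem ev_pow_left (z : WA) (y : QQ) (h : ∀ w, ev (z * w) = y * ev w) (n : ℕ) (w : WA) :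
    ev (z ^ n * w) = y ^ n * ev w := by
  induction n with
  | zero => simp
  | succ n ih => rw [pow_succ', mul_assoc, h, ih, pow_succ', mul_assoc]

theorem ev_pow_right (z : WA) (y : QQ) (h : ∀ w, ev (w * z) = y * ev w) (n : ℕ) (w : WA) :
    ev (w * z ^ n) = y ^ n * ev w := by
  induction n with
  | zero => simp
  | succ n ih => rw [pow_succ, ← mul_assoc, h, ih, pow_succ', mul_assoc]

theorem ev_mon (a0 a1 c b0 b1 : ℕ) :
    ev (mon a0 a1 c b0 b1) = X 0 ^ a0 * X 1 ^ a1 * X 2 ^ b0 * X 3 ^ b1 * X 4 ^ c := by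
  unfold mon
  rw [ev_pow_left _ _ ev_x0, ev_pow_left _ _ ev_x1, ev_pow_left _ _ ev_h,
    ev_pow_right _ _ ev_p1, ← one_mul (g 2 ^ b0), ev_pow_right _ _ ev_p0, ev_one]
  ring

/-- The section. -/
def s0 : MvPolynomial (Fin 5) ℚ →ₗ[ℚ] WA := (basisMonomials (Fin 5) ℚ).constr ℚ monI

theorem range_s0 : LinearMap.range s0 = M0 := Module.Basis.constr_range _ _

theorem ev_s0 (q : MvPolynomial (Fin 5) ℚ) :
    ev (s0 q) = MvPolynomial.map (algebraMap ℚ (DualNumber ℚ)) q := by
  have h : ev ∘ₗ s0 = (MvPolynomial.mapAlgHom (σ := Fin 5)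
      (Algebra.ofId ℚ (DualNumber ℚ))).toLinearMap := by
    refine (basisMonomials (Fin 5) ℚ).ext fun m => ?_
    rw [LinearMap.comp_apply, s0, Module.Basis.constr_basis, monI, ev_mon, coe_basisMonomials]
    simp [monomial_eq, Finsupp.prod_fintype, Fin.prod_univ_five]
  exact LinearMap.congr_fun h q

theorem dual_sep (q q' : MvPolynomial (Fin 5) ℚ)
    (h : MvPolynomial.map (algebraMap ℚ (DualNumber ℚ)) q +
      C DualNumber.eps * MvPolynomial.map (algebraMap ℚ (DualNumber ℚ)) q' = 0) :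
    q = 0 ∧ q' = 0 := by
  have h1 : ∀ m, algebraMap ℚ (DualNumber ℚ) (coeff m q) +
      DualNumber.eps * algebraMap ℚ (DualNumber ℚ) (coeff m q') = 0 := by
    intro m
    have := congrArg (coeff m) h
    rwa [coeff_add, coeff_C_mul, coeff_map, coeff_map, coeff_zero] at this
  constructor
  · ext m
    have := congrArg TrivSqZeroExt.fst (h1 m)
    simpa [TrivSqZeroExt.algebraMap_eq_inl] using this
  · ext m
    have := congrArg TrivSqZeroExt.snd (h1 m)
    simpa [TrivSqZeroExt.algebraMap_eq_inl] using this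

theorem dec_s0 (w : WA) : ∃ q q', w = s0 q + g 5 * s0 q' := by
  obtain ⟨u, hu, v, hv, rfl⟩ := span_dec w
  rw [← range_s0] at hu hv
  obtain ⟨q, rfl⟩ := hu
  obtain ⟨q', rfl⟩ := hv
  exact ⟨q, q', rfl⟩

theorem ev_eq_zero {w : WA} (h : ev w = 0) : w = 0 := by
  obtain ⟨q, q', rfl⟩ := dec_s0 w
  rw [map_add, ev_e, ev_s0, ev_s0] at h
  obtain ⟨rfl, rfl⟩ := dual_sep q q' h
  simp

theorem ev_inj : Function.Injective ev := by
  intro a b h
  have : ev (a - b) = 0 := by rw [map_sub, h, sub_self]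
  exact sub_eq_zero.mp (ev_eq_zero this)

theorem ev_surj : Function.Surjective ev := by
  intro q
  induction q using MvPolynomial.induction_on with
  | C a =>
    refine ⟨a.fst • 1 + a.snd • (g 5 * 1), ?_⟩
    have ha : a = algebraMap ℚ _ a.fst + algebraMap ℚ _ a.snd * DualNumber.eps := by
      ext <;> simp [TrivSqZeroExt.algebraMap_eq_inl]
    rw [map_add, map_smul, map_smul, ev_e, ev_one, mul_one, Algebra.smul_def, Algebra.smul_def,
      mul_one, MvPolynomial.algebraMap_apply, MvPolynomial.algebraMap_apply, ← C_mul, ← C_add,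
      ← ha]
  | add p q hp hq =>
    obtain ⟨a, rfl⟩ := hp
    obtain ⟨b, rfl⟩ := hq
    exact ⟨a + b, map_add _ _ _⟩
  | mul_X p n hp =>
    obtain ⟨a, rfl⟩ := hp
    fin_cases n
    · exact ⟨g 0 * a, by rw [ev_x0, mul_comm]; rfl⟩
    · exact ⟨g 1 * a, by rw [ev_x1, mul_comm]; rfl⟩
    · exact ⟨a * g 2, by rw [ev_p0, mul_comm]; rfl⟩
    · exact ⟨a * g 3, by rw [ev_p1, mul_comm]; rfl⟩
    · exact ⟨g 4 * a, by rw [ev_h, mul_comm]; rfl⟩

theorem e_ker {w : WA} (h : g 5 * w = 0) : ∃ v, w = g 5 * v := by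
  obtain ⟨q, q', rfl⟩ := dec_s0 w
  rw [mul_add, ← mul_assoc, g_sq, zero_mul, add_zero] at h
  have h1 := congrArg ev h
  rw [ev_e, ev_s0, map_zero] at h1
  have h2 := (dual_sep 0 q (by rw [map_zero, zero_add, h1])).2
  exact ⟨s0 q', by rw [h2, map_zero, zero_add]⟩

end

end Vale.Agent.P195
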