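import Mathlib
import Vale.Agent.P195.Weyl2

/-!
The homogenised Weyl algebra with dual numbers satisfies the interface `WData`.
-/

namespace Vale.Agent.P195

noncomputable section

open MvPolynomial

/-! ### Regular sequences of variables -/

section Poly

variable {A σ : Type} [CommRing A]

theorem X_mul_mem (s : Set σ) (k : σ) (hk : k ∉ s) (w : MvPolynomial σ A)
    (h : X k * w ∈ Ideal.span (X '' s : Set (MvPolynomial σ A))) :
    w ∈ Ideal.span (X '' s : Set (MvPolynomial σ A)) := by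
  rw [mem_ideal_span_X_image] at h ⊢
  intro m hm
  have h1 : Finsupp.single k 1 + m ∈ (X k * w).support := by
    rw [mem_support_iff, coeff_X_mul]
    exact mem_support_iff.mp hm
  obtain ⟨i, hi, hne⟩ := h _ h1
  refine ⟨i, hi, ?_⟩
  have hik : i ≠ k := fun e => hk (e ▸ hi)
  rwa [Finsupp.add_apply, Finsupp.single_eq_of_ne hik, zero_add] at hne

theorem reg1 (i : σ) (q : MvPolynomial σ A) (h : X i * q = 0) : q = 0 :=
  (isRegular_X (n := i)).left (by simpa using h)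

theorem reg2 (i j : σ) (hij : i ≠ j) (a b : MvPolynomial σ A) (h : X i * a + X j * b = 0) :
    ∃ w, a = X j * w ∧ b = -(X i * w) := by
  have h1 : X i * a ∈ Ideal.span (X '' {j} : Set (MvPolynomial σ A)) := by
    rw [Set.image_singleton, Ideal.mem_span_singleton']
    exact ⟨-b, by linear_combination -h⟩
  have h2 := X_mul_mem {j} i hij a h1
  rw [Set.image_singleton, Ideal.mem_span_singleton'] at h2
  obtain ⟨w, rfl⟩ := h2
  refine ⟨w, mul_comm _ _, ?_⟩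
  have h3 : b + X i * w = 0 := reg1 j _ (by linear_combination h)
  exact eq_neg_of_add_eq_zero_left h3

theorem reg3 (i j k : σ) (hi : k ≠ i) (hj : k ≠ j) (w a b : MvPolynomial σ A)
    (h : X k * w = X i * a + X j * b) : ∃ a' b', w = X i * a' + X j * b' := by
  have h1 : X k * w ∈ Ideal.span (X '' {i, j} : Set (MvPolynomial σ A)) := by
    rw [Set.image_pair, Ideal.mem_span_pair]
    exact ⟨a, b, by linear_combination -h⟩
  have h2 := X_mul_mem {i, j} k (by simp [hi, hj]) w h1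
  rw [Set.image_pair, Ideal.mem_span_pair] at h2
  obtain ⟨a', b', rfl⟩ := h2
  exact ⟨a', b', by ring⟩

end Poly

/-! ### Koszul regularity -/

theorem xR1 (w : WA) (h : g 0 * w = 0) : w = 0 :=
  ev_eq_zero (reg1 0 _ (by rw [← ev_x0, h, map_zero]))

theorem hR (w : WA) (h : g 4 * w = 0) : w = 0 :=
  ev_eq_zero (reg1 4 _ (by rw [← ev_h, h, map_zero]))

theorem xR2 (a b : WA) (h : g 0 * a + g 1 * b = 0) : ∃ w, a = g 1 * w ∧ b = -(g 0 * w) := by
  obtain ⟨q, h1, h2⟩ := reg2 0 1 (by decide) (ev a) (ev b)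
    (by rw [← ev_x0, ← ev_x1, ← map_add, h, map_zero])
  obtain ⟨w, rfl⟩ := ev_surj q
  exact ⟨w, ev_inj (by rw [ev_x1, h1]), ev_inj (by rw [map_neg, ev_x0, h2])⟩

theorem xR3 (w a b : WA) (h : g 4 * w = g 0 * a + g 1 * b) :
    ∃ a' b', w = g 0 * a' + g 1 * b' := by
  obtain ⟨q, q', h1⟩ := reg3 0 1 4 (by decide) (by decide) (ev w) (ev a) (ev b)
    (by rw [← ev_x0, ← ev_x1, ← map_add, ← h, ev_h])
  obtain ⟨a', rfl⟩ := ev_surj q
  obtain ⟨b', rfl⟩ := ev_surj q'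
  exact ⟨a', b', ev_inj (by rw [map_add, ev_x0, ev_x1, h1])⟩

theorem pL1 (w : WA) (h : w * g 2 = 0) : w = 0 :=
  ev_eq_zero (reg1 2 _ (by rw [← ev_p0, h, map_zero]))

theorem pL2 (a b : WA) (h : a * g 2 + b * g 3 = 0) : ∃ w, a = w * g 3 ∧ b = -(w * g 2) := by
  obtain ⟨q, h1, h2⟩ := reg2 2 3 (by decide) (ev a) (ev b)
    (by rw [← ev_p0, ← ev_p1, ← map_add, h, map_zero])
  obtain ⟨w, rfl⟩ := ev_surj q
  exact ⟨w, ev_inj (by rw [ev_p1, h1]), ev_inj (by rw [map_neg, ev_p0, h2])⟩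

theorem pL3 (w a b : WA) (h : w * g 4 = a * g 2 + b * g 3) :
    ∃ a' b', w = a' * g 2 + b' * g 3 := by
  obtain ⟨q, q', h1⟩ := reg3 2 3 4 (by decide) (by decide) (ev w) (ev a) (ev b)
    (by rw [← ev_p0, ← ev_p1, ← map_add, ← h, ← h_central, ev_h])
  obtain ⟨a', rfl⟩ := ev_surj q
  obtain ⟨b', rfl⟩ := ev_surj q'
  exact ⟨a', b', ev_inj (by rw [map_add, ev_p0, ev_p1, h1])⟩

theorem e_not (a b : WA) : a * g 2 + b * g 3 ≠ g 5 := by
  intro h
  have h1 := congrArg ev h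
  rw [map_add, ev_p0, ev_p1, ← mul_one (g 5), ev_e, ev_one] at h1
  have h2 := congrArg (fun q => TrivSqZeroExt.snd (constantCoeff q)) h1
  simp at h2

theorem one_not (a b : WA) : a * g 2 + b * g 3 ≠ 1 := by
  intro h
  refine e_not (g 5 * a) (g 5 * b) ?_
  rw [mul_assoc, mul_assoc, ← mul_add, h, mul_one]

/-- The Fourier automorphism. -/
def FF : WA ≃ₐ[ℚ] WA := exists_fourier.choose

theorem F0 : FF (g 0) = g 2 := exists_fourier.choose_spec.1
theorem F1 : FF (g 1) = g 3 := exists_fourier.choose_spec.2.1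
theorem F2 : FF (g 2) = -g 0 := exists_fourier.choose_spec.2.2.1
theorem F3 : FF (g 3) = -g 1 := exists_fourier.choose_spec.2.2.2.1
theorem F4 : FF (g 4) = g 4 := exists_fourier.choose_spec.2.2.2.2.1
theorem F5 : FF (g 5) = g 5 := exists_fourier.choose_spec.2.2.2.2.2

theorem kpair_x : KPair (g 4) (g 0) (g 1) where
  comm := g01
  L1 w h _ := by
    have h1 := pL1 (FF w) (by rw [← F0, ← map_mul, h, map_zero])
    exact FF.injective (by rw [h1, map_zero])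
  L2 a b h := by
    obtain ⟨w, h1, h2⟩ := pL2 (FF a) (FF b)
      (by rw [← F0, ← F1, ← map_mul, ← map_mul, ← map_add, h, map_zero])
    obtain ⟨w, rfl⟩ := FF.surjective w
    exact ⟨w, FF.injective (by rw [h1, map_mul, F1]),
      FF.injective (by rw [h2, map_neg, map_mul, F0])⟩
  L3 w a b h := by
    obtain ⟨a', b', h1⟩ := pL3 (FF w) (FF a) (FF b)
      (by rw [← F0, ← F1, ← F4, ← map_mul, ← map_mul, ← map_mul, ← map_add, h])
    obtain ⟨a', rfl⟩ := FF.surjective a'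
    obtain ⟨b', rfl⟩ := FF.surjective b'
    exact ⟨a', b', FF.injective (by rw [h1, map_add, map_mul, map_mul, F0, F1])⟩
  R1 w h _ := xR1 w h
  R2 := xR2
  R3 := xR3

theorem kpair_p : KPair (g 4) (g 2) (g 3) where
  comm := g23
  L1 w h _ := pL1 w h
  L2 := pL2
  L3 := pL3
  R1 w h _ := by
    obtain ⟨w, rfl⟩ := FF.surjective w
    have h1 := xR1 w (FF.injective (by rw [map_mul, F0, h, map_zero]))
    rw [h1, map_zero]
  R2 a b h := by
    obtain ⟨a, rfl⟩ := FF.surjective a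
    obtain ⟨b, rfl⟩ := FF.surjective b
    obtain ⟨w, h1, h2⟩ := xR2 a b
      (FF.injective (by rw [map_add, map_mul, map_mul, F0, F1, h, map_zero]))
    exact ⟨FF w, by rw [h1, map_mul, F1], by rw [h2, map_neg, map_mul, F0]⟩
  R3 w a b h := by
    obtain ⟨w, rfl⟩ := FF.surjective w
    obtain ⟨a, rfl⟩ := FF.surjective a
    obtain ⟨b, rfl⟩ := FF.surjective b
    obtain ⟨a', b', h1⟩ := xR3 w a b
      (FF.injective (by rw [map_add, map_mul, map_mul, map_mul, F0, F1, F4, h]))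
    exact ⟨FF a', FF b', by rw [h1, map_add, map_mul, map_mul, F0, F1]⟩

theorem one_not_x (a b : WA) : a * g 0 + b * g 1 ≠ 1 := by
  intro h
  refine one_not (FF a) (FF b) ?_
  rw [← F0, ← F1, ← map_mul, ← map_mul, ← map_add, h, map_one]

/-! ### Homogeneous elements are spanned by monomials of the same degree -/

theorem pr_mem {I : Type} (f : I → WA) (df : I → G) (hf : ∀ i, Hom (df i) (f i))
    (hs : ∀ w, ∃ u ∈ Submodule.span ℚ (Set.range f), ∃ v ∈ Submodule.span ℚ (Set.range f),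
      w = u + g 5 * v)
    (d : G) (P : Submodule ℚ WA) (h1 : ∀ i, df i = d → f i ∈ P)
    (h2 : ∀ i, dg 5 + df i = d → g 5 * f i ∈ P) (w : WA) : pr d w ∈ P := by
  obtain ⟨u, hu, v, hv, rfl⟩ := hs w
  rw [map_add]
  refine P.add_mem ?_ ?_
  · induction hu using Submodule.span_induction with
    | mem x hx =>
      obtain ⟨i, rfl⟩ := hx
      rw [(hf i).pr_eq]
      split_ifs with h
      · exact h1 i h
      · exact P.zero_mem
    | zero => rw [map_zero]; exact P.zero_mem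
    | add x y _ _ hx hy => rw [map_add]; exact P.add_mem hx hy
    | smul r x _ hx => rw [map_smul]; exact P.smul_mem r hx
  · induction hv using Submodule.span_induction with
    | mem x hx =>
      obtain ⟨i, rfl⟩ := hx
      rw [((Hom.gen 5).mul (hf i)).pr_eq]
      split_ifs with h
      · exact h2 i h
      · exact P.zero_mem
    | zero => rw [mul_zero, map_zero]; exact P.zero_mem
    | add x y _ _ hx hy => rw [mul_add, map_add]; exact P.add_mem hx hy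
    | smul r x _ hx => rw [mul_smul_comm, map_smul]; exact P.smul_mem r hx

/-- A monomial `u0^a0 u1^a1 h^c v0^b0 v1^b1`. -/
def mn (u0 u1 v0 v1 : WA) (a : Fin 5 →₀ ℕ) : WA :=
  u0 ^ a 0 * (u1 ^ a 1 * (g 4 ^ a 4 * (v0 ^ a 2 * v1 ^ a 3)))

theorem hom_mn {u0 u1 v0 v1 : WA} {c d : G} (h0 : Hom c u0) (h1 : Hom c u1) (h2 : Hom d v0)
    (h3 : Hom d v1) (a : Fin 5 →₀ ℕ) :
    Hom (a 0 • c + (a 1 • c + (a 4 • dg 4 + (a 2 • d + a 3 • d)))) (mn u0 u1 v0 v1 a) :=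
  (h0.pow _).mul ((h1.pow _).mul (((Hom.gen 4).pow _).mul ((h2.pow _).mul (h3.pow _))))

theorem Hom.neg {c : G} {a : WA} (h : Hom c a) : Hom c (-a) := by
  unfold Hom at *
  rw [map_neg, h, AddMonoidAlgebra.single_neg]

/-- Order `x, h, p`. -/
theorem pr_mem_x (d : G) (P : Submodule ℚ WA)
    (h1 : ∀ a : Fin 5 →₀ ℕ, 2 * (a 0 : ℤ) + 2 * a 1 - 2 * a 2 - 2 * a 3 = d.1 →
      2 * (a 4 : ℤ) + 2 * a 2 + 2 * a 3 = d.2 → mn (g 0) (g 1) (g 2) (g 3) a ∈ P)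
    (h2 : ∀ a : Fin 5 →₀ ℕ, 2 * (a 0 : ℤ) + 2 * a 1 - 2 * a 2 - 2 * a 3 - 1 = d.1 →
      2 * (a 4 : ℤ) + 2 * a 2 + 2 * a 3 - 1 = d.2 → g 5 * mn (g 0) (g 1) (g 2) (g 3) a ∈ P)
    (w : WA) (hw : pr d w = w) : w ∈ P := by
  rw [← hw]
  refine pr_mem (mn (g 0) (g 1) (g 2) (g 3)) _
    (hom_mn (c := (2, 0)) (d := (-2, 2)) (Hom.gen 0) (Hom.gen 1) (Hom.gen 2) (Hom.gen 3))
    span_dec d P ?_ ?_ w
  · rintro a rfl
    refine h1 a ?_ ?_ <;> simp [dg] <;> ring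
  · rintro a rfl
    refine h2 a ?_ ?_ <;> simp [dg] <;> ring

theorem span_dec' (w : WA) :
    ∃ u ∈ Submodule.span ℚ (Set.range (mn (g 2) (g 3) (-g 0) (-g 1))),
    ∃ v ∈ Submodule.span ℚ (Set.range (mn (g 2) (g 3) (-g 0) (-g 1))), w = u + g 5 * v := by
  obtain ⟨w, rfl⟩ := FF.surjective w
  obtain ⟨u, hu, v, hv, rfl⟩ := span_dec w
  have key : ∀ u ∈ M0, FF u ∈ Submodule.span ℚ (Set.range (mn (g 2) (g 3) (-g 0) (-g 1))) := by
    intro u hu
    induction hu using Submodule.span_induction with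
    | mem x hx =>
      obtain ⟨a, rfl⟩ := hx
      refine Submodule.subset_span ⟨a, ?_⟩
      simp only [mn, monI, mon, map_mul, map_pow, F0, F1, F2, F3, F4]
    | zero => rw [map_zero]; exact Submodule.zero_mem _
    | add x y _ _ hx hy => rw [map_add]; exact Submodule.add_mem _ hx hy
    | smul r x _ hx => rw [map_smul]; exact Submodule.smul_mem _ r hx
  exact ⟨FF u, key u hu, FF v, key v hv, by rw [map_add, map_mul, F5]⟩

/-- Order `p, h, x`. -/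
theorem pr_mem_p (d : G) (P : Submodule ℚ WA)
    (h1 : ∀ a : Fin 5 →₀ ℕ, 2 * (a 2 : ℤ) + 2 * a 3 - 2 * a 0 - 2 * a 1 = d.1 →
      2 * (a 4 : ℤ) + 2 * a 0 + 2 * a 1 = d.2 → mn (g 2) (g 3) (-g 0) (-g 1) a ∈ P)
    (h2 : ∀ a : Fin 5 →₀ ℕ, 2 * (a 2 : ℤ) + 2 * a 3 - 2 * a 0 - 2 * a 1 - 1 = d.1 →
      2 * (a 4 : ℤ) + 2 * a 0 + 2 * a 1 - 1 = d.2 → g 5 * mn (g 2) (g 3) (-g 0) (-g 1) a ∈ P)
    (w : WA) (hw : pr d w = w) : w ∈ P := by
  rw [← hw]
  refine pr_mem (mn (g 2) (g 3) (-g 0) (-g 1)) _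
    (hom_mn (c := (-2, 2)) (d := (2, 0)) (Hom.gen 2) (Hom.gen 3) (Hom.gen 0).neg (Hom.gen 1).neg)
    span_dec' d P ?_ ?_ w
  · rintro a rfl
    refine h1 a ?_ ?_ <;> simp [dg] <;> ring
  · rintro a rfl
    refine h2 a ?_ ?_ <;> simp [dg] <;> ring

/-! ### One-sided ideals -/

/-- The right ideal `y0 W + y1 W + y2 W`. -/
def RI (y0 y1 y2 : WA) : Submodule ℚ WA where
  carrier := {w | ∃ a b c, w = y0 * a + y1 * b + y2 * c}
  add_mem' := by
    rintro _ _ ⟨a, b, c, rfl⟩ ⟨a', b', c', rfl⟩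
    exact ⟨a + a', b + b', c + c', by simp only [mul_add]; abel⟩
  zero_mem' := ⟨0, 0, 0, by simp⟩
  smul_mem' := by
    rintro r _ ⟨a, b, c, rfl⟩
    exact ⟨r • a, r • b, r • c, by simp only [smul_add, mul_smul_comm]⟩

/-- The left ideal `W y0 + W y1 + W y2`. -/
def LI (y0 y1 y2 : WA) : Submodule ℚ WA where
  carrier := {w | ∃ a b c, w = a * y0 + b * y1 + c * y2}
  add_mem' := by
    rintro _ _ ⟨a, b, c, rfl⟩ ⟨a', b', c', rfl⟩
    exact ⟨a + a', b + b', c + c', by simp only [add_mul]; abel⟩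
  zero_mem' := ⟨0, 0, 0, by simp⟩
  smul_mem' := by
    rintro r _ ⟨a, b, c, rfl⟩
    exact ⟨r • a, r • b, r • c, by simp only [smul_add, smul_mul_assoc]⟩

theorem e_RI {y0 y1 y2 w : WA} (h : w ∈ RI y0 y1 y2) : g 5 * w ∈ RI y0 y1 y2 := by
  obtain ⟨a, b, c, rfl⟩ := h
  exact ⟨g 5 * a, g 5 * b, g 5 * c, by
    rw [mul_add, mul_add, (c5 y0).left_comm, (c5 y1).left_comm, (c5 y2).left_comm]⟩

theorem mul_LI {y0 y1 y2 w : WA} (z : WA) (h : w ∈ LI y0 y1 y2) : z * w ∈ LI y0 y1 y2 := by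
  obtain ⟨a, b, c, rfl⟩ := h
  exact ⟨z * a, z * b, z * c, by simp only [mul_add, mul_assoc]⟩

theorem LI_neg {y0 y1 y2 w : WA} (h : w ∈ LI (-y0) (-y1) y2) : w ∈ LI y0 y1 y2 := by
  obtain ⟨a, b, c, rfl⟩ := h
  exact ⟨-a, -b, c, by simp⟩

theorem RI_a (y0 y1 y2 z : WA) : y0 * z ∈ RI y0 y1 y2 := ⟨z, 0, 0, by simp⟩
theorem RI_b (y0 y1 y2 z : WA) : y1 * z ∈ RI y0 y1 y2 := ⟨0, z, 0, by simp⟩
theorem RI_c (y0 y1 y2 z : WA) : y2 * z ∈ RI y0 y1 y2 := ⟨0, 0, z, by simp⟩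
theorem LI_a (y0 y1 y2 z : WA) : z * y0 ∈ LI y0 y1 y2 := ⟨z, 0, 0, by simp⟩
theorem LI_b (y0 y1 y2 z : WA) : z * y1 ∈ LI y0 y1 y2 := ⟨0, z, 0, by simp⟩
theorem LI_c (y0 y1 y2 z : WA) : z * y2 ∈ LI y0 y1 y2 := ⟨0, 0, z, by simp⟩

theorem mn_RI {u0 u1 v0 v1 : WA} (y : WA) (a : Fin 5 →₀ ℕ)
    (h : 0 < a 0 + a 1) : mn u0 u1 v0 v1 a ∈ RI u0 u1 y := by
  unfold mn
  rcases Nat.eq_zero_or_pos (a 0) with h0 | h0
  · obtain ⟨n, hn⟩ : ∃ n, a 1 = n + 1 := ⟨a 1 - 1, by omega⟩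
    rw [h0, hn, pow_zero, one_mul, pow_succ', mul_assoc]
    exact RI_b _ _ _ _
  · obtain ⟨n, hn⟩ : ∃ n, a 0 = n + 1 := ⟨a 0 - 1, by omega⟩
    rw [hn, pow_succ', mul_assoc]
    exact RI_a _ _ _ _

theorem mn_LI {u0 u1 v0 v1 : WA} (y : WA) (a : Fin 5 →₀ ℕ)
    (h : 0 < a 2 + a 3) : mn u0 u1 v0 v1 a ∈ LI v0 v1 y := by
  unfold mn
  refine mul_LI _ (mul_LI _ (mul_LI _ ?_))
  rcases Nat.eq_zero_or_pos (a 3) with h0 | h0
  · obtain ⟨n, hn⟩ : ∃ n, a 2 = n + 1 := ⟨a 2 - 1, by omega⟩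
    rw [h0, hn, pow_zero, mul_one, pow_succ]
    exact LI_a _ _ _ _
  · obtain ⟨n, hn⟩ : ∃ n, a 3 = n + 1 := ⟨a 3 - 1, by omega⟩
    rw [hn, pow_succ, ← mul_assoc]
    exact LI_b _ _ _ _

theorem mn_h {u0 u1 v0 v1 : WA} (a : Fin 5 →₀ ℕ) (h : 0 < a 4) :
    ∃ z, mn u0 u1 v0 v1 a = g 4 * z := by
  unfold mn
  obtain ⟨n, hn⟩ : ∃ n, a 4 = n + 1 := ⟨a 4 - 1, by omega⟩
  rw [hn, pow_succ', mul_assoc, ← (c4 _).left_comm, ← (c4 _).left_comm]
  exact ⟨_, rfl⟩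

theorem mn_RIh {u0 u1 v0 v1 : WA} (a : Fin 5 →₀ ℕ)
    (h : 0 < a 0 + a 1 + a 4) : mn u0 u1 v0 v1 a ∈ RI u0 u1 (g 4) := by
  rcases Nat.eq_zero_or_pos (a 4) with h0 | h0
  · exact mn_RI _ a (by omega)
  · obtain ⟨z, hz⟩ := mn_h (u0 := u0) (u1 := u1) (v0 := v0) (v1 := v1) a h0
    rw [hz]
    exact RI_c _ _ _ _

theorem mn_LIh {u0 u1 v0 v1 : WA} (a : Fin 5 →₀ ℕ)
    (h : 0 < a 2 + a 3 + a 4) : mn u0 u1 v0 v1 a ∈ LI v0 v1 (g 4) := by
  rcases Nat.eq_zero_or_pos (a 4) with h0 | h0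
  · exact mn_LI _ a (by omega)
  · obtain ⟨z, hz⟩ := mn_h (u0 := u0) (u1 := u1) (v0 := v0) (v1 := v1) a h0
    rw [hz, h_central]
    exact LI_c _ _ _ _

theorem RI_two {y0 y1 w : WA} (h : w ∈ RI y0 y1 0) : ∃ a b, w = y0 * a + y1 * b := by
  obtain ⟨a, b, c, rfl⟩ := h
  exact ⟨a, b, by rw [zero_mul, add_zero]⟩

theorem LI_two {y0 y1 w : WA} (h : w ∈ LI y0 y1 0) : ∃ a b, w = a * y0 + b * y1 := by
  obtain ⟨a, b, c, rfl⟩ := h
  exact ⟨a, b, by rw [mul_zero, add_zero]⟩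

/-! ### The Euler element -/

/-- Eigenvectors of the commutator with the Euler element. -/
def Eig (a : ℚ) : Submodule ℚ WA where
  carrier := {w | (g 0 * g 2 + g 1 * g 3) * w - w * (g 0 * g 2 + g 1 * g 3) = a • (g 4 * w)}
  add_mem' := by
    intro u v hu hv
    simp only [Set.mem_ofPred_eq] at hu hv ⊢
    rw [mul_add _ u v, add_mul u v, mul_add (g 4), smul_add, ← hu, ← hv]
    abel
  zero_mem' := by simp
  smul_mem' := by
    intro r u hu
    simp only [Set.mem_ofPred_eq] at hu ⊢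
    rw [mul_smul_comm, smul_mul_assoc, ← smul_sub, hu, mul_smul_comm, smul_comm]

theorem mem_Eig {a : ℚ} {w : WA} : w ∈ Eig a ↔
    (g 0 * g 2 + g 1 * g 3) * w - w * (g 0 * g 2 + g 1 * g 3) = a • (g 4 * w) := Iff.rfl

theorem Eig_mul {a b : ℚ} {u v : WA} (hu : u ∈ Eig a) (hv : v ∈ Eig b) : u * v ∈ Eig (a + b) := by
  rw [mem_Eig] at *
  generalize g 0 * g 2 + g 1 * g 3 = θ at *
  have h : θ * (u * v) - u * v * θ = (θ * u - u * θ) * v + u * (θ * v - v * θ) := by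
    noncomm_ring
  rw [h, hu, hv, add_smul, smul_mul_assoc, mul_smul_comm, mul_assoc, (c4 u).left_comm]

theorem Eig_pow {a : ℚ} {u : WA} (hu : u ∈ Eig a) (n : ℕ) : u ^ n ∈ Eig (n * a) := by
  induction n with
  | zero => simp [mem_Eig]
  | succ n ih =>
    rw [pow_succ, Nat.cast_succ, add_mul, one_mul]
    exact Eig_mul ih hu

theorem Eig0 : g 0 ∈ Eig 1 := by
  rw [mem_Eig, one_smul, add_mul, mul_add, mul_assoc, mul_assoc, g20, g30, h_central,
    ← mul_assoc (g 1), ← g01]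
  noncomm_ring

theorem Eig1 : g 1 ∈ Eig 1 := by
  rw [mem_Eig, one_smul, add_mul, mul_add, mul_assoc, mul_assoc, g21, g31, h_central,
    ← mul_assoc (g 0), g01]
  noncomm_ring

theorem Eig2 : g 2 ∈ Eig (-1) := by
  rw [mem_Eig, neg_smul, one_smul, add_mul, mul_add, ← mul_assoc (g 2), ← mul_assoc (g 2), g20,
    g21, mul_assoc (g 1) (g 2), g23]
  noncomm_ring

theorem Eig3 : g 3 ∈ Eig (-1) := by
  rw [mem_Eig, neg_smul, one_smul, add_mul, mul_add, ← mul_assoc (g 3), ← mul_assoc (g 3), g30,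
    g31, mul_assoc (g 0) (g 3), ← g23]
  noncomm_ring

theorem Eig4 : g 4 ∈ Eig 0 := by
  rw [mem_Eig, zero_smul, h_central, sub_self]

theorem Eig_mn (a : Fin 5 →₀ ℕ) :
    mn (g 0) (g 1) (g 2) (g 3) a ∈ Eig ((a 0 : ℚ) + a 1 - a 2 - a 3) := by
  have h := Eig_mul (Eig_pow Eig0 (a 0)) (Eig_mul (Eig_pow Eig1 (a 1))
    (Eig_mul (Eig_pow Eig4 (a 4)) (Eig_mul (Eig_pow Eig2 (a 2)) (Eig_pow Eig3 (a 3)))))
  have e : ((a 0 : ℚ) + a 1 - a 2 - a 3) =
      (a 0 : ℚ) * 1 + (a 1 * 1 + (a 4 * 0 + (a 2 * (-1) + a 3 * (-1)))) := by ring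
  rw [e]
  exact h

/-! ### The remaining properties -/

theorem eps_surj' (d : G) (w : WA) (hd : d.1 % 2 = 1) (hw : pr d w = w) : ∃ v, w = g 5 * v := by
  have h := pr_mem_x d (RI (g 5) 0 0) (fun a h1 _ => by omega)
    (fun a _ _ => RI_a _ _ _ _) w hw
  obtain ⟨a, b, c, rfl⟩ := h
  exact ⟨a, by rw [zero_mul, zero_mul, add_zero, add_zero]⟩

theorem eps_inj' (d : G) (w : WA) (hd : d.1 % 2 = 0) (hw : pr d w = w) (h : g 5 * w = 0) :
    w = 0 := by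
  obtain ⟨v, rfl⟩ := e_ker h
  have hd' : d = dg 5 + (d - dg 5) := by abel
  have h1 := pr_hom_mul (Hom.gen 5) (d - dg 5) v
  rw [← hd', hw] at h1
  obtain ⟨v', hv'⟩ := eps_surj' (d - dg 5) (pr (d - dg 5) v) (by simp [dg]; omega)
    (hom_pr _ _).pr_self
  rw [h1, hv', ← mul_assoc, g_sq, zero_mul]

theorem fin' (d : G) : Module.Finite ℚ (LinearMap.range (pr d)) := by
  let N : Fin 5 →₀ ℕ := Finsupp.equivFunOnFinite.symm fun _ => d.1.natAbs + d.2.natAbs + 2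
  let S : Set WA := (mn (g 0) (g 1) (g 2) (g 3) '' Set.Iic N) ∪
    ((fun a => g 5 * mn (g 0) (g 1) (g 2) (g 3) a) '' Set.Iic N)
  have hS : S.Finite := ((Set.finite_Iic N).image _).union ((Set.finite_Iic N).image _)
  have : Module.Finite ℚ (Submodule.span ℚ S) := Module.Finite.span_of_finite ℚ hS
  refine Submodule.finiteDimensional_of_le (S₂ := Submodule.span ℚ S) ?_
  rintro _ ⟨w, rfl⟩
  have hN : ∀ a : Fin 5 →₀ ℕ, a 0 ≤ d.1.natAbs + d.2.natAbs + 2 →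
      a 1 ≤ d.1.natAbs + d.2.natAbs + 2 → a 2 ≤ d.1.natAbs + d.2.natAbs + 2 →
      a 3 ≤ d.1.natAbs + d.2.natAbs + 2 → a 4 ≤ d.1.natAbs + d.2.natAbs + 2 → a ∈ Set.Iic N := by
    intro a h0 h1 h2 h3 h4 i
    fin_cases i
    · exact h0
    · exact h1
    · exact h2
    · exact h3
    · exact h4
  refine pr_mem_x d _ (fun a h1 h2 => ?_) (fun a h1 h2 => ?_) _ (hom_pr d w).pr_self
  · exact Submodule.subset_span (Or.inl ⟨a, hN a (by omega) (by omega) (by omega) (by omega)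
      (by omega), rfl⟩)
  · exact Submodule.subset_span (Or.inr ⟨a, hN a (by omega) (by omega) (by omega) (by omega)
      (by omega), rfl⟩)

/-- The data. -/
def wdata : WData WA where
  pr := pr
  x0 := g 0
  x1 := g 1
  p0 := g 2
  p1 := g 3
  h := g 4
  e := g 5
  pr_pr d w := (hom_pr d w).pr_self
  pr_mul_right c d a w hw := pr_mul_hom (hom_of_pr hw) d a
  pr_mul_left c d a w hw := pr_hom_mul (hom_of_pr hw) d a
  pr_one := Hom.one.pr_self
  pr_x0 := (Hom.gen 0).pr_self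
  pr_x1 := (Hom.gen 1).pr_self
  pr_p0 := (Hom.gen 2).pr_self
  pr_p1 := (Hom.gen 3).pr_self
  pr_h := (Hom.gen 4).pr_self
  pr_e := (Hom.gen 5).pr_self
  fin := fin'
  h_comm := h_central
  e_comm := e_central
  e_sq := g_sq
  h_reg := hR
  kx := kpair_x
  kp := kpair_p
  p0x0 := g20
  p1x1 := g31
  p0x1 := g21
  p1x0 := g30
  suppx d w hd hw :=
    ⟨LI_two (LI_neg (pr_mem_p d _ (fun a _ _ => mn_LI _ a (by omega))
      (fun a _ _ => mul_LI _ (mn_LI _ a (by omega))) w hw)),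
    RI_two (pr_mem_x d _ (fun a _ _ => mn_RI _ a (by omega))
      (fun a _ _ => e_RI (mn_RI _ a (by omega))) w hw)⟩
  suppp d w hd hw :=
    ⟨LI_two (pr_mem_x d _ (fun a _ _ => mn_LI _ a (by omega))
      (fun a _ _ => mul_LI _ (mn_LI _ a (by omega))) w hw),
    RI_two (pr_mem_p d _ (fun a _ _ => mn_RI _ a (by omega))
      (fun a _ _ => e_RI (mn_RI _ a (by omega))) w hw)⟩
  suppxh d w hd hw :=
    ⟨LI_neg (pr_mem_p d _ (fun a _ _ => mn_LIh a (by omega))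
      (fun a _ _ => mul_LI _ (mn_LIh a (by omega))) w hw),
    pr_mem_x d (RI _ _ _) (fun a _ _ => mn_RIh a (by omega))
      (fun a _ _ => e_RI (mn_RIh a (by omega))) w hw⟩
  suppph d w hd hw :=
    ⟨pr_mem_x d (LI _ _ _) (fun a _ _ => mn_LIh a (by omega))
      (fun a _ _ => mul_LI _ (mn_LIh a (by omega))) w hw,
    pr_mem_p d (RI _ _ _) (fun a _ _ => mn_RIh a (by omega))
      (fun a _ _ => e_RI (mn_RIh a (by omega))) w hw⟩
  eps_inj := eps_inj'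
  eps_surj := eps_surj'
  euler a b w hw := by
    refine mem_Eig.mp (pr_mem_x (2 * a, 2 * b) (Eig a) (fun m h1 _ => ?_)
      (fun m h1 _ => ?_) w hw)
    · have h2 : a = (m 0 : ℤ) + m 1 - m 2 - m 3 := by
        simp only at h1
        omega
      have h3 : (a : ℚ) = (m 0 : ℚ) + m 1 - m 2 - m 3 := by
        rw [h2]; push_cast; ring
      rw [h3]
      exact Eig_mn m
    · simp only at h1
      omega
  one_notMem := one_not_x
  e_notMem := e_not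

theorem exists_wdata : ∃ (W : Type) (_ : Ring W) (_ : Algebra ℚ W), Nonempty (WData W) :=
  ⟨WA, instRingWA, instAlgebraWA, ⟨wdata⟩⟩

end

end Vale.Agent.P195
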