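import Vale.Agent.P195.Reg

/-!
The auxiliary algebras and the comparison of Ext groups.
-/

namespace Vale.Agent.P195

open CategoryTheory Limits Abelian Function

variable {W : Type} [Ring W] [Algebra ℚ W]

/-- The degrees of the presentation of `T 1`. -/
def OmL : List G := [(1, 1), (3, 1), (-1, 3), (1, 3), (3, 3), (-1, 5), (1, 5)]

lemma om_cases {Q : G → Prop} (h1 : Q (1, 1)) (h2 : Q (3, 1)) (h3 : Q (-1, 3)) (h4 : Q (1, 3))
    (h5 : Q (3, 3)) (h6 : Q (-1, 5)) (h7 : Q (1, 5)) : ∀ μ ∈ OmL, Q μ := by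
  intro μ h
  simp only [OmL, List.mem_cons, List.not_mem_nil, or_false] at h
  rcases h with rfl | rfl | rfl | rfl | rfl | rfl | rfl <;> assumption

lemma om_facts : ∀ μ ∈ OmL, μ.1 % 2 = 1 ∧ -1 ≤ μ.1 ∧ 1 ≤ μ.2 ∧ 2 ≤ μ.1 + μ.2 ∧
    WData.Gd 1 μ ∧ WData.Gd 0 (μ - ed) ∧ μ.1 ≤ 3 ∧ (μ.1 = 3 → 1 ≤ μ.2) := by
  refine om_cases ?_ ?_ ?_ ?_ ?_ ?_ ?_ <;> simp [WData.Gd]

namespace WData

variable (D : WData W)

/-- The projective module of the window. -/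
noncomputable def PO : D.M := sumL (OmL.map D.P)

/-- The module whose endomorphism ring is the counterexample. -/
noncomputable def V : D.M := D.T 0 ⊞ D.T 1

/-- The enlarged module. -/
noncomputable def Vp : D.M := D.V ⊞ D.PO

/-- `V` is a retract of the enlarged module. -/
noncomputable def rV : Retract D.V D.Vp := retrL _ _

/-- The window is a retract of the enlarged module. -/
noncomputable def rPO : Retract D.PO D.Vp := retrR _ _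

/-- `T 0` is a retract of `V`. -/
noncomputable def rT0 : Retract (D.T 0) D.V := retrL _ _

/-- `T 1` is a retract of `V`. -/
noncomputable def rT1 : Retract (D.T 1) D.V := retrR _ _

variable {D}

lemma bp_PO {Q : D.M → Prop} (hQ : BP Q) (h : ∀ μ ∈ OmL, Q (D.P μ)) : Q D.PO := by
  refine hQ.sumL _ fun A hA => ?_
  obtain ⟨μ, hμ, rfl⟩ := List.mem_map.1 hA
  exact h μ hμ

lemma bp_V {Q : D.M → Prop} (hQ : BP Q) (h0 : Q (D.T 0)) (h1 : Q (D.T 1)) : Q D.V :=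
  hQ.add _ _ h0 h1

lemma bp_Vp {Q : D.M → Prop} (hQ : BP Q) (h0 : Q (D.T 0)) (h1 : Q (D.T 1))
    (h : ∀ μ ∈ OmL, Q (D.P μ)) : Q D.Vp :=
  hQ.add _ _ (bp_V hQ h0 h1) (bp_PO hQ h)

lemma retract_PO {μ : G} (h : μ ∈ OmL) : Nonempty (Retract (D.P μ) D.PO) :=
  retract_sumL _ (List.mem_map.2 ⟨μ, h, rfl⟩)

instance : Projective D.PO := bp_PO bp_projective fun _ _ => inferInstance

instance : Projective ((coy D.Vp).obj D.V) := coy_projective D.rV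

instance : Projective ((coy D.Vp).obj D.PO) := coy_projective D.rPO

instance : PreservesFiniteColimits (coy2 D.Vp D.PO) := coy2_preservesFiniteColimits D.rPO

lemma finite_V {U : D.M} (h : LF U) : Module.Finite ℚ (D.V ⟶ U) :=
  bp_V (bp_finite_left U) (finite_T 0 h) (finite_T 1 h)

lemma finite_Vp {U : D.M} (h : LF U) : Module.Finite ℚ (D.Vp ⟶ U) :=
  bp_Vp (bp_finite_left U) (finite_T 0 h) (finite_T 1 h) fun μ _ => h μ

lemma lf_V : LF D.V := bp_V bp_lf (reg_T 0).2.2 (reg_T 1).2.2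

lemma lf_Vp : LF D.Vp := bp_Vp bp_lf (reg_T 0).2.2 (reg_T 1).2.2 fun μ _ => lf_P μ

instance : IsNoetherianRing (End D.Vp)ᵐᵒᵖ :=
  have := finite_Vp (D := D) lf_Vp
  end_op_noetherian _

lemma Fp_finite {U : D.M} (h : LF U) : Module.Finite (End D.Vp)ᵐᵒᵖ ((coy D.Vp).obj U) :=
  have := finite_Vp h
  coy_finite _ _

lemma FO_isIso {A B : D.M} (f : A ⟶ B) (h : ∀ ν ∈ OmL, InjAt ν f ∧ SurjAt ν f) :
    IsIso ((coy2 D.Vp D.PO).map f) :=
  coy2_isIso D.rPO f (bp_PO (bp_homInj f) fun ν hν => (h ν hν).1.homInj)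
    (bp_PO (bp_homSurj f) fun ν hν => (h ν hν).2.homSurj)

lemma FO_isZero {A : D.M} (h : ∀ ν ∈ OmL, VanAt ν A) : IsZero ((coy2 D.Vp D.PO).obj A) :=
  coy2_isZero D.rPO (bp_PO (bp_homZero A) fun ν hν => (h ν hν).hom_zero)

section Omega

variable {Y : D.M}

lemma piO_base {μ : G} (h : μ ∈ OmL) : Pi (coy2 D.Vp D.PO) (D.P μ) Y := by
  obtain ⟨r⟩ := retract_PO (D := D) h
  have : Projective ((coy2 D.Vp D.PO).obj (D.P μ)) := coy_projective (r.map (coy D.Vp))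
  exact pi_of_map_bij (coy2_bij D.rPO r Y) (nullPos_projective _ _) (nullPos_projective _ _)

lemma piO_even (hY : EpsG 0 Y) {μ ν : G} (h : μ ∈ OmL) (e : μ = ν + ed) :
    Pi (coy2 D.Vp D.PO) (D.P ν) Y := by
  have h1 := om_facts μ h
  have : IsIso ((coy2 D.Vp D.PO).map (D.rmul μ ν D.e)) := by
    refine FO_isIso _ fun κ hκ => ?_
    have h2 := (om_facts κ hκ).1
    exact ⟨injAt_e e (by omega), surjAt_e e (by omega)⟩
  refine (piO_base h).of_preBij (f := D.rmul μ ν D.e) ?_ (preBij_of_isIso _ _)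
  refine preBij_of_hom _ (nullPos_projective _ _) (nullPos_projective _ _) (pre_e_bij e (hY _ ?_))
  have h3 := h1.2.2.2.2.2.1
  rwa [e, add_sub_cancel_right] at h3

lemma piO_null {N : D.M} (h : Null N Y) (h' : ∀ ν ∈ OmL, VanAt ν N) :
    Pi (coy2 D.Vp D.PO) N Y :=
  pi_of_null _ h (van_of_isZero (FO_isZero h') _)

lemma piO_chain (hn : Nul0 0 Y) (hY : EpsG 0 Y) :
    Pi (coy2 D.Vp D.PO) D.Vp Y ∧ Pi (coy2 D.Vp D.PO) (D.P (-2, 2)) Y ∧
      Pi (coy2 D.Vp D.PO) (D.pp.N (2, 0)) Y := by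
  have hQ := tt_pi (coy2 D.Vp D.PO) Y
  have hN := tt_null_left Y
  have p22 := piO_even hY (μ := (1, 1)) (ν := (2, 2)) (by simp [OmL]) rfl
  have p42 := piO_even hY (μ := (3, 1)) (ν := (4, 2)) (by simp [OmL]) rfl
  have p04 := piO_even hY (μ := (-1, 3)) (ν := (0, 4)) (by simp [OmL]) rfl
  have p24 := piO_even hY (μ := (1, 3)) (ν := (2, 4)) (by simp [OmL]) rfl
  have p44 := piO_even hY (μ := (3, 3)) (ν := (4, 4)) (by simp [OmL]) rfl
  have p06 := piO_even hY (μ := (-1, 5)) (ν := (0, 6)) (by simp [OmL]) rfl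
  have p26 := piO_even hY (μ := (1, 5)) (ν := (2, 6)) (by simp [OmL]) rfl
  have nx : ∀ b : ℤ, (b = 2 ∨ b = 4 ∨ b = 6) → Pi (coy2 D.Vp D.PO) (D.px.N (-2, b)) Y := by
    intro b hb
    refine piO_null (hn.1 _ (Or.inl ⟨rfl, by simpa using hb⟩)) fun ν hν => vanAt_N_x ?_
    have := om_facts ν hν
    dsimp only
    omega
  have nxh : ∀ b : ℤ, (b = 0 ∨ b = 2) → Pi (coy2 D.Vp D.PO) (D.px.N3 (0, b)) Y := by
    intro b hb
    refine piO_null (D.px.tt_N3 hN rfl (hn.1 _ ?_) (hn.1 _ ?_)) fun ν hν => vanAt_N3_x ?_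
    · simp only [Kx, Prod.fst_add, Prod.snd_add]
      omega
    · simp only [Kx, true_and]
      omega
    · have := om_facts ν hν
      dsimp only
      omega
  have nph : ∀ a : ℤ, (a = 2 ∨ a = 4) → Pi (coy2 D.Vp D.PO) (D.pp.N3 (a, 0)) Y := by
    intro a ha
    refine piO_null (hn.2 _ ⟨rfl, by simpa using ha⟩) fun ν hν => vanAt_N3_p ?_
    have := om_facts ν hν
    dsimp only
    omega
  have pm4 : Pi _ (D.P (-2, 4)) Y := D.px.tt_P hQ rfl rfl p24 p04 (nx 4 (by simp))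
  have pm6 : Pi _ (D.P (-2, 6)) Y := D.px.tt_P hQ rfl rfl p26 p06 (nx 6 (by simp))
  have x04 : Pi _ (D.px.N (0, 4)) Y := D.px.tt_N hQ rfl rfl p44 p24 p04
  have x02 : Pi _ (D.px.N (0, 2)) Y := D.px.tt_N_of_N3 hQ rfl x04 (nxh 2 (by simp))
  have p02 : Pi _ (D.P (0, 2)) Y := D.px.tt_P hQ rfl rfl p42 p22 x02
  have pm2 : Pi _ (D.P (-2, 2)) Y := D.px.tt_P hQ rfl rfl p22 p02 (nx 2 (by simp))
  have c22 : Pi _ (D.pp.N (2, 2)) Y := D.pp.tt_N hQ rfl rfl pm6 p04 p22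
  have c20 : Pi _ (D.pp.N (2, 0)) Y := D.pp.tt_N_of_N3 hQ rfl c22 (nph 2 (by simp))
  have p20 : Pi _ (D.P (2, 0)) Y := D.pp.tt_P hQ rfl rfl pm4 p02 c20
  have c42 : Pi _ (D.pp.N (4, 2)) Y := D.pp.tt_N hQ rfl rfl p06 p24 p42
  have c40 : Pi _ (D.pp.N (4, 0)) Y := D.pp.tt_N_of_N3 hQ rfl c42 (nph 4 (by simp))
  have p40 : Pi _ (D.P (4, 0)) Y := D.pp.tt_P hQ rfl rfl p04 p22 c40
  have x00 : Pi _ (D.px.N (0, 0)) Y := D.px.tt_N_of_N3 hQ rfl x02 (nxh 0 (by simp))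
  have p00 : Pi _ (D.P (0, 0)) Y := D.px.tt_P hQ rfl rfl p40 p20 x00
  refine ⟨bp_Vp hQ.bp (bp_T hQ.bp p00 p02 p04 (D.px.tt_S hQ (ex 0) rfl p22 p02 p20)
    (D.pp.tt_S hQ (ep 0) rfl pm4 p02 pm2))
    (bp_T hQ.bp (piO_base (by simp [OmL])) (piO_base (by simp [OmL])) (piO_base (by simp [OmL]))
      (D.px.tt_S hQ (ex 1) rfl (piO_base (by simp [OmL])) (piO_base (by simp [OmL]))
        (piO_base (by simp [OmL])))
      (D.pp.tt_S hQ (ep 1) rfl (piO_base (by simp [OmL])) (piO_base (by simp [OmL]))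
        (piO_base (by simp [OmL])))) fun μ hμ => piO_base hμ, pm2, c20⟩

lemma nullPos_Vp (hn : Nul0 0 Y) (hY : EpsG 0 Y) (ho : Onto3 D.pp (-2, 4) Y) :
    NullPos D.Vp Y :=
  bp_Vp (bp_nullPos_left Y) (nullPos_T 0 (hn.onto_x (by simp [Kx])).onto3 ho)
    (nullPos_T 1
      ((hn.onto_x (μ := (4, 4)) (by simp [Kx])).onto3.eps (hY _ (by simp [Gd])).2 rfl)
      ((hn.onto_ph (μ := (0, 6)) (by simp [Kph])).eps (hY _ (by simp [Gd])).2 rfl))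
    fun _ _ => nullPos_projective _ _

lemma piE' (hn : Nul0 0 Y) (hY : EpsG 0 Y) (ho : Onto3 D.pp (-2, 4) Y)
    (U : ModuleCat.{0} (End D.Vp)ᵐᵒᵖ) (hU : Module.Finite (End D.Vp)ᵐᵒᵖ U) :
    Pi (coy ((coy D.Vp).obj D.PO)) U ((coy D.Vp).obj Y) := by
  have h1 := (piO_chain hn hY).1
  have : Projective ((coy D.Vp).obj D.Vp) := coy_projective (Retract.refl _)
  have h2 : Pi (coy ((coy D.Vp).obj D.PO)) ((coy D.Vp).obj D.Vp) ((coy D.Vp).obj Y) := by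
    refine pi_of_map_bij ?_ (nullPos_projective _ _)
      fun n => h1.van_map (nullPos_Vp hn hY ho n)
    exact (Bijective.of_comp_iff _ (coy_bij (Retract.refl _) Y)).1 h1.map_bij
  exact pi_of_fg ((tt_pi _ _).iso (coyIso D.Vp).symm h2) U hU

end Omega

lemma homSurj_Vp {l : ℤ} (hl : l = 0 ∨ l = 1) {A U : D.M} (hU : Reg l U) (hA : Reg l A)
    {φ : A ⟶ U} (h : ∀ ψ : D.T l ⟶ U, ∃ χ : D.T l ⟶ A, χ ≫ φ = ψ) :
    ∀ ψ : D.Vp ⟶ U, ∃ χ : D.Vp ⟶ A, χ ≫ φ = ψ := by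
  have hs := hU.surjAt h
  have hK := hU.kernel hA hs
  have he : ∀ μ ν, Gd l μ → ν = μ + ed → SurjAt ν φ :=
    fun μ ν hμ e => (hs μ hμ).eps (hU.2.1 μ hμ).2 e
  rcases hl with rfl | rfl
  · refine bp_Vp (bp_homSurj φ) h (homSurj_T 1 (ker_ap φ) (ker_ex φ)
      (he (2, 2) _ (by simp [Gd]) rfl) (he (2, 4) _ (by simp [Gd]) rfl)
      (he (2, 6) _ (by simp [Gd]) rfl) (he (4, 2) _ (by simp [Gd]) rfl)
      (he (0, 4) _ (by simp [Gd]) rfl)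
      ((hK.1.1.onto_x (μ := (4, 4)) (by simp [Kx])).onto3.eps (hK.2.1 _ (by simp [Gd])).2 rfl)
      ((hK.1.1.onto_ph (μ := (0, 6)) (by simp [Kph])).eps (hK.2.1 _ (by simp [Gd])).2 rfl))
      fun μ hμ => (he (μ - ed) μ (om_facts μ hμ).2.2.2.2.2.1 (by simp)).homSurj
  · refine bp_Vp (bp_homSurj φ) (homSurj_T 0 (ker_ap φ) (ker_ex φ)
      (he (1, 1) _ (by simp [Gd]) rfl) (he (1, 3) _ (by simp [Gd]) rfl)
      (he (1, 5) _ (by simp [Gd]) rfl) (he (3, 1) _ (by simp [Gd]) rfl)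
      (he (-1, 3) _ (by simp [Gd]) rfl)
      ((hK.1.1.onto_x (μ := (3, 3)) (by simp [Kx])).onto3.eps (hK.2.1 _ (by simp [Gd])).2 rfl)
      (hK.1.onto_p.onto3.eps (hK.2.1 _ (by simp [Gd])).2 rfl)) h
      fun μ hμ => (hs μ (om_facts μ hμ).2.2.2.2.1).homSurj

lemma piE_retract {U : D.M} (r : Retract U D.V) (Y : ModuleCat.{0} (End D.Vp)ᵐᵒᵖ) :
    Pi (coy ((coy D.Vp).obj D.V)) ((coy D.Vp).obj U) Y :=
  pi_coy (r.map (coy D.Vp)) Y

lemma piE_reg {l : ℤ} (hl : l = 0 ∨ l = 1) (Y : ModuleCat.{0} (End D.Vp)ᵐᵒᵖ) {U : D.M}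
    (hU : Reg l U) : Pi (coy ((coy D.Vp).obj D.V)) ((coy D.Vp).obj U) Y := by
  refine pi_of_class (ι := {U : D.M // Reg l U}) (fun i => (coy D.Vp).obj i.1) ?_ ⟨U, hU⟩
  rintro ⟨U, hU⟩
  have := finite_T l hU.2.2
  obtain ⟨A, φ, h1, h2⟩ := exists_approx (D.T l) U
  have hA : Reg l A := (bp_reg l).addC (reg_T l) h1
  refine ⟨⟨kernel φ, hU.kernel hA (hU.surjAt h2)⟩, (coy D.Vp).obj A, (coy D.Vp).map (kernel.ι φ),
    (coy D.Vp).map φ, coy_ses _ (kernel.condition φ) (ShortComplex.exact_kernel φ)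
      (homSurj_Vp hl hU hA h2), ?_⟩
  refine ((tt_pi _ Y).bp_comp (coy D.Vp)).addC ?_ h1
  rcases hl with rfl | rfl
  · exact piE_retract D.rT0 Y
  · exact piE_retract D.rT1 Y

end WData

end Vale.Agent.P195
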